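import Crest.Agent.R52.Defs

/-! Row 52: unnormalised biased Fourier coefficients and the Hoffman-type identity. -/

set_option autoImplicit false

namespace Crest.Agent.R52

open Finset Crest.Agent.Lib.Sunflower

variable {X : Type} [Fintype X] [DecidableEq X]

/-- Centred coordinate function. -/
noncomputable def psi (p : ℝ) (w : Finset X) (i : X) : ℝ := (if i ∈ w then 1 else 0) - p

/-- Unnormalised biased Fourier coefficient. -/
noncomputable def coef (p : ℝ) (a : Finset X → ℝ) (T : Finset X) : ℝ :=
  ∑ w : Finset X, wt p w * a w * ∏ i ∈ T, psi p w i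

lemma coef_empty (p : ℝ) (E : Finset X → Prop) : coef p (fun w => ind (E w)) ∅ = pr p E := by
  simp [coef, pr]

lemma sum_coef_mul (p c : ℝ) (S : Finset X) (a b : Finset X → ℝ) :
    ∑ T ∈ S.powerset, c ^ T.card * (coef p a T * coef p b T) =
      ∑ x : Finset X, ∑ y : Finset X, wt p x * a x * (wt p y * b y) *
        ∏ i ∈ S, (1 + c * (psi p x i * psi p y i)) := by
  simp_rw [Finset.prod_one_add, Finset.mul_sum, coef, Finset.sum_mul_sum, Finset.mul_sum]
  rw [Finset.sum_comm]
  refine Finset.sum_congr rfl fun x _ => ?_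
  rw [Finset.sum_comm]
  refine Finset.sum_congr rfl fun y _ => ?_
  refine Finset.sum_congr rfl fun T _ => ?_
  rw [Finset.prod_mul_distrib, Finset.prod_mul_distrib, Finset.prod_const]
  ring

lemma parseval {p : ℝ} (h0 : 0 < p) (h1 : p < 1) (a : Finset X → ℝ) :
    ∑ T : Finset X, (1 / (p * (1 - p))) ^ T.card * (coef p a T * coef p a T) =
      ∑ x : Finset X, wt p x * (a x * a x) := by
  have hq : 0 < 1 - p := by linarith
  rw [← Finset.powerset_univ, sum_coef_mul]
  refine Finset.sum_congr rfl fun x _ => ?_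
  have key : ∀ y : Finset X, wt p y * ∏ i : X, (1 + 1 / (p * (1 - p)) * (psi p x i * psi p y i)) =
      if y = x then 1 else 0 := by
    intro y
    unfold wt
    rw [← Finset.prod_mul_distrib]
    split_ifs with h
    · subst h
      refine Finset.prod_eq_one fun i _ => ?_
      by_cases hi : i ∈ y <;> simp only [psi, hi, if_true, if_false] <;> field_simp <;> ring
    · have : ∃ i, ¬ (i ∈ y ↔ i ∈ x) := by
        by_contra hc
        push Not at hc
        exact h (Finset.ext hc)
      obtain ⟨i, hi⟩ := this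
      refine Finset.prod_eq_zero (Finset.mem_univ i) ?_
      by_cases hy : i ∈ y <;> by_cases hx : i ∈ x <;> simp only [hy, hx, iff_true, iff_false,
        not_true_eq_false, not_false_eq_true, iff_self] at hi <;>
        simp only [psi, hy, hx, if_true, if_false] <;> field_simp <;> ring
  have : ∀ y : Finset X, wt p x * a x * (wt p y * a y) *
      ∏ i : X, (1 + 1 / (p * (1 - p)) * (psi p x i * psi p y i)) =
      wt p x * a x * a y * (if y = x then 1 else 0) := by
    intro y; rw [← key y]; ring
  simp_rw [this]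
  simp [mul_assoc]

/-- Parseval without the constant term, for an indicator. -/
lemma parseval_ind {p : ℝ} (h0 : 0 < p) (h1 : p < 1) (E : Finset X → Prop) :
    ∑ T ∈ Finset.univ.erase (∅ : Finset X), (1 / (p * (1 - p))) ^ T.card *
      (coef p (fun w => ind (E w)) T * coef p (fun w => ind (E w)) T) =
      pr p E - pr p E * pr p E := by
  have h := parseval h0 h1 (fun w => ind (E w))
  simp_rw [ind_mul_self] at h
  rw [← Finset.add_sum_erase _ _ (Finset.mem_univ ∅), coef_empty] at h
  simp only [Finset.card_empty, pow_zero, one_mul] at h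
  unfold pr at h ⊢
  linarith

/-- The weighted energy bound used for covers. -/
lemma energy_le {p t : ℝ} (h0 : 0 < p) (h1 : p < 1) (ht0 : 0 ≤ t) (ht : t * (p * (1 - p)) ≤ 1)
    (E : Finset X → Prop) :
    ∑ T ∈ Finset.univ.erase (∅ : Finset X), t ^ T.card *
      (coef p (fun w => ind (E w)) T * coef p (fun w => ind (E w)) T) ≤
      pr p E - pr p E * pr p E := by
  rw [← parseval_ind h0 h1 E]
  refine Finset.sum_le_sum fun T _ => mul_le_mul_of_nonneg_right ?_ (mul_self_nonneg _)
  refine pow_le_pow_left₀ ht0 ?_ _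
  rw [le_div_iff₀ (mul_pos h0 (by linarith))]
  exact ht

/-- The Hoffman kernel. -/
noncomputable def ker (p : ℝ) (S x y : Finset X) : ℝ :=
  ∏ i ∈ S, (1 + (-1 / p ^ 2) * (psi p x i * psi p y i))

lemma hoffman (p : ℝ) (S : Finset X) (a b : Finset X → ℝ) :
    ∑ T ∈ S.powerset, (-1 / p ^ 2) ^ T.card * (coef p a T * coef p b T) =
      ∑ x : Finset X, ∑ y : Finset X, wt p x * a x * (wt p y * b y) * ker p S x y :=
  sum_coef_mul p _ S a b

lemma ker_eq_zero {p : ℝ} (h0 : 0 < p) {S x y : Finset X} (h : ¬ S ⊆ x ∪ y) :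
    ker p S x y = 0 := by
  obtain ⟨i, hiS, hi⟩ := Finset.not_subset.mp h
  rw [Finset.mem_union, not_or] at hi
  refine Finset.prod_eq_zero hiS ?_
  simp only [psi, hi.1, hi.2, if_false]
  field_simp
  ring

lemma abs_ker_le {p : ℝ} (h0 : 0 < p) (h1 : p ≤ 1) (S x y : Finset X) :
    |ker p S x y| ≤ (1 / p) ^ (x ∩ S).card * (1 / p) ^ (y ∩ S).card := by
  have e : ∀ w : Finset X, (1 / p) ^ (w ∩ S).card = ∏ i ∈ S, if i ∈ w then 1 / p else 1 := by
    intro w
    rw [Finset.prod_ite, Finset.prod_const_one, mul_one, Finset.prod_const,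
      Finset.filter_mem_eq_inter, Finset.inter_comm]
  rw [e, e, ← Finset.prod_mul_distrib, ker, Finset.abs_prod]
  refine Finset.prod_le_prod (fun i _ => abs_nonneg _) fun i _ => ?_
  by_cases hx : i ∈ x <;> by_cases hy : i ∈ y <;> simp only [psi, hx, hy, if_true, if_false]
  · have : 1 + -1 / p ^ 2 * ((1 - p) * (1 - p)) = (2 * p - 1) * (1 / p * (1 / p)) := by
      field_simp; ring
    rw [this, abs_mul, abs_of_pos (show 0 < 1 / p * (1 / p) by positivity)]
    refine mul_le_of_le_one_left (by positivity) ?_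
    rw [abs_le]; constructor <;> linarith
  · have : 1 + -1 / p ^ 2 * ((1 - p) * (0 - p)) = 1 / p * 1 := by field_simp; ring
    rw [this, abs_of_pos (by positivity)]
  · have : 1 + -1 / p ^ 2 * ((0 - p) * (1 - p)) = 1 * (1 / p) := by field_simp; ring
    rw [this, abs_of_pos (by positivity)]
  · have : 1 + -1 / p ^ 2 * ((0 - p) * (0 - p)) = 0 := by field_simp; ring
    rw [this]; simp

/-- Lower bound of the Hoffman form in terms of the main term and the fluctuation. -/
lemma hoffman_lower {p : ℝ} (S : Finset X) (E F : Finset X → Prop) :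
    pr p E * pr p F - ∑ T ∈ S.powerset.erase ∅, (1 / p ^ 2) ^ T.card *
        (|coef p (fun w => ind (E w)) T| * |coef p (fun w => ind (F w)) T|) ≤
      ∑ x : Finset X, ∑ y : Finset X,
        wt p x * ind (E x) * (wt p y * ind (F y)) * ker p S x y := by
  rw [← hoffman, ← Finset.add_sum_erase _ _ (Finset.empty_mem_powerset S), coef_empty, coef_empty]
  simp only [Finset.card_empty, pow_zero, one_mul]
  rw [sub_eq_add_neg, ← Finset.sum_neg_distrib]
  gcongr with T hT
  refine neg_le_of_abs_le (le_of_eq ?_)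
  rw [abs_mul, abs_mul, abs_pow, abs_div, abs_neg, abs_one, abs_of_nonneg (sq_nonneg p)]

end Crest.Agent.R52
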