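import Crest.Agent.R52.Frac2
import Crest.Agent.R52.Hoffman

/-! Row 52: discrete convexity. -/

set_option autoImplicit false
set_option linter.unusedSectionVars false

namespace Crest.Agent.R52

open Finset Crest.Agent.Lib.Sunflower

variable {X : Type} [Fintype X] [DecidableEq X]

/-- `S` is covered by at most `j` members of `D`. -/
def Cov (D : Finset (Finset X)) (j : ℕ) (S : Finset X) : Prop :=
  ∃ E ⊆ D, E.card ≤ j ∧ S ⊆ E.biUnion id

lemma Cov.union {D : Finset (Finset X)} {i j : ℕ} {S T : Finset X} (h1 : Cov D i S)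
    (h2 : Cov D j T) : Cov D (i + j) (S ∪ T) := by
  obtain ⟨E, hE, hc, hS⟩ := h1
  obtain ⟨E', hE', hc', hT⟩ := h2
  refine ⟨E ∪ E', Finset.union_subset hE hE', (Finset.card_union_le _ _).trans (by omega), ?_⟩
  rw [Finset.union_biUnion]
  exact Finset.union_subset_union hS hT

lemma pr_cov {p : ℝ} (h0 : 0 ≤ p) (h1 : p ≤ 1) (D : Finset (Finset X)) (j : ℕ) :
    pr p (fun w => w ∈ D) ^ j ≤ pr (1 - (1 - p) ^ j) (Cov D j) := by
  induction j with
  | zero =>
    simp only [pow_zero, sub_self, pr, wt_zero]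
    simp only [ite_mul, one_mul, zero_mul, Finset.sum_ite_eq', Finset.mem_univ, if_true]
    rw [ind_pos ⟨∅, Finset.empty_subset _, by simp, by simp⟩]
  | succ j ih =>
    set P := 1 - (1 - p) ^ j with hP
    have hq : 0 ≤ (1 - p) ^ j := pow_nonneg (by linarith) _
    have hq1 : (1 - p) ^ j ≤ 1 := pow_le_one₀ (by linarith) (by linarith)
    have e : 1 - (1 - p) ^ (j + 1) = P + p - P * p := by rw [hP]; ring
    rw [e, pow_succ]
    refine (mul_le_mul_of_nonneg_right ih (pr_nonneg h0 h1 _)).trans ?_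
    unfold pr
    rw [← sum_wt_wt_fun, Finset.sum_mul]
    refine Finset.sum_le_sum fun w _ => ?_
    rw [mul_assoc]
    refine mul_le_mul_of_nonneg_left ?_ (wt_nonneg (by linarith) (by linarith) w)
    rw [Finset.mul_sum]
    refine Finset.sum_le_sum fun v _ => ?_
    rw [mul_left_comm, ← ind_and]
    refine mul_le_mul_of_nonneg_left (ind_mono fun h => h.1.union ?_) (wt_nonneg h0 h1 v)
    exact ⟨{v}, by simpa using h.2, by simp, by simp⟩

/-- Sets not covered by two members of a large family carry a lot of Fourier energy. -/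
lemma energy_ge {P : ℝ} (h0 : 0 < P) (E : Finset X → Prop) (S : Finset X)
    (hS : ∀ x y, E x → E y → ¬ S ⊆ x ∪ y) :
    pr P E * pr P E ≤ ∑ T ∈ S.powerset.erase ∅, (1 / P ^ 2) ^ T.card *
      (coef P (fun w => ind (E w)) T * coef P (fun w => ind (E w)) T) := by
  have h := hoffman_lower (p := P) S E E
  simp_rw [abs_mul_abs_self] at h
  rw [Finset.sum_eq_zero (s := Finset.univ)] at h
  · linarith
  intro x _
  refine Finset.sum_eq_zero fun y _ => ?_
  by_cases hx : E x
  · by_cases hy : E y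
    · rw [ker_eq_zero h0 (hS x y hx hy), mul_zero]
    · simp [ind_neg hy]
  · simp [ind_neg hx]

theorem discrete_convexity {p : ℝ} (hp0 : 0 < p) (hp1 : p < 1) (D : Finset (Finset X))
    (hD : 1 - 1 / 2 ^ 75 ≤ pr p (fun w => w ∈ D)) :
    ∃ G : Finset (Finset X), (∀ S : Finset X, ¬ Cov D (2 ^ 75) S → ∃ I ∈ G, I ⊆ S) ∧
      ∑ I ∈ G, p ^ I.card ≤ 1 / 2 := by
  classical
  obtain ⟨j, hj⟩ : ∃ j : ℕ, j = 2 * 10 ^ 6 := ⟨_, rfl⟩
  have hjr : (j : ℝ) = 2 * 10 ^ 6 := by rw [hj]; norm_num
  set P := 1 - (1 - p) ^ j with hP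
  have hq : 0 < (1 - p) ^ j := pow_pos (by linarith) _
  have hb : (1 - p) ^ j * (1 + j * p) ≤ 1 := by
    have h1 : 1 + j * p ≤ (1 + p) ^ j := one_add_mul_le_pow (by linarith) j
    have h2 : (1 - p) ^ j * (1 + p) ^ j ≤ 1 := by
      rw [← mul_pow]; exact pow_le_one₀ (by nlinarith) (by nlinarith)
    nlinarith
  have hP1 : P < 1 := by linarith
  have hP0 : 0 < P := by
    have : 0 < (1 - p) ^ j * (j * p) := mul_pos hq (by rw [hjr]; positivity)
    nlinarith
  set μ := pr P (Cov D j) with hμ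
  have hμ1 : 2 / 3 ≤ μ := by
    have h1 := pr_cov hp0.le hp1.le D j
    have h2 : (1 - 1 / 2 ^ 75 : ℝ) ^ j ≤ pr p (fun w => w ∈ D) ^ j :=
      pow_le_pow_left₀ (by norm_num) hD _
    have h3 : 1 + j * (-(1 / 2 ^ 75) : ℝ) ≤ (1 + -(1 / 2 ^ 75)) ^ j :=
      one_add_mul_le_pow (by norm_num) j
    rw [← sub_eq_add_neg, hjr] at h3
    norm_num at h3 h2
    linarith
  have hE : ∀ S : Finset X, ¬ Cov D (2 ^ 75) S → μ * μ ≤ ∑ T ∈ S.powerset.erase ∅,
      (1 / P ^ 2) ^ T.card *
        (coef P (fun w => ind (Cov D j w)) T * coef P (fun w => ind (Cov D j w)) T) := by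
    intro S hS
    refine energy_ge hP0 _ S fun x y hx hy h => hS ?_
    obtain ⟨E, h1, h2, h3⟩ := hx.union hy
    exact ⟨E, h1, h2.trans (by rw [hj]; norm_num), h.trans h3⟩
  by_cases hc : 10 ^ 6 * p ≤ 1 / 2
  · have hpr : 10 ^ 6 * p ≤ P := by
      rw [hjr] at hb
      by_contra h
      push Not at h
      have : 1 - 10 ^ 6 * p < (1 - p) ^ j := by linarith
      nlinarith
    have hμ2 : 0 < μ * μ := by positivity
    obtain ⟨G, hG1, hG2⟩ := frac_to_int (Finset.univ.filter fun S => ¬ Cov D (2 ^ 75) S)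
      (fun T => (1 / P ^ 2) ^ T.card *
        (coef P (fun w => ind (Cov D j w)) T * coef P (fun w => ind (Cov D j w)) T) / (μ * μ))
      (fun T => div_nonneg (mul_nonneg (by positivity) (mul_self_nonneg _)) hμ2.le)
      (fun H hH => by
        rw [← Finset.sum_div, le_div_iff₀ hμ2]
        linarith [hE H (Finset.mem_filter.mp hH).2]) hP1.le
      (by
        have h1 := energy_le (t := 1 / P) hP0 hP1 (by positivity)
          (by field_simp; linarith) (Cov D j)
        have e : ∀ T : Finset X, (1 / P ^ 2) ^ T.card *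
            (coef P (fun w => ind (Cov D j w)) T * coef P (fun w => ind (Cov D j w)) T) /
              (μ * μ) * P ^ T.card = (1 / P) ^ T.card *
            (coef P (fun w => ind (Cov D j w)) T * coef P (fun w => ind (Cov D j w)) T) /
              (μ * μ) := by
          intro T
          have : (1 / P) ^ T.card = (1 / P ^ 2) ^ T.card * P ^ T.card := by
            rw [← mul_pow]; congr 1; field_simp
          rw [this]; ring
        simp_rw [e]
        rw [← Finset.sum_div, div_le_iff₀ hμ2]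
        nlinarith) hp0 hpr
    exact ⟨G, fun S hS => hG1 S (Finset.mem_filter.mpr ⟨Finset.mem_univ _, hS⟩), hG2⟩
  · refine ⟨∅, fun S hS => ?_, by simp⟩
    exfalso
    push Not at hc
    have hP2 : 1 / 2 ≤ P := by
      rw [hjr] at hb
      nlinarith
    have h1 := energy_le (t := 1 / P ^ 2) hP0 hP1 (by positivity)
      (by field_simp; linarith) (Cov D j)
    have h2 := (hE S hS).trans (Finset.sum_le_sum_of_subset_of_nonneg
      (Finset.erase_subset_erase _ (Finset.subset_univ _))
      fun T _ _ => mul_nonneg (by positivity) (mul_self_nonneg _))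
    nlinarith

lemma wt_eq (p : ℝ) (w : Finset X) : wt p w = p ^ w.card * (1 - p) ^ (Fintype.card X - w.card) := by
  unfold wt
  rw [Finset.prod_ite, Finset.prod_const, Finset.prod_const, ← Finset.card_compl]
  congr 2
  · simp
  · congr 1; ext x; simp

lemma Cov.exists_fun {D : Finset (Finset X)} (hD : D.Nonempty) {k : ℕ} {S : Finset X}
    (h : Cov D k S) : ∃ f : Fin k → Finset X, (∀ i, f i ∈ D) ∧ S ⊆ Finset.univ.biUnion f := by
  obtain ⟨E, h1, h2, h3⟩ := h
  obtain ⟨d, hd⟩ := hD
  refine ⟨fun i => if h : (i : ℕ) < E.card then (E.equivFin.symm ⟨i, h⟩ : Finset X) else d,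
    fun i => ?_, fun x hx => ?_⟩
  · beta_reduce
    split_ifs
    · exact h1 (Subtype.property _)
    · exact hd
  · obtain ⟨e, he, hx⟩ := Finset.mem_biUnion.mp (h3 hx)
    refine Finset.mem_biUnion.mpr ⟨⟨E.equivFin ⟨e, he⟩, lt_of_lt_of_le (Fin.is_lt _) h2⟩,
      Finset.mem_univ _, ?_⟩
    simpa using hx

end Crest.Agent.R52
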