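import Crest.Agent.R52.Star

/-! Row 52: consequences of non-smallness for subgraph counts. -/

set_option autoImplicit false

namespace Crest.Agent.R52

open Finset Crest.CombinatoricsR.RandomGraph

variable {n : ℕ} {W : Type} [Fintype W] [DecidableEq W] {H : SimpleGraph W} [DecidableRel H.Adj]
  {p : ℝ}

omit [Fintype W] [DecidableEq W] [DecidableRel H.Adj] in
/-- First-moment bound: a family of candidate copies of an edge set of `H` is a cover. -/
lemma cover_count (hp0 : 0 < p) (hp1 : p ≤ 1) (h : NotSmall n H p) (E0 : Finset (Sym2 W))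
    (hE : ∀ e ∈ E0, e ∈ H.edgeSet) {ι : Type} (I : Finset ι) (cop : ι → Finset (Sym2 (Fin n)))
    (hcop : ∀ φ : W → Fin n, Function.Injective φ → ∃ i ∈ I, cop i = E0.image (Sym2.map φ)) :
    1 / 2 < (I.card : ℝ) * p ^ E0.card := by
  classical
  let slots : Finset (Sym2 (Fin n)) → Finset (EdgeSlot n) :=
    fun c => Finset.univ.filter fun z : EdgeSlot n => z.1 ∈ c
  set J := I.filter fun i => E0.card ≤ (slots (cop i)).card with hJ
  have h1 := h (J.image fun i => slots (cop i)) (by
    rintro A ⟨f⟩
    obtain ⟨i, hi, hc⟩ := hcop f f.injective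
    have hadj : ∀ e ∈ E0, Sym2.map f e ∈ (edgeGraph A).edgeSet := by
      intro e he
      have := hE e he
      induction e using Sym2.ind with
      | _ a b => exact f.toHom.map_adj this
    refine ⟨slots (cop i), Finset.mem_image.mpr ⟨i, Finset.mem_filter.mpr ⟨hi, ?_⟩, rfl⟩, ?_⟩
    · have hc1 : (cop i).card = E0.card := by
        rw [hc]
        exact Finset.card_image_of_injective _ (Sym2.map.injective f.injective)
      rw [← hc1]
      refine le_trans (Finset.card_le_card ?_)
        (Finset.card_image_le (s := slots (cop i)) (f := Subtype.val))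
      intro z hz
      have hz' := hz
      rw [hc] at hz'
      obtain ⟨e, he, rfl⟩ := Finset.mem_image.mp hz'
      exact Finset.mem_image.mpr ⟨⟨_, SimpleGraph.not_isDiag_of_mem_edgeSet _ (hadj e he)⟩,
        Finset.mem_filter.mpr ⟨Finset.mem_univ _, hz⟩, rfl⟩
    · intro z hz
      have hz' := (Finset.mem_filter.mp hz).2
      rw [hc] at hz'
      obtain ⟨e, he, hez⟩ := Finset.mem_image.mp hz'
      have h2 := hadj e he
      rw [hez] at h2
      unfold edgeGraph at h2
      rw [SimpleGraph.edgeSet_fromEdgeSet] at h2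
      obtain ⟨⟨_, h3⟩, _⟩ := h2
      exact h3)
  refine lt_of_lt_of_le h1 ?_
  calc ∑ S ∈ J.image (fun i => slots (cop i)), p ^ S.card
      ≤ ∑ _S ∈ J.image (fun i => slots (cop i)), p ^ E0.card := by
        refine Finset.sum_le_sum fun S hS => ?_
        obtain ⟨i, hi, rfl⟩ := Finset.mem_image.mp hS
        exact pow_le_pow_of_le_one hp0.le hp1 (Finset.mem_filter.mp hi).2
    _ = ((J.image fun i => slots (cop i)).card : ℝ) * p ^ E0.card := by
        rw [Finset.sum_const, nsmul_eq_mul]
    _ ≤ _ := by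
        refine mul_le_mul_of_nonneg_right ?_ (pow_nonneg hp0.le _)
        exact_mod_cast Finset.card_image_le.trans (Finset.card_filter_le _ _)

/-- `C(N, s) ≤ (e N / s) ^ s`. -/
lemma choose_le_exp_pow (N s : ℕ) (hs : 1 ≤ s) :
    (N.choose s : ℝ) ≤ (Real.exp 1 * N / s) ^ s := by
  have hs0 : (0 : ℝ) < s := by exact_mod_cast hs
  have h1 : (N.choose s : ℝ) ≤ (N : ℝ) ^ s / s.factorial := Nat.choose_le_pow_div s N
  have h2 : (s : ℝ) ^ s / s.factorial ≤ Real.exp s := Real.pow_div_factorial_le_exp _ hs0.le s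
  have hf : (0 : ℝ) < s.factorial := by exact_mod_cast s.factorial_pos
  refine h1.trans ?_
  rw [div_pow, mul_pow, ← Real.exp_nat_mul, mul_one, div_le_div_iff₀ hf (pow_pos hs0 s)]
  rw [div_le_iff₀ hf] at h2
  calc (N : ℝ) ^ s * (s : ℝ) ^ s ≤ (N : ℝ) ^ s * (Real.exp s * s.factorial) :=
        mul_le_mul_of_nonneg_left h2 (by positivity)
    _ = _ := by ring

/-- Density of induced subgraphs. -/
theorem density_le (hn : 1 ≤ n) (hp0 : 0 < p) (hp1 : p ≤ 1) (h : NotSmall n H p) (U : Finset W) :
    (∑ v ∈ U, ((U.filter fun u => H.Adj v u).card : ℝ)) * Real.log (1 / p) ≤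
      2 * U.card * (Real.log n + 1) := by
  classical
  rcases U.eq_empty_or_nonempty with rfl | hU
  · simp
  let G : SimpleGraph W :=
    { Adj := fun u v => H.Adj u v ∧ u ∈ U ∧ v ∈ U
      symm := ⟨fun u v huv => ⟨huv.1.symm, huv.2.2, huv.2.1⟩⟩
      loopless := ⟨fun u huu => H.irrefl huu.1⟩ }
  have hdeg : ∑ v ∈ U, (U.filter fun u => H.Adj v u).card = 2 * G.edgeFinset.card := by
    rw [← SimpleGraph.sum_degrees_eq_twice_card_edges]
    rw [← Finset.sum_subset (Finset.subset_univ U)]
    · refine Finset.sum_congr rfl fun v hv => ?_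
      rw [← SimpleGraph.card_neighborFinset_eq_degree]
      congr 1
      ext u
      simp [G, hv, and_comm]
    · intro v _ hv
      rw [← SimpleGraph.card_neighborFinset_eq_degree, Finset.card_eq_zero]
      ext u
      simp [G, hv]
  let ex : (U → Fin n) → W → Fin n := fun g w => if hw : w ∈ U then g ⟨w, hw⟩ else ⟨0, hn⟩
  have h1 := cover_count hp0 hp1 h G.edgeFinset (by
      intro e he
      rw [SimpleGraph.mem_edgeFinset] at he
      induction e using Sym2.ind with
      | _ a b => exact he.1)
    (Finset.univ : Finset (U → Fin n)) (fun g => G.edgeFinset.image (Sym2.map (ex g))) (by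
      intro φ _
      refine ⟨fun w => φ w, Finset.mem_univ _, Finset.image_congr ?_⟩
      intro e he
      rw [Finset.mem_coe, SimpleGraph.mem_edgeFinset] at he
      induction e using Sym2.ind with
      | _ a b =>
        have ha : a ∈ U := he.2.1
        have hb : b ∈ U := he.2.2
        simp [ex, ha, hb])
  rw [Finset.card_univ, Fintype.card_fun, Fintype.card_coe, Fintype.card_fin] at h1
  have hn0 : (0 : ℝ) < n := by exact_mod_cast hn
  have h2 := Real.log_lt_log (by norm_num) h1
  rw [Nat.cast_pow, Real.log_mul (by positivity) (by positivity), Real.log_pow, Real.log_pow,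
    one_div, Real.log_inv] at h2
  have hdeg' : ∑ v ∈ U, ((U.filter fun u => H.Adj v u).card : ℝ) = 2 * G.edgeFinset.card := by
    exact_mod_cast hdeg
  rw [hdeg', one_div, Real.log_inv]
  have h3 : Real.log 2 ≤ 1 := by
    have := Real.log_two_lt_d9
    linarith
  have h4 : (1 : ℝ) ≤ U.card := by exact_mod_cast hU.card_pos
  nlinarith

/-- Number of large stars in a star forest. -/
theorem starCount_le (hn : 1 ≤ n) (hp0 : 0 < p) (hp1 : p ≤ 1) (h : NotSmall n H p)
    (Lf : Finset W) (par : W → W) (hpar : ∀ v ∈ Lf, par v ∉ Lf)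
    (hadj : ∀ v ∈ Lf, H.Adj v (par v)) (d : ℕ) (hd : 1 ≤ d) :
    (starCount Lf par d : ℝ) ≤ 6 * n * (3 * n * p / d) ^ d := by
  classical
  rcases Nat.eq_zero_or_pos (starCount Lf par d) with hs | hs
  · rw [hs]; simp only [Nat.cast_zero]; positivity
  set Cs := (Lf.image par).filter fun c => d ≤ (Lf.filter fun v => par v = c).card with hCs
  have hsC : starCount Lf par d = Cs.card := rfl
  have hL : ∀ c ∈ Cs, ∃ L ⊆ Lf.filter fun v => par v = c, L.card = d := fun c hc =>
    Finset.exists_subset_card_eq (Finset.mem_filter.mp hc).2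
  choose! L hL1 hL2 using hL
  have hL3 : ∀ c ∈ Cs, ∀ v ∈ L c, v ∈ Lf ∧ par v = c := fun c hc v hv =>
    Finset.mem_filter.mp (hL1 c hc hv)
  set E0 : Finset (Sym2 W) := Cs.biUnion fun c => (L c).image fun v => s(c, v) with hE0
  have hcard : E0.card = Cs.card * d := by
    rw [hE0, Finset.card_biUnion]
    · rw [Finset.sum_congr rfl (g := fun _ => d)]
      · simp
      · intro c hc
        rw [Finset.card_image_of_injOn, hL2 c hc]
        intro v _ v' _ hvv
        exact Sym2.congr_right.mp hvv
    · intro c hc c' hc' hne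
      refine Finset.disjoint_left.mpr ?_
      intro e he he'
      obtain ⟨v, hv, rfl⟩ := Finset.mem_image.mp he
      obtain ⟨v', hv', hvv⟩ := Finset.mem_image.mp he'
      rcases Sym2.eq_iff.mp hvv with ⟨h1, _⟩ | ⟨h1, _⟩
      · exact hne h1.symm
      · have a := hL3 c hc v hv
        have b := hL3 c' hc' v' hv'
        exact hpar v' b.1 (by rw [b.2, h1]; exact a.1)
  have h1 := cover_count hp0 hp1 h E0 (by
      intro e he
      obtain ⟨c, hc, he⟩ := Finset.mem_biUnion.mp he
      obtain ⟨v, hv, rfl⟩ := Finset.mem_image.mp he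
      have a := hL3 c hc v hv
      rw [← a.2]
      exact (hadj v a.1).symm)
    (Finset.powersetCard Cs.card ((Finset.univ : Finset (Fin n)) ×ˢ
      Finset.powersetCard d (Finset.univ : Finset (Fin n))))
    (fun T => T.biUnion fun a => a.2.image fun y => s(a.1, y)) (by
      intro φ hφ
      refine ⟨Cs.image fun c => (φ c, (L c).image φ), ?_, ?_⟩
      · rw [Finset.mem_powersetCard]
        constructor
        · intro a ha
          obtain ⟨c, hc, rfl⟩ := Finset.mem_image.mp ha
          simp [Finset.card_image_of_injective _ hφ, hL2 c hc]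
        · refine Finset.card_image_of_injective _ ?_
          intro c c' hcc
          exact hφ (congrArg Prod.fst hcc)
      · rw [Finset.image_biUnion, hE0, Finset.biUnion_image]
        refine Finset.biUnion_congr rfl fun c _ => ?_
        simp only [Finset.image_image]
        rfl)
  rw [Finset.card_powersetCard, Finset.card_product, Finset.card_powersetCard, Finset.card_univ,
    Fintype.card_fin, hcard] at h1
  rw [hsC] at hs ⊢
  set s := Cs.card
  have hs0 : (0 : ℝ) < s := by exact_mod_cast hs
  have hd0 : (0 : ℝ) < d := by exact_mod_cast hd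
  have he : Real.exp 1 ≤ 3 := by
    have := Real.exp_one_lt_d9
    linarith
  have he0 := Real.exp_pos 1
  set x : ℝ := Real.exp 1 * ((n * n.choose d : ℕ) : ℝ) / s * p ^ d with hx
  have hx0 : 0 ≤ x := by positivity
  have h2 : 1 / 2 < x ^ s := by
    refine lt_of_lt_of_le h1 ?_
    rw [hx, mul_pow, ← pow_mul, mul_comm d s]
    exact mul_le_mul_of_nonneg_right (choose_le_exp_pow _ s hs) (by positivity)
  have h3 : 1 / 2 < x := by
    by_contra hc
    push Not at hc
    have : x ^ s ≤ x := pow_le_of_le_one hx0 (by linarith) hs.ne'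
    linarith
  have h4 : (n.choose d : ℝ) * p ^ d ≤ (3 * n * p / d) ^ d := by
    calc (n.choose d : ℝ) * p ^ d ≤ (Real.exp 1 * n / d) ^ d * p ^ d :=
          mul_le_mul_of_nonneg_right (choose_le_exp_pow n d hd) (by positivity)
      _ = (Real.exp 1 * n * p / d) ^ d := by rw [← mul_pow]; congr 1; ring
      _ ≤ _ := by gcongr
  have h5 : (s : ℝ) < 2 * Real.exp 1 * n * ((n.choose d : ℝ) * p ^ d) := by
    rw [hx, div_mul_eq_mul_div, lt_div_iff₀ hs0] at h3
    push_cast at h3
    linarith
  refine h5.le.trans ?_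
  have hn0 : (0 : ℝ) < n := by exact_mod_cast hn
  calc 2 * Real.exp 1 * n * ((n.choose d : ℝ) * p ^ d) ≤ 2 * 3 * n * (3 * n * p / d) ^ d := by
        gcongr
    _ = _ := by ring

/-- Common neighbourhoods. -/
theorem common_le (hn : 1 ≤ n) (hp0 : 0 < p) (hp1 : p ≤ 1) (h : NotSmall n H p)
    (T X : Finset W) (hTX : Disjoint T X) (hadj : ∀ v ∈ X, ∀ u ∈ T, H.Adj v u) :
    (X.card : ℝ) ≤ 8 * n * p ^ T.card + T.card * Real.log n + 1 := by
  classical
  have hn1 : (1 : ℝ) ≤ n := by exact_mod_cast hn
  have hlog : 0 ≤ Real.log n := Real.log_nonneg hn1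
  rcases Nat.eq_zero_or_pos X.card with hs | hs
  · rw [hs]; simp only [Nat.cast_zero]; positivity
  set E0 : Finset (Sym2 W) := (X ×ˢ T).image fun a => s(a.1, a.2) with hE0
  have hcard : E0.card = T.card * X.card := by
    rw [hE0, Finset.card_image_of_injOn, Finset.card_product, mul_comm]
    rintro ⟨a, b⟩ hab ⟨c, d⟩ hcd he
    rw [Finset.mem_coe, Finset.mem_product] at hab hcd
    rcases Sym2.eq_iff.mp he with ⟨h1, h2⟩ | ⟨h1, h2⟩
    · exact Prod.ext h1 h2
    · exact absurd hab.1 (Finset.disjoint_left.mp hTX (by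
        have h3 : a = d := h1
        rw [h3]; exact hcd.2))
  have h1 := cover_count hp0 hp1 h E0 (by
      intro e he
      obtain ⟨a, ha, rfl⟩ := Finset.mem_image.mp he
      rw [Finset.mem_product] at ha
      exact hadj _ ha.1 _ ha.2)
    (Finset.powersetCard T.card (Finset.univ : Finset (Fin n)) ×ˢ
      Finset.powersetCard X.card (Finset.univ : Finset (Fin n)))
    (fun B => (B.2 ×ˢ B.1).image fun a => s(a.1, a.2)) (by
      intro φ hφ
      refine ⟨(T.image φ, X.image φ), ?_, ?_⟩
      · simp [Finset.card_image_of_injective _ hφ]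
      · rw [hE0, Finset.image_image, ← Finset.prodMap_image_product, Finset.image_image]
        rfl)
  rw [Finset.card_product, Finset.card_powersetCard, Finset.card_powersetCard, Finset.card_univ,
    Fintype.card_fin, hcard] at h1
  set s := X.card
  set j := T.card
  have hs0 : (0 : ℝ) < s := by exact_mod_cast hs
  have he0 := Real.exp_pos 1
  by_cases hc : (s : ℝ) ≤ 8 * n * p ^ j
  · have : 0 ≤ (j : ℝ) * Real.log n := by positivity
    linarith
  push Not at hc
  have he2 : Real.exp 1 * Real.exp 1 ≤ 8 := by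
    have := Real.exp_one_lt_d9
    nlinarith
  have hx : Real.exp 1 * n / s * p ^ j ≤ Real.exp (-1) := by
    rw [Real.exp_neg, div_mul_eq_mul_div, div_le_iff₀ hs0, inv_mul_eq_div, le_div_iff₀ he0]
    have : 0 ≤ (n : ℝ) * p ^ j := by positivity
    nlinarith
  have h2 : 1 / 2 < (n : ℝ) ^ j * Real.exp (-1) ^ s := by
    refine lt_of_lt_of_le h1 ?_
    push_cast
    rw [mul_assoc]
    refine mul_le_mul (by exact_mod_cast Nat.choose_le_pow n j) ?_ (by positivity) (by positivity)
    calc (n.choose s : ℝ) * p ^ (j * s) ≤ (Real.exp 1 * n / s) ^ s * p ^ (j * s) :=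
          mul_le_mul_of_nonneg_right (choose_le_exp_pow n s hs) (by positivity)
      _ = (Real.exp 1 * n / s * p ^ j) ^ s := by rw [mul_pow, ← pow_mul]
      _ ≤ _ := pow_le_pow_left₀ (by positivity) hx s
  have h3 := Real.log_lt_log (by norm_num) h2
  rw [Real.log_mul (by positivity) (by positivity), Real.log_pow, Real.log_pow, Real.log_exp,
    one_div, Real.log_inv] at h3
  have h4 : Real.log 2 ≤ 1 := by
    have := Real.log_two_lt_d9
    linarith
  have : 0 ≤ 8 * (n : ℝ) * p ^ j := by positivity
  linarith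

end Crest.Agent.R52
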