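import Crest.Agent.Lib.Sunflower.Weights
import Crest.Prelude.Def_CopyThreshold

/-! Row 52: basic definitions and finite-probability lemmas. -/

set_option autoImplicit false

namespace Crest.Agent.R52

open Finset Crest.Agent.Lib.Sunflower Crest.CombinatoricsR.RandomGraph

open Classical in
/-- Indicator of a proposition. -/
noncomputable def ind (P : Prop) : ℝ := if P then 1 else 0

lemma ind_nonneg (P : Prop) : 0 ≤ ind P := by unfold ind; split_ifs <;> norm_num
lemma ind_le_one (P : Prop) : ind P ≤ 1 := by unfold ind; split_ifs <;> norm_num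
lemma ind_pos {P : Prop} (h : P) : ind P = 1 := by unfold ind; simp [h]
lemma ind_neg {P : Prop} (h : ¬ P) : ind P = 0 := by unfold ind; simp [h]
lemma ind_mono {P Q : Prop} (h : P → Q) : ind P ≤ ind Q := by
  by_cases hP : P
  · rw [ind_pos hP, ind_pos (h hP)]
  · rw [ind_neg hP]; exact ind_nonneg _
lemma ind_congr {P Q : Prop} (h : P ↔ Q) : ind P = ind Q := by rw [propext h]
lemma ind_not (P : Prop) : ind (¬ P) = 1 - ind P := by
  by_cases hP : P
  · rw [ind_pos hP, ind_neg (not_not.mpr hP)]; ring
  · rw [ind_neg hP, ind_pos hP]; ring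
lemma ind_and (P Q : Prop) : ind (P ∧ Q) = ind P * ind Q := by
  by_cases hP : P <;> by_cases hQ : Q <;> simp [ind, hP, hQ]
lemma ind_eq_ite (P : Prop) [Decidable P] : ind P = if P then 1 else 0 := by
  by_cases hP : P <;> simp [ind, hP]
lemma ind_mul_self (P : Prop) : ind P * ind P = ind P := by
  by_cases hP : P <;> simp [ind, hP]

/-- Probability of an event for the Bernoulli(`p`) random subset of `X`. -/
noncomputable def pr {X : Type} [Fintype X] [DecidableEq X] (p : ℝ) (E : Finset X → Prop) : ℝ :=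
  ∑ w : Finset X, wt p w * ind (E w)

/-- Probability of an event for independent Bernoulli(`p`) random subsets of `Y`, one for each
row in `R`. -/
noncomputable def prRows {R Y : Type} [Fintype R] [DecidableEq R] [Fintype Y] [DecidableEq Y]
    (p : ℝ) (E : (R → Finset Y) → Prop) : ℝ :=
  ∑ ω : R → Finset Y, (∏ w, wt p (ω w)) * ind (E ω)

/-- `G` appears in `G(n, ρ)` with probability at least one half. -/
def Good (n : ℕ) (ρ : ℝ) {W : Type} (G : SimpleGraph W) : Prop :=
  1 / 2 ≤ pr ρ fun z : Finset (EdgeSlot n) => G.IsContained (edgeGraph z)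

/-- The graph joining each `v ∈ U` to the members of `M v`. -/
def patG {W : Type} (U : Finset W) (M : W → Finset W) : SimpleGraph W :=
  SimpleGraph.fromRel fun v u => v ∈ U ∧ u ∈ M v

/-- The family of edge sets containing a copy of `H` has no cover of cost at most `1/2`. -/
def NotSmall (n : ℕ) {W : Type} (H : SimpleGraph W) (p : ℝ) : Prop :=
  ∀ C : Finset (Finset (EdgeSlot n)),
    (∀ A : Finset (EdgeSlot n), H.IsContained (edgeGraph A) → ∃ S ∈ C, S ⊆ A) →
      1 / 2 < ∑ S ∈ C, p ^ S.card

/-- The minimal region mass of the stage lemma. -/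
noncomputable def m0 (ρ : ℝ) (b : ℕ) : ℝ := (ρ / 4) ^ b / 2

section basic
variable {X : Type} [Fintype X] [DecidableEq X] {p : ℝ}

lemma pr_nonneg (h0 : 0 ≤ p) (h1 : p ≤ 1) (E : Finset X → Prop) : 0 ≤ pr p E :=
  Finset.sum_nonneg fun w _ => mul_nonneg (wt_nonneg h0 h1 w) (ind_nonneg _)

lemma pr_mono (h0 : 0 ≤ p) (h1 : p ≤ 1) {E F : Finset X → Prop} (h : ∀ w, E w → F w) :
    pr p E ≤ pr p F :=
  Finset.sum_le_sum fun w _ => mul_le_mul_of_nonneg_left (ind_mono (h w)) (wt_nonneg h0 h1 w)

lemma pr_not (E : Finset X → Prop) : pr p (fun w => ¬ E w) = 1 - pr p E := by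
  unfold pr
  simp_rw [ind_not, mul_sub, mul_one]
  rw [Finset.sum_sub_distrib, sum_wt]

lemma pr_le_one (h0 : 0 ≤ p) (h1 : p ≤ 1) (E : Finset X → Prop) : pr p E ≤ 1 := by
  have := pr_nonneg h0 h1 (fun w => ¬ E w)
  rw [pr_not] at this; linarith

lemma pr_of_forall {E : Finset X → Prop} (h : ∀ w, E w) : pr p E = 1 := by
  unfold pr
  simp_rw [fun w => ind_pos (h w), mul_one]
  exact sum_wt p

lemma pr_subset (a : Finset X) : pr p (fun w => a ⊆ w) = p ^ a.card := by
  unfold pr
  simp_rw [ind_eq_ite]
  exact sum_wt_subset p a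

/-- Monotone events have probability monotone in the density. -/
lemma pr_mono_density {q : ℝ} (h0 : 0 ≤ p) (hpq : p ≤ q) (h1 : q ≤ 1) {E : Finset X → Prop}
    (hE : ∀ w v, w ⊆ v → E w → E v) : pr p E ≤ pr q E := by
  rcases eq_or_lt_of_le (hpq.trans h1) with hp1 | hp1
  · have : q = p := le_antisymm (hp1 ▸ h1) hpq
    rw [this]
  set s : ℝ := (q - p) / (1 - p) with hs
  have hs0 : 0 ≤ s := div_nonneg (by linarith) (by linarith)
  have hs1 : s ≤ 1 := by rw [hs, div_le_one (by linarith)]; linarith
  have hq : p + s - p * s = q := by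
    rw [hs]; field_simp [(by linarith : (1 - p) ≠ 0)]; ring
  unfold pr
  rw [← hq, ← sum_wt_wt_fun]
  refine Finset.sum_le_sum fun w _ => mul_le_mul_of_nonneg_left ?_ (wt_nonneg h0 hp1.le w)
  calc ind (E w) = ∑ v : Finset X, wt s v * ind (E w) := by
        rw [← Finset.sum_mul, sum_wt, one_mul]
    _ ≤ _ := Finset.sum_le_sum fun v _ => mul_le_mul_of_nonneg_left
        (ind_mono (hE _ _ Finset.subset_union_left)) (wt_nonneg hs0 hs1 v)

/-- Splicing two independent samples along `C` gives a sample. -/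
lemma sum_wt_splice (C : Finset X) (f : Finset X → ℝ) :
    ∑ x : Finset X, wt p x * ∑ z : Finset X, wt p z * f ((x ∩ C) ∪ (z \ C)) =
      ∑ y : Finset X, wt p y * f y := by
  let e : Finset X × Finset X → Finset X × Finset X :=
    fun a => ((a.1 ∩ C) ∪ (a.2 \ C), (a.2 ∩ C) ∪ (a.1 \ C))
  have he : Function.Involutive e := by
    rintro ⟨x, z⟩
    simp only [e, Prod.mk.injEq]
    constructor <;> ext t <;> by_cases ht : t ∈ C <;> simp [ht]
  have hw : ∀ a : Finset X × Finset X, wt p (e a).1 * wt p (e a).2 = wt p a.1 * wt p a.2 := by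
    rintro ⟨x, z⟩
    simp only [e, wt]
    rw [← Finset.prod_mul_distrib, ← Finset.prod_mul_distrib]
    refine Finset.prod_congr rfl fun t _ => ?_
    by_cases ht : t ∈ C <;> simp [ht, mul_comm]
  have h1 : ∑ x : Finset X, wt p x * ∑ z : Finset X, wt p z * f ((x ∩ C) ∪ (z \ C)) =
      ∑ a : Finset X × Finset X, wt p (e a).1 * wt p (e a).2 * f (e a).1 := by
    rw [Fintype.sum_prod_type]
    refine Finset.sum_congr rfl fun x _ => ?_
    rw [Finset.mul_sum]
    refine Finset.sum_congr rfl fun z _ => ?_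
    rw [hw (x, z)]; simp only [e]; ring
  rw [h1, he.bijective.sum_comp (fun a => wt p a.1 * wt p a.2 * f a.1), Fintype.sum_prod_type]
  refine Finset.sum_congr rfl fun x _ => ?_
  simp only
  rw [← Finset.sum_mul, ← Finset.mul_sum, sum_wt, mul_one]

/-- Marginalisation: reading a Bernoulli set through an injective array of slots gives
independent Bernoulli rows. -/
lemma sum_wt_rows {R Y : Type} [Fintype R] [DecidableEq R] [Fintype Y] [DecidableEq Y]
    (j : R → Y → X) (hj : Function.Injective fun a : R × Y => j a.1 a.2)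
    (F : (R → Finset Y) → ℝ) :
    ∑ z : Finset X, wt p z * F (fun w => Finset.univ.filter fun y => j w y ∈ z) =
      ∑ ω : R → Finset Y, (∏ w, wt p (ω w)) * F ω := by
  have key : ∀ ω : R → Finset Y, ∑ z : Finset X, wt p z *
      (if (fun w => Finset.univ.filter fun y => j w y ∈ z) = ω then (1 : ℝ) else 0) =
      ∏ w, wt p (ω w) := by
    intro ω
    set jj : R × Y → X := fun a => j a.1 a.2 with hjj
    set I : Finset X := Finset.univ.image jj with hI
    set On : Finset X := (Finset.univ.filter fun a : R × Y => a.2 ∈ ω a.1).image jj with hOn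
    have hmem : ∀ a : R × Y, jj a ∈ On ↔ a.2 ∈ ω a.1 := by
      intro a
      simp only [hOn, Finset.mem_image, Finset.mem_filter, Finset.mem_univ, true_and]
      exact ⟨fun ⟨a', h1, h2⟩ => hj h2 ▸ h1, fun h => ⟨a, h, rfl⟩⟩
    have h1 : ∀ z : Finset X, wt p z *
        (if (fun w => Finset.univ.filter fun y => j w y ∈ z) = ω then (1 : ℝ) else 0) =
        ∏ x : X, (if x ∈ z then (if x ∈ I ∧ x ∉ On then 0 else p)
          else (if x ∈ On then 0 else 1 - p)) := by
      intro z
      split_ifs with hz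
      · rw [mul_one, wt]
        refine Finset.prod_congr rfl fun x _ => ?_
        have hz' : ∀ a : R × Y, jj a ∈ z ↔ a.2 ∈ ω a.1 := by
          intro a; rw [← hz]; simp [hjj]
        by_cases hx : x ∈ z
        · simp only [hx, if_true]
          rw [if_neg]
          rintro ⟨hxI, hxO⟩
          obtain ⟨a, -, rfl⟩ := Finset.mem_image.mp hxI
          exact hxO ((hmem a).2 ((hz' a).1 hx))
        · simp only [hx, if_false]
          rw [if_neg]
          intro hxO
          obtain ⟨a, -, rfl⟩ := Finset.mem_image.mp hxO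
          exact hx ((hz' a).2 ((hmem a).1 hxO))
      · rw [mul_zero]
        have : ∃ a : R × Y, ¬ (jj a ∈ z ↔ a.2 ∈ ω a.1) := by
          by_contra hc
          push Not at hc
          apply hz
          funext w; ext y
          simpa [hjj] using hc (w, y)
        obtain ⟨a, ha⟩ := this
        refine (Finset.prod_eq_zero (Finset.mem_univ (jj a)) ?_).symm
        have hI' : jj a ∈ I := Finset.mem_image_of_mem _ (Finset.mem_univ _)
        by_cases hx : jj a ∈ z
        · have : jj a ∉ On := fun h => ha ⟨fun _ => (hmem a).1 h, fun _ => hx⟩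
          simp [hx, hI', this]
        · have : jj a ∈ On := by
            by_contra h
            exact ha ⟨fun h' => absurd h' hx, fun h' => absurd ((hmem a).2 h') h⟩
          simp [hx, this]
    simp_rw [h1]
    rw [sum_prod_ite]
    have h2 : ∀ x : X, ((if x ∈ I ∧ x ∉ On then 0 else p) + (if x ∈ On then 0 else 1 - p)) =
        if x ∈ I then (if x ∈ On then p else 1 - p) else 1 := by
      intro x
      by_cases hxI : x ∈ I <;> by_cases hxO : x ∈ On
      · simp [hxI, hxO]
      · simp [hxI, hxO]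
      · exfalso
        obtain ⟨a, -, rfl⟩ := Finset.mem_image.mp hxO
        exact hxI (Finset.mem_image_of_mem _ (Finset.mem_univ _))
      · simp [hxI, hxO]
    simp_rw [h2]
    rw [Finset.prod_ite, Finset.prod_const_one, mul_one, Finset.filter_mem_eq_inter,
      Finset.univ_inter, hI, Finset.prod_image (fun a _ b _ h => hj h), Fintype.prod_prod_type]
    refine Finset.prod_congr rfl fun w _ => ?_
    unfold wt
    refine Finset.prod_congr rfl fun y _ => ?_
    simp only [hmem (w, y)]
  simp_rw [← key, Finset.sum_mul]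
  rw [Finset.sum_comm]
  refine Finset.sum_congr rfl fun z _ => ?_
  simp

lemma pr_rows {R Y : Type} [Fintype R] [DecidableEq R] [Fintype Y] [DecidableEq Y]
    (j : R → Y → X) (hj : Function.Injective fun a : R × Y => j a.1 a.2)
    (E : (R → Finset Y) → Prop) :
    pr p (fun z => E (fun w => Finset.univ.filter fun y => j w y ∈ z)) = prRows p E :=
  sum_wt_rows j hj fun ω => ind (E ω)

/-- Independence of rows. -/
lemma sum_rows_prod {R : Type} [Fintype R] [DecidableEq R] (f : R → Finset X → ℝ) :
    ∑ ω : R → Finset X, (∏ w, wt p (ω w)) * ∏ w, f w (ω w) =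
      ∏ w, ∑ y : Finset X, wt p y * f w y := by
  simp_rw [← Finset.prod_mul_distrib]
  rw [Fintype.prod_sum (fun w y => wt p y * f w y)]

end basic

lemma edgeGraph_adj {n : ℕ} (z : Finset (EdgeSlot n)) {x y : Fin n} (h : x ≠ y) :
    (edgeGraph z).Adj x y ↔ (⟨s(x, y), by simpa using h⟩ : EdgeSlot n) ∈ z := by
  simp only [edgeGraph, SimpleGraph.fromEdgeSet_adj, Set.mem_ofPred_eq]
  exact ⟨fun ⟨⟨_, h1⟩, _⟩ => h1, fun h1 => ⟨⟨_, h1⟩, h⟩⟩

lemma edgeGraph_mono {n : ℕ} {z z' : Finset (EdgeSlot n)} (h : z ⊆ z') :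
    edgeGraph z ≤ edgeGraph z' := by
  intro x y hxy
  have hne := hxy.ne
  rw [edgeGraph_adj _ hne] at hxy ⊢
  exact h hxy

lemma gnpProb_eq_pr (n : ℕ) (p : ℝ) (E : Set (SimpleGraph (Fin n))) :
    gnpProb n p E = pr p fun z : Finset (EdgeSlot n) => edgeGraph z ∈ E := by
  classical
  unfold gnpProb Crest.FinProb.bernoulliProb pr
  let e : (EdgeSlot n → Bool) ≃ Finset (EdgeSlot n) :=
    { toFun := fun ω => Finset.univ.filter fun s => ω s = true
      invFun := fun z s => decide (s ∈ z)
      left_inv := fun ω => by funext s; simp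
      right_inv := fun z => by ext s; simp }
  rw [← e.sum_comp, Finset.sum_filter]
  refine Finset.sum_congr rfl fun ω _ => ?_
  have hg : edgeGraph (e ω) = graphOf ω := by
    unfold edgeGraph graphOf
    congr 1
    ext z
    simp [e]
  have hw : wt p (e ω) = Crest.FinProb.bernoulliWeight p ω := by
    unfold wt Crest.FinProb.bernoulliWeight
    refine Finset.prod_congr rfl fun s _ => ?_
    simp [e]
  beta_reduce
  rw [hg, hw, ind_eq_ite]
  by_cases h : graphOf ω ∈ E <;> simp [h]

/-- An embedding of the relevant vertices extends to all vertices. -/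
lemma patG_isContained {W : Type} [Fintype W] [DecidableEq W] {n : ℕ}
    (hW : Fintype.card W ≤ n) (U : Finset W) (M : W → Finset W) (G : SimpleGraph (Fin n))
    (U' : Finset W) (hU : U ⊆ U') (hM : ∀ v ∈ U, M v ⊆ U') (φ : W → Fin n)
    (hφ : Set.InjOn φ U') (hadj : ∀ v ∈ U, ∀ u ∈ M v, G.Adj (φ u) (φ v)) :
    (patG U M).IsContained G := by
  classical
  have hc : Fintype.card {v : W // v ∉ U'} ≤ Fintype.card {x : Fin n // x ∉ U'.image φ} := by
    rw [Fintype.card_subtype_compl, Fintype.card_subtype_compl]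
    simp only [Fintype.card_coe, Fintype.card_fin]
    rw [Finset.card_image_of_injOn hφ]
    omega
  obtain ⟨g⟩ := Function.Embedding.nonempty_of_card_le hc
  let ψ : W → Fin n := fun v => if h : v ∈ U' then φ v else (g ⟨v, h⟩).1
  have hψ : Function.Injective ψ := by
    intro a b hab
    by_cases ha : a ∈ U' <;> by_cases hb : b ∈ U' <;> simp only [ψ, ha, hb, dif_pos, dif_neg,
      not_false_eq_true] at hab
    · exact hφ ha hb hab
    · exact absurd (hab ▸ Finset.mem_image_of_mem φ ha) (g ⟨b, hb⟩).2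
    · exact absurd (hab.symm ▸ Finset.mem_image_of_mem φ hb) (g ⟨a, ha⟩).2
    · have := g.injective (Subtype.ext hab)
      exact congrArg Subtype.val this
  have key : ∀ v ∈ U, ∀ u ∈ M v, G.Adj (ψ u) (ψ v) := by
    intro v hv u hu
    simp only [ψ, hU hv, hM v hv hu, dif_pos]
    exact hadj v hv u hu
  refine ⟨⟨⟨ψ, ?_⟩, hψ⟩⟩
  intro a b hab
  rw [patG, SimpleGraph.fromRel_adj] at hab
  rcases hab.2 with h | h
  · exact (key a h.1 b h.2).symm
  · exact key b h.1 a h.2

end Crest.Agent.R52
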