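import Crest.Agent.R52.Defs

/-! Row 52: certificates for the fractional-to-integral cover theorem. -/

set_option autoImplicit false
set_option linter.unusedSectionVars false

namespace Crest.Agent.R52

open Finset

variable {X : Type} [Fintype X] [DecidableEq X]

/-- Abel summation through level sets. -/
lemma abel_levels (f : X → ℝ) : ∀ (k : ℕ) (H : Finset X) (lam : X → ℝ), H.card = k →
    (∀ x ∈ H, 0 ≤ lam x) → (∀ θ : ℝ, 0 ≤ ∑ x ∈ H.filter (fun x => θ ≤ lam x), f x) →
    0 ≤ ∑ x ∈ H, lam x * f x := by
  intro k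
  induction k using Nat.strong_induction_on with
  | _ k ih =>
    intro H lam hk h0 hθ
    rcases H.eq_empty_or_nonempty with rfl | hne
    · simp
    obtain ⟨x0, hx0, hmin⟩ := H.exists_min_image lam hne
    set μ := lam x0 with hμ
    have hall : H.filter (fun x => μ ≤ lam x) = H := Finset.filter_true_of_mem hmin
    have h1 : 0 ≤ ∑ x ∈ H, f x := by have := hθ μ; rwa [hall] at this
    set H' := H.filter (fun x => μ < lam x) with hH'
    have hlt : H'.card < k := by
      rw [← hk]
      refine Finset.card_lt_card ⟨Finset.filter_subset _ _, fun h => ?_⟩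
      have := (Finset.mem_filter.mp (h hx0)).2
      exact lt_irrefl _ this
    have h2 := ih H'.card hlt H' (fun x => lam x - μ) rfl
      (fun x hx => by have := (Finset.mem_filter.mp hx).2; linarith)
      (fun θ => by
        by_cases hθ0 : 0 < θ
        · have : H'.filter (fun x => θ ≤ lam x - μ) = H.filter (fun x => θ + μ ≤ lam x) := by
            ext x
            simp only [hH', Finset.mem_filter]
            constructor
            · rintro ⟨⟨h1, _⟩, h3⟩; exact ⟨h1, by linarith⟩
            · rintro ⟨h1, h3⟩; exact ⟨⟨h1, by linarith⟩, by linarith⟩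
          rw [this]; exact hθ _
        · have e1 : H'.filter (fun x => θ ≤ lam x - μ) = H' :=
            Finset.filter_true_of_mem fun x hx => by
              have := (Finset.mem_filter.mp hx).2; linarith
          rw [e1]
          rcases H'.eq_empty_or_nonempty with h | hne'
          · rw [h]; simp
          obtain ⟨x1, hx1, hmin1⟩ := H'.exists_min_image lam hne'
          have : H' = H.filter (fun x => lam x1 ≤ lam x) := by
            ext x
            constructor
            · intro hx; exact Finset.mem_filter.mpr ⟨(Finset.mem_filter.mp hx).1, hmin1 x hx⟩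
            · intro hx
              obtain ⟨h1, h3⟩ := Finset.mem_filter.mp hx
              exact Finset.mem_filter.mpr ⟨h1, lt_of_lt_of_le (Finset.mem_filter.mp hx1).2 h3⟩
          rw [this]; exact hθ _)
    have h3 : ∑ x ∈ H, lam x * f x = μ * ∑ x ∈ H, f x + ∑ x ∈ H', (lam x - μ) * f x := by
      rw [hH', Finset.sum_filter, Finset.mul_sum, ← Finset.sum_add_distrib]
      refine Finset.sum_congr rfl fun x hx => ?_
      split_ifs with h
      · ring
      · have : lam x = μ := le_antisymm (not_lt.mp h) (hmin x hx)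
        rw [this]; ring
    rw [h3]
    have := mul_nonneg (h0 x0 hx0) h1
    linarith

/-- The vertex weights induced by a fractional cover. -/
noncomputable def lam (g : Finset X → ℝ) (H : Finset X) (x : X) : ℝ :=
  ∑ S ∈ H.powerset, if x ∈ S then g S / S.card else 0

lemma sum_lam_mul (g : Finset X → ℝ) (H : Finset X) (h : X → ℝ) :
    ∑ x ∈ H, lam g H x * h x = ∑ S ∈ H.powerset, g S / S.card * ∑ x ∈ S, h x := by
  unfold lam
  simp_rw [Finset.sum_mul]
  rw [Finset.sum_comm]
  refine Finset.sum_congr rfl fun S hS => ?_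
  simp_rw [ite_mul, zero_mul]
  rw [← Finset.sum_filter, Finset.filter_mem_eq_inter,
    Finset.inter_eq_right.mpr (Finset.mem_powerset.mp hS), Finset.mul_sum]

lemma lam_nonneg {g : Finset X → ℝ} (hg : ∀ S, 0 ≤ g S) (H : Finset X) (x : X) :
    0 ≤ lam g H x :=
  Finset.sum_nonneg fun S _ => by
    split_ifs
    · exact div_nonneg (hg S) (Nat.cast_nonneg _)
    · exact le_rfl

/-- Level sets. -/
noncomputable def lv (g : Finset X → ℝ) (H : Finset X) (θ : ℝ) : Finset X :=
  H.filter fun x => θ ≤ lam g H x

/-- The tolerances. -/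
noncomputable def eps (i : ℕ) : ℝ := (1 / 2) ^ i / 4

lemma eps_pos (i : ℕ) : 0 < eps i := by unfold eps; positivity

variable {m : ℕ}

/-- All level sets of `H` are almost captured by the labelling `l`, with handicap `τ`. -/
def Qc (g : Finset X → ℝ) (H : Finset X) (l : X → Fin (m + 1)) (τ : ℕ → ℕ) : Prop :=
  ∀ i < m, ∀ θ : ℝ, (((lv g H θ).filter fun x => i < (l x : ℕ)).card : ℝ) ≤
    max (eps i * (lv g H θ).card - τ i) 0

/-- Cumulative counts. -/
def tau (l : X → Fin (m + 1)) (T : Finset X) (i : ℕ) : ℕ := (T.filter fun x => (l x : ℕ) ≤ i).card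

/-- The set where two labellings differ. -/
def dif (l l' : X → Fin (m + 1)) : Finset X := Finset.univ.filter fun x => l' x ≠ l x

/-- The set in which minimal certificates live. -/
noncomputable def pre (g : Finset X → ℝ) (H : Finset X) (k t : ℕ) : Finset X :=
  H.filter fun x => eps k * (lv g H (lam g H x)).card < t

lemma eps_mul_card_pre (g : Finset X → ℝ) (H : Finset X) (k t : ℕ) :
    eps k * (pre g H k t).card ≤ t := by
  rcases (pre g H k t).eq_empty_or_nonempty with h | hne
  · rw [h]; simp
  obtain ⟨x0, hx0, hmin⟩ := (pre g H k t).exists_min_image (lam g H) hne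
  have hsub : pre g H k t ⊆ lv g H (lam g H x0) := fun x hx =>
    Finset.mem_filter.mpr ⟨(Finset.mem_filter.mp hx).1, hmin x hx⟩
  have h1 := (Finset.mem_filter.mp hx0).2
  have h2 : ((pre g H k t).card : ℝ) ≤ (lv g H (lam g H x0)).card := by
    exact_mod_cast Finset.card_le_card hsub
  exact (mul_le_mul_of_nonneg_left h2 (eps_pos k).le).trans h1.le

/-- Structure of minimal certificates. -/
def Str (F : Finset (Finset X)) (g : Finset X → ℝ) (l' : X → Fin (m + 1)) (T : Finset X) : Prop :=
  (∃ H ∈ F, Qc g H l' (tau l' T)) ∧ ∀ H ∈ F, Qc g H l' (tau l' T) →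
    ∀ x ∈ T, (l' x : ℕ) < m ∧ x ∈ pre g H (l' x) (tau l' T (l' x))

lemma exists_str (F : Finset (Finset X)) (g : Finset X → ℝ) (l : X → Fin (m + 1))
    {H : Finset X} (hH : H ∈ F) : ∃ l', dif l l' ⊆ H ∧ Str F g l' (dif l l') := by
  classical
  let C : Finset (X → Fin (m + 1)) := Finset.univ.filter fun l' =>
    (∀ x, l' x ≤ l x) ∧ dif l l' ⊆ H ∧ ∃ H' ∈ F, Qc g H' l' (tau l' (dif l l'))
  have hne : C.Nonempty := by
    refine ⟨fun x => if x ∈ H then 0 else l x, Finset.mem_filter.mpr ⟨Finset.mem_univ _, ?_, ?_,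
      H, hH, ?_⟩⟩
    · intro x; beta_reduce; split_ifs
      · exact Fin.zero_le _
      · exact le_rfl
    · intro x hx
      by_contra h
      simp [dif, h] at hx
    · intro i _ θ
      have : ((lv g H θ).filter fun x => i < ((if x ∈ H then 0 else l x : Fin (m + 1)) : ℕ)) = ∅ := by
        refine Finset.filter_eq_empty_iff.mpr fun x hx => ?_
        have := (Finset.mem_filter.mp hx).1
        simp [this]
      rw [this]; simp
  obtain ⟨l', hl', hmin⟩ := C.exists_min_image
    (fun l' => ∑ i ∈ Finset.range m, tau l' (dif l l') i) hne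
  obtain ⟨hle, hsub, hex⟩ := (Finset.mem_filter.mp hl').2
  refine ⟨l', hsub, hex, ?_⟩
  intro H'' hH'' hQ x hx
  have hx' : l' x ≠ l x := (Finset.mem_filter.mp hx).2
  have hlt : l' x < l x := lt_of_le_of_ne (hle x) hx'
  have hlt' : (l' x : ℕ) < l x := hlt
  have hkm : (l' x : ℕ) < m := by have := (l x).2; omega
  refine ⟨hkm, ?_⟩
  by_contra hnot
  set k : ℕ := (l' x).val with hk
  let l'' : X → Fin (m + 1) := Function.update l' x ⟨k + 1, by omega⟩
  have hl''x : (l'' x : ℕ) = k + 1 := by simp [l'']
  have hl''y : ∀ y, y ≠ x → l'' y = l' y := fun y hy => by simp [l'', hy]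
  have hdif : dif l l'' ⊆ dif l l' := by
    intro y hy
    by_cases hyx : y = x
    · exact hyx ▸ hx
    · simpa [dif, hl''y y hyx] using hy
  have htau : ∀ i, tau l'' (dif l l'') i ≤ tau l' (dif l l') i := by
    intro i
    refine Finset.card_le_card fun y hy => ?_
    obtain ⟨h1, h2⟩ := Finset.mem_filter.mp hy
    refine Finset.mem_filter.mpr ⟨hdif h1, ?_⟩
    by_cases hyx : y = x
    · subst hyx; omega
    · rwa [hl''y y hyx] at h2
  have htauk : tau l'' (dif l l'') k + 1 ≤ tau l' (dif l l') k := by
    refine Finset.card_lt_card ⟨fun y hy => ?_, fun h => ?_⟩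
    · obtain ⟨h1, h2⟩ := Finset.mem_filter.mp hy
      refine Finset.mem_filter.mpr ⟨hdif h1, ?_⟩
      by_cases hyx : y = x
      · subst hyx; omega
      · rwa [hl''y y hyx] at h2
    · have := (Finset.mem_filter.mp (h (Finset.mem_filter.mpr ⟨hx, le_rfl⟩))).2
      omega
  have hC : l'' ∈ C := by
    refine Finset.mem_filter.mpr ⟨Finset.mem_univ _, ?_, hdif.trans hsub, H'', hH'', ?_⟩
    · intro y
      by_cases hyx : y = x
      · subst hyx
        show (l'' y : ℕ) ≤ l y
        omega
      · rw [hl''y y hyx]; exact hle y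
    · intro i hi θ
      have hq := hQ i hi θ
      have hti : ((tau l'' (dif l l'') i : ℕ) : ℝ) ≤ tau l' (dif l l') i := by
        exact_mod_cast htau i
      by_cases hcase : i = k ∧ x ∈ lv g H'' θ
      · obtain ⟨rfl, hxl⟩ := hcase
        have hxH : x ∈ H'' := (Finset.mem_filter.mp hxl).1
        have h1 : (tau l' (dif l l') k : ℝ) ≤ eps k * (lv g H'' (lam g H'' x)).card := by
          by_contra h
          exact hnot (Finset.mem_filter.mpr ⟨hxH, not_le.mp h⟩)
        have h2 : ((lv g H'' (lam g H'' x)).card : ℝ) ≤ (lv g H'' θ).card := by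
          have : lv g H'' (lam g H'' x) ⊆ lv g H'' θ := fun y hy =>
            Finset.mem_filter.mpr ⟨(Finset.mem_filter.mp hy).1,
              (Finset.mem_filter.mp hxl).2.trans (Finset.mem_filter.mp hy).2⟩
          exact_mod_cast Finset.card_le_card this
        have h3 := mul_le_mul_of_nonneg_left h2 (eps_pos k).le
        rw [max_eq_left (by linarith)] at hq
        have h4 : ((lv g H'' θ).filter fun y => k < (l'' y : ℕ)) ⊆
            insert x ((lv g H'' θ).filter fun y => k < (l' y : ℕ)) := by
          intro y hy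
          by_cases hyx : y = x
          · exact hyx ▸ Finset.mem_insert_self _ _
          · refine Finset.mem_insert_of_mem ?_
            simpa [hl''y y hyx] using hy
        have h5 := (Finset.card_le_card h4).trans (Finset.card_insert_le _ _)
        have h6 : ((((lv g H'' θ).filter fun y => k < (l'' y : ℕ)).card : ℕ) : ℝ) ≤
            (((lv g H'' θ).filter fun y => k < (l' y : ℕ)).card : ℝ) + 1 := by exact_mod_cast h5
        have h7 : ((tau l'' (dif l l'') k : ℕ) : ℝ) + 1 ≤ tau l' (dif l l') k := by
          exact_mod_cast htauk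
        exact le_max_of_le_left (by linarith)
      · have h4 : ((lv g H'' θ).filter fun y => i < (l'' y : ℕ)) =
            ((lv g H'' θ).filter fun y => i < (l' y : ℕ)) := by
          refine Finset.filter_congr fun y hy => ?_
          by_cases hyx : y = x
          · subst hyx
            have : i ≠ k := fun h => hcase ⟨h, hy⟩
            omega
          · rw [hl''y y hyx]
        rw [h4]
        exact hq.trans (max_le_max (by linarith) le_rfl)
  have hlt2 : ∑ i ∈ Finset.range m, tau l'' (dif l l'') i <
      ∑ i ∈ Finset.range m, tau l' (dif l l') i :=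
    Finset.sum_lt_sum (fun i _ => htau i) ⟨k, Finset.mem_range.mpr hkm, htauk⟩
  exact absurd (hmin l'' hC) (not_le.mpr hlt2)

lemma sum_eps_le (m : ℕ) : ∑ i ∈ Finset.range m, eps i ≤ 1 / 2 := by
  unfold eps
  rw [← Finset.sum_div]
  have := sum_geometric_two_le m
  linarith

/-- In the good case a quarter of the fractional cover is captured by small labels. -/
lemma good_capture {g : Finset X → ℝ} (hg : ∀ S, 0 ≤ g S) {H : Finset X}
    (hH : 1 / 2 ≤ ∑ S ∈ H.powerset.erase ∅, g S) (l : X → Fin (m + 1))
    (hQ : Qc g H l fun _ => 0) :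
    1 ≤ 4 * ∑ S ∈ Finset.univ.erase (∅ : Finset X),
      g S * ∏ x ∈ S, (16 * (1 / 16 : ℝ) ^ (l x : ℕ)) := by
  have htot : ∑ x ∈ H, lam g H x * 1 = ∑ S ∈ H.powerset.erase ∅, g S := by
    rw [sum_lam_mul, ← Finset.add_sum_erase _ _ (Finset.empty_mem_powerset H)]
    simp only [Finset.card_empty, Finset.sum_empty, mul_zero, zero_add]
    refine Finset.sum_congr rfl fun S hS => ?_
    have : (S.card : ℝ) ≠ 0 := by
      have := Finset.nonempty_iff_ne_empty.mpr (Finset.mem_erase.mp hS).1
      exact_mod_cast this.card_pos.ne'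
    simp only [Finset.sum_const, nsmul_eq_mul, mul_one]
    field_simp
  have h1 : ∀ i ∈ Finset.range m, ∑ x ∈ H, lam g H x * (if i < (l x : ℕ) then 1 else 0) ≤
      eps i * ∑ x ∈ H, lam g H x * 1 := by
    intro i hi
    have := abel_levels (fun x => eps i - if i < (l x : ℕ) then 1 else 0) _ H (lam g H) rfl
      (fun x _ => lam_nonneg hg H x) (fun θ => by
        have h := hQ i (Finset.mem_range.mp hi) θ
        simp only [Nat.cast_zero, sub_zero] at h
        rw [max_eq_left (mul_nonneg (eps_pos i).le (Nat.cast_nonneg _))] at h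
        rw [Finset.sum_sub_distrib, Finset.sum_const, nsmul_eq_mul, Finset.sum_boole]
        unfold lv at h
        linarith)
    simp_rw [mul_sub] at this
    rw [Finset.sum_sub_distrib] at this
    rw [Finset.mul_sum]
    have e : ∑ x ∈ H, lam g H x * eps i = ∑ x ∈ H, eps i * (lam g H x * 1) :=
      Finset.sum_congr rfl fun x _ => by ring
    linarith
  have h2 := Finset.sum_le_sum h1
  rw [← Finset.sum_mul, Finset.sum_comm, htot] at h2
  have h3 : ∀ x ∈ H, ∑ i ∈ Finset.range m, lam g H x * (if i < (l x : ℕ) then 1 else 0) =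
      lam g H x * (l x : ℕ) := by
    intro x _
    rw [← Finset.mul_sum, Finset.sum_boole]
    congr 2
    have : (Finset.range m).filter (fun i => i < (l x : ℕ)) = Finset.range (l x) := by
      ext i; have := (l x).2
      simp only [Finset.mem_filter, Finset.mem_range]; omega
    rw [this, Finset.card_range]
  rw [Finset.sum_congr rfl h3, sum_lam_mul,
    ← Finset.add_sum_erase _ _ (Finset.empty_mem_powerset H)] at h2
  simp only [Finset.card_empty, Finset.sum_empty, mul_zero, zero_add] at h2
  set M := ∑ S ∈ H.powerset.erase ∅, g S with hM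
  have h4 : (∑ i ∈ Finset.range m, eps i) * M ≤ 1 / 2 * M :=
    mul_le_mul_of_nonneg_right (sum_eps_le m) (by linarith)
  have h5 : M ≤ ∑ S ∈ H.powerset.erase ∅, (g S / S.card * ∑ x ∈ S, ((l x : ℕ) : ℝ) +
      g S * ∏ x ∈ S, (16 * (1 / 16 : ℝ) ^ (l x : ℕ))) := by
    refine Finset.sum_le_sum fun S hS => ?_
    have hc : (0 : ℝ) < S.card := by
      have := Finset.nonempty_iff_ne_empty.mpr (Finset.mem_erase.mp hS).1
      exact_mod_cast this.card_pos
    have hp : 0 ≤ ∏ x ∈ S, (16 * (1 / 16 : ℝ) ^ (l x : ℕ)) := by positivity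
    by_cases hcap : ∑ x ∈ S, (l x : ℕ) ≤ S.card
    · have : 1 ≤ ∏ x ∈ S, (16 * (1 / 16 : ℝ) ^ (l x : ℕ)) := by
        rw [Finset.prod_mul_distrib, Finset.prod_const, Finset.prod_pow_eq_pow_sum, one_div,
          inv_pow, ← div_eq_mul_inv, one_le_div (by positivity)]
        exact pow_le_pow_right₀ (by norm_num) hcap
      have h6 : 0 ≤ g S / S.card * ∑ x ∈ S, ((l x : ℕ) : ℝ) :=
        mul_nonneg (div_nonneg (hg S) hc.le) (by positivity)
      nlinarith [hg S]
    · have h6 : (S.card : ℝ) ≤ ∑ x ∈ S, ((l x : ℕ) : ℝ) := by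
        exact_mod_cast (not_le.mp hcap).le
      have h7 := mul_le_mul_of_nonneg_left h6 (div_nonneg (hg S) hc.le)
      rw [div_mul_cancel₀ _ hc.ne'] at h7
      have := mul_nonneg (hg S) hp
      linarith
  rw [Finset.sum_add_distrib] at h5
  have h6 : ∑ S ∈ H.powerset.erase ∅, g S * ∏ x ∈ S, (16 * (1 / 16 : ℝ) ^ (l x : ℕ)) ≤
      ∑ S ∈ Finset.univ.erase (∅ : Finset X), g S * ∏ x ∈ S, (16 * (1 / 16 : ℝ) ^ (l x : ℕ)) :=
    Finset.sum_le_sum_of_subset_of_nonneg (Finset.erase_subset_erase _ (Finset.subset_univ _))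
      fun S _ _ => mul_nonneg (hg S) (by positivity)
  linarith

end Crest.Agent.R52
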