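import Crest.Agent.R52.Frac1

/-! Row 52: the fractional-to-integral cover theorem. -/

set_option autoImplicit false
set_option linter.unusedSectionVars false

namespace Crest.Agent.R52

open Finset

variable {X : Type} [Fintype X] [DecidableEq X] {m : ℕ}

/-- Level counts of a certificate. -/
def tv (l : X → Fin (m + 1)) (T : Finset X) (k : Fin (m + 1)) : ℕ :=
  (T.filter fun x => l x = k).card

lemma prod_tv (l : X → Fin (m + 1)) (T : Finset X) (c : Fin (m + 1) → ℝ) :
    ∏ x ∈ T, c (l x) = ∏ k, c k ^ tv l T k := by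
  rw [← Finset.prod_fiberwise_of_maps_to (s := T) (t := Finset.univ) (g := l)
    (fun _ _ => Finset.mem_univ _)]
  refine Finset.prod_congr rfl fun k _ => ?_
  rw [tv, ← Finset.prod_const]
  exact Finset.prod_congr rfl fun x hx => by rw [(Finset.mem_filter.mp hx).2]

lemma sum_tv (l : X → Fin (m + 1)) (T : Finset X) : ∑ k, tv l T k = T.card :=
  (Finset.card_eq_sum_card_fiberwise (s := T) (t := Finset.univ) (f := l)
    (fun _ _ => Finset.mem_univ _)).symm

lemma tau_eq (l : X → Fin (m + 1)) (T : Finset X) (i : ℕ) :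
    tau l T i = ∑ k ∈ Finset.univ.filter (fun k : Fin (m + 1) => (k : ℕ) ≤ i), tv l T k := by
  unfold tau tv
  rw [Finset.card_eq_sum_card_fiberwise (f := l)
    (t := Finset.univ.filter (fun k : Fin (m + 1) => (k : ℕ) ≤ i))]
  · refine Finset.sum_congr rfl fun k hk => ?_
    congr 1
    ext x
    simp only [Finset.mem_filter]
    constructor
    · rintro ⟨⟨h1, _⟩, h3⟩; exact ⟨h1, h3⟩
    · rintro ⟨h1, h3⟩; exact ⟨⟨h1, h3 ▸ (Finset.mem_filter.mp hk).2⟩, h3⟩
  · intro x hx
    simpa using (Finset.mem_filter.mp hx).2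

/-- Certificates with a prescribed count vector have small total weight. -/
lemma sum_str_fiber (F : Finset (Finset X)) (g : Finset X → ℝ) (l : X → Fin (m + 1))
    (c : Fin (m + 1) → ℝ) (hc : ∀ k, 0 ≤ c k) (t : Fin (m + 1) → ℕ) :
    ∑ T : Finset X, ind (tv l T = t ∧ Str F g l T) *
        ∏ x ∈ T, (c (l x) * (eps (l x) * (1 / 2) ^ (l x : ℕ))) ≤
      ∏ k, (Real.exp 2 * c k) ^ t k := by
  classical
  by_cases hex : ∃ T0, tv l T0 = t ∧ Str F g l T0
  swap
  · have : ∀ T : Finset X, ind (tv l T = t ∧ Str F g l T) = 0 :=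
      fun T => ind_neg fun h => hex ⟨T, h⟩
    simp only [this, zero_mul, Finset.sum_const_zero]
    exact Finset.prod_nonneg fun k _ => pow_nonneg (mul_nonneg (Real.exp_pos 2).le (hc k)) _
  obtain ⟨T0, ht0, ⟨H, hH, hQ⟩, -⟩ := hex
  set τ := tau l T0 with hτ
  have hττ : ∀ T, tv l T = t → tau l T = τ := by
    intro T hT
    funext i
    rw [hτ, tau_eq, tau_eq, hT, ht0]
  set y : X → ℝ := fun x => eps (l x) * (1 / 2) ^ (l x : ℕ) with hy
  have hy0 : ∀ x, 0 ≤ y x := fun x => mul_nonneg (eps_pos _).le (by positivity)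
  set Z : Finset X := Finset.univ.filter fun x => x ∈ pre g H (l x) (τ (l x)) with hZ
  have hC : 0 ≤ ∏ k, c k ^ t k := Finset.prod_nonneg fun k _ => pow_nonneg (hc k) _
  have h1 : ∑ T : Finset X, ind (tv l T = t ∧ Str F g l T) * ∏ x ∈ T, (c (l x) * y x) ≤
      ∑ T ∈ Z.powerset, (∏ k, c k ^ t k) * ∏ x ∈ T, y x := by
    rw [← Finset.sum_subset (Finset.subset_univ Z.powerset)]
    · refine Finset.sum_le_sum fun T _ => ?_
      by_cases h : tv l T = t ∧ Str F g l T
      · rw [ind_pos h, one_mul, Finset.prod_mul_distrib, prod_tv, h.1]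
      · rw [ind_neg h, zero_mul]
        exact mul_nonneg hC (Finset.prod_nonneg fun x _ => hy0 x)
    · intro T _ hT
      rw [ind_neg, zero_mul]
      rintro ⟨h1, -, h2⟩
      apply hT
      rw [Finset.mem_powerset]
      intro x hx
      rw [hττ T h1] at h2
      exact Finset.mem_filter.mpr ⟨Finset.mem_univ _, (h2 H hH hQ x hx).2⟩
  refine h1.trans ?_
  rw [← Finset.mul_sum, ← Finset.prod_one_add]
  have h2 : ∏ x ∈ Z, (1 + y x) ≤ Real.exp (∑ x ∈ Z, y x) := by
    rw [Real.exp_sum]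
    exact Finset.prod_le_prod (fun x _ => by linarith [hy0 x])
      fun x _ => by linarith [Real.add_one_le_exp (y x)]
  have h3 : ∑ x ∈ Z, y x ≤ 2 * ∑ k, (t k : ℝ) := by
    rw [← Finset.sum_fiberwise_of_maps_to (s := Z) (t := Finset.univ) (g := l)
      (fun _ _ => Finset.mem_univ _)]
    have hN : ∀ i, (τ i : ℝ) ≤ ∑ k, (t k : ℝ) := by
      intro i
      have : τ i ≤ ∑ k, t k := by
        rw [← ht0, sum_tv]; exact Finset.card_filter_le _ _
      exact_mod_cast this
    have h4 : ∀ k : Fin (m + 1), ∑ x ∈ Z with l x = k, y x ≤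
        (1 / 2) ^ (k : ℕ) * ∑ k, (t k : ℝ) := by
      intro k
      have e : ∑ x ∈ Z with l x = k, y x =
          ((Z.filter fun x => l x = k).card : ℝ) * (eps k * (1 / 2) ^ (k : ℕ)) := by
        rw [← nsmul_eq_mul, ← Finset.sum_const]
        exact Finset.sum_congr rfl fun x hx => by
          simp only [hy, (Finset.mem_filter.mp hx).2]
      have hs : (Z.filter fun x => l x = k) ⊆ pre g H k (τ k) := by
        intro x hx
        obtain ⟨h1, h2⟩ := Finset.mem_filter.mp hx
        have := (Finset.mem_filter.mp h1).2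
        rwa [h2] at this
      have hs' : ((Z.filter fun x => l x = k).card : ℝ) ≤ (pre g H k (τ k)).card := by
        exact_mod_cast Finset.card_le_card hs
      have h5 := eps_mul_card_pre g H k (τ k)
      have h6 := mul_le_mul_of_nonneg_left hs' (eps_pos k).le
      rw [e]
      have h7 : (0 : ℝ) ≤ (1 / 2) ^ (k : ℕ) := by positivity
      nlinarith [hN k]
    refine (Finset.sum_le_sum fun k _ => h4 k).trans ?_
    rw [← Finset.sum_mul, Fin.sum_univ_eq_sum_range (fun k => (1 / 2 : ℝ) ^ k)]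
    exact mul_le_mul_of_nonneg_right (sum_geometric_two_le _) (by positivity)
  calc (∏ k, c k ^ t k) * ∏ x ∈ Z, (1 + y x)
      ≤ (∏ k, c k ^ t k) * Real.exp (2 * ∑ k, (t k : ℝ)) :=
        mul_le_mul_of_nonneg_left (h2.trans (Real.exp_le_exp.mpr h3)) hC
    _ = ∏ k, (Real.exp 2 * c k) ^ t k := by
        rw [Finset.mul_sum, Real.exp_sum, ← Finset.prod_mul_distrib]
        refine Finset.prod_congr rfl fun k _ => ?_
        rw [mul_pow, mul_comm (2 : ℝ), Real.exp_nat_mul, mul_comm]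

lemma geom_le_exp {b : ℝ} (h0 : 0 ≤ b) (h1 : b ≤ 1 / 2) (N : ℕ) :
    ∑ j ∈ Finset.range N, b ^ j ≤ Real.exp (2 * b) := by
  have h2 : ∑ j ∈ Finset.range N, b ^ j ≤ 1 + 2 * b := by
    have := mul_neg_geom_sum b N
    have h3 : 0 ≤ b ^ N := pow_nonneg h0 N
    have h4 : 0 ≤ ∑ j ∈ Finset.range N, b ^ j := Finset.sum_nonneg fun j _ => pow_nonneg h0 j
    by_contra h
    push Not at h
    nlinarith
  linarith [Real.add_one_le_exp (2 * b)]

lemma sum_str (F : Finset (Finset X)) (g : Finset X → ℝ) (l : X → Fin (m + 1))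
    (c : Fin (m + 1) → ℝ) (hc : ∀ k, 0 ≤ c k) (hc1 : ∀ k, Real.exp 2 * c k ≤ 1 / 2) :
    ∑ T : Finset X, ind (T ≠ ∅ ∧ Str F g l T) *
        ∏ x ∈ T, (c (l x) * (eps (l x) * (1 / 2) ^ (l x : ℕ))) ≤
      Real.exp (2 * ∑ k, Real.exp 2 * c k) - 1 := by
  classical
  set P := Fintype.piFinset fun _ : Fin (m + 1) => Finset.range (Fintype.card X + 1) with hP
  have h0P : (0 : Fin (m + 1) → ℕ) ∈ P := by simp [hP]
  have hnn : ∀ T : Finset X, 0 ≤ ∏ x ∈ T, (c (l x) * (eps (l x) * (1 / 2) ^ (l x : ℕ))) :=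
    fun T => Finset.prod_nonneg fun x _ =>
      mul_nonneg (hc _) (mul_nonneg (eps_pos _).le (by positivity))
  have h1 : ∀ T : Finset X, ind (T ≠ ∅ ∧ Str F g l T) ≤
      ∑ t ∈ P.erase 0, ind (tv l T = t ∧ Str F g l T) := by
    intro T
    by_cases h : T ≠ ∅ ∧ Str F g l T
    · rw [ind_pos h]
      have hm : tv l T ∈ P.erase 0 := by
        refine Finset.mem_erase.mpr ⟨fun h0 => h.1 ?_, ?_⟩
        · have := sum_tv l T
          rw [h0] at this
          simpa using this.symm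
        · rw [hP, Fintype.mem_piFinset]
          intro k
          rw [Finset.mem_range, Nat.lt_succ_iff]
          exact Finset.card_le_univ _
      calc (1 : ℝ) = ind (tv l T = tv l T ∧ Str F g l T) := (ind_pos ⟨rfl, h.2⟩).symm
        _ ≤ _ := Finset.single_le_sum (f := fun t => ind (tv l T = t ∧ Str F g l T))
          (fun t _ => ind_nonneg _) hm
    · rw [ind_neg h]; exact Finset.sum_nonneg fun t _ => ind_nonneg _
  refine (Finset.sum_le_sum fun T _ => mul_le_mul_of_nonneg_right (h1 T) (hnn T)).trans ?_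
  simp_rw [Finset.sum_mul]
  rw [Finset.sum_comm]
  refine (Finset.sum_le_sum fun t _ => sum_str_fiber F g l c hc t).trans ?_
  have h2 := Finset.add_sum_erase P (fun t => ∏ k, (Real.exp 2 * c k) ^ t k) h0P
  simp only [Pi.zero_apply, pow_zero, Finset.prod_const_one] at h2
  rw [hP, ← Finset.prod_univ_sum (fun _ : Fin (m + 1) => Finset.range (Fintype.card X + 1))
    (fun k j => (Real.exp 2 * c k) ^ j)] at h2
  have h3 : ∏ k : Fin (m + 1), ∑ j ∈ Finset.range (Fintype.card X + 1), (Real.exp 2 * c k) ^ j ≤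
      Real.exp (2 * ∑ k, Real.exp 2 * c k) := by
    rw [Finset.mul_sum, Real.exp_sum]
    exact Finset.prod_le_prod (fun k _ => Finset.sum_nonneg fun j _ =>
      pow_nonneg (mul_nonneg (Real.exp_pos 2).le (hc k)) _)
      fun k _ => geom_le_exp (mul_nonneg (Real.exp_pos 2).le (hc k)) (hc1 k) _
  rw [hP]
  linarith

lemma sum_dif_eq (π : Fin (m + 1) → ℝ) (hπ : ∀ k, 0 ≤ π k) (h1 : ∑ k, π k = 1)
    (l' : X → Fin (m + 1)) (T : Finset X) :
    ∑ l : X → Fin (m + 1), (∏ x, π (l x)) * ind (dif l l' = T) ≤ ∏ x ∈ Tᶜ, π (l' x) := by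
  have h : ∀ l : X → Fin (m + 1), (∏ x, π (l x)) * ind (dif l l' = T) ≤
      ∏ x, (if x ∈ T then π (l x) else if l x = l' x then π (l x) else 0) := by
    intro l
    by_cases hd : dif l l' = T
    · rw [ind_pos hd, mul_one]
      refine le_of_eq (Finset.prod_congr rfl fun x _ => ?_)
      by_cases hx : x ∈ T
      · simp [hx]
      · have : l' x = l x := by
          by_contra h
          exact hx (hd ▸ Finset.mem_filter.mpr ⟨Finset.mem_univ _, h⟩)
        simp [hx, this]
    · rw [ind_neg hd, mul_zero]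
      exact Finset.prod_nonneg fun x _ => by split_ifs <;> first | exact hπ _ | exact le_rfl
  refine (Finset.sum_le_sum fun l _ => h l).trans (le_of_eq ?_)
  rw [← Fintype.prod_sum (fun x k => if x ∈ T then π k else if k = l' x then π k else 0),
    ← Finset.prod_mul_prod_compl T]
  rw [Finset.prod_eq_one (s := T), one_mul]
  · refine Finset.prod_congr rfl fun x hx => ?_
    simp [Finset.mem_compl.mp hx]
  · intro x hx; simp [hx, h1]

theorem frac_to_int (F : Finset (Finset X)) (g : Finset X → ℝ) (hg : ∀ S, 0 ≤ g S)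
    (hcov : ∀ H ∈ F, 1 / 2 ≤ ∑ S ∈ H.powerset.erase ∅, g S) {r p : ℝ} (hr1 : r ≤ 1)
    (hcost : ∑ S ∈ Finset.univ.erase (∅ : Finset X), g S * r ^ S.card ≤ 1 / 2)
    (hp : 0 < p) (hpr : 10 ^ 6 * p ≤ r) :
    ∃ G : Finset (Finset X), (∀ H ∈ F, ∃ S ∈ G, S ⊆ H) ∧ ∑ S ∈ G, p ^ S.card ≤ 1 / 2 := by
  classical
  by_contra hcon
  push Not at hcon
  set q : ℝ := 1000 * p with hq
  have hq0 : 0 < q := by positivity
  have hq1 : q ≤ 1 := by linarith
  obtain ⟨m, hm1, hm2⟩ := exists_nat_pow_near (x := 1 / q) (y := (8 : ℝ))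
    (by rw [le_div_iff₀ hq0]; linarith) (by norm_num)
  rw [le_div_iff₀ hq0] at hm1
  rw [div_lt_iff₀ hq0] at hm2
  set s : ℝ := ∑ k ∈ Finset.range m, q * 8 ^ k with hs
  have hs1 : s ≤ 1 := by
    rw [hs, ← Finset.mul_sum, geom_sum_eq (by norm_num)]
    nlinarith
  have hs0 : 0 ≤ s := Finset.sum_nonneg fun k _ => by positivity
  set π : Fin (m + 1) → ℝ := fun k => if (k : ℕ) < m then q * 8 ^ (k : ℕ) else 1 - s with hπ
  have hπ0 : ∀ k, 0 ≤ π k := fun k => by
    simp only [hπ]; split_ifs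
    · positivity
    · linarith
  have hπ1 : ∑ k, π k = 1 := by
    rw [Fin.sum_univ_castSucc]
    simp only [hπ, Fin.val_castSucc, Fin.is_lt, if_true, Fin.val_last, lt_irrefl, if_false]
    rw [Fin.sum_univ_eq_sum_range (fun k => q * 8 ^ k)]
    ring
  have hπ2 : ∑ k, π k * (16 * (1 / 16 : ℝ) ^ (k : ℕ)) ≤ 160 * q := by
    rw [Fin.sum_univ_castSucc]
    simp only [hπ, Fin.val_castSucc, Fin.is_lt, if_true, Fin.val_last, lt_irrefl, if_false]
    rw [Fin.sum_univ_eq_sum_range (fun k => q * 8 ^ k * (16 * (1 / 16 : ℝ) ^ k))]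
    have e : ∀ k : ℕ, q * 8 ^ k * (16 * (1 / 16 : ℝ) ^ k) = 16 * q * (1 / 2) ^ k := by
      intro k
      have : (1 / 2 : ℝ) ^ k = 8 ^ k * (1 / 16) ^ k := by rw [← mul_pow]; norm_num
      rw [this]; ring
    simp_rw [e]
    rw [← Finset.mul_sum]
    have h1 := mul_le_mul_of_nonneg_left (sum_geometric_two_le m) (show 0 ≤ 16 * q by positivity)
    have h2 : (1 / 16 : ℝ) ^ m ≤ (1 / 8) ^ m := pow_le_pow_left₀ (by norm_num) (by norm_num) _
    have h3 : (1 / 8 : ℝ) ^ m ≤ 8 * q := by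
      rw [one_div, inv_pow, inv_le_iff_one_le_mul₀ (by positivity)]
      rw [pow_succ] at hm2; linarith
    have h4 : (0 : ℝ) ≤ (1 / 16) ^ m := by positivity
    nlinarith
  set w : (X → Fin (m + 1)) → ℝ := fun l => ∏ x, π (l x) with hw
  have hw0 : ∀ l, 0 ≤ w l := fun l => Finset.prod_nonneg fun x _ => hπ0 _
  have hw1 : ∑ l, w l = 1 := by
    rw [hw, ← Fintype.prod_sum (fun (_ : X) k => π k)]
    simp [hπ1]
  set Gd : (X → Fin (m + 1)) → Prop := fun l => ∃ H ∈ F, Qc g H l fun _ => 0 with hGd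
  -- the good part
  have hgood : ∑ l, w l * ind (Gd l) ≤ 0.32 := by
    have h1 : ∀ l, ind (Gd l) ≤ 4 * ∑ S ∈ Finset.univ.erase (∅ : Finset X),
        g S * ∏ x ∈ S, (16 * (1 / 16 : ℝ) ^ (l x : ℕ)) := by
      intro l
      by_cases h : Gd l
      · obtain ⟨H, hH, hQ⟩ := h
        exact (ind_le_one _).trans (good_capture hg (hcov H hH) l hQ)
      · rw [ind_neg h]
        exact mul_nonneg (by norm_num) (Finset.sum_nonneg fun S _ =>
          mul_nonneg (hg S) (by positivity))
    refine (Finset.sum_le_sum fun l _ => mul_le_mul_of_nonneg_left (h1 l) (hw0 l)).trans ?_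
    simp_rw [Finset.mul_sum]
    rw [Finset.sum_comm]
    have h2 : ∀ S ∈ Finset.univ.erase (∅ : Finset X),
        ∑ l : X → Fin (m + 1), w l * (4 * (g S * ∏ x ∈ S, (16 * (1 / 16 : ℝ) ^ (l x : ℕ)))) ≤
        0.64 * (g S * r ^ S.card) := by
      intro S hS
      have hSc : 1 ≤ S.card :=
        (Finset.nonempty_iff_ne_empty.mpr (Finset.mem_erase.mp hS).1).card_pos
      have e1 : ∀ l : X → Fin (m + 1),
          w l * (4 * (g S * ∏ x ∈ S, (16 * (1 / 16 : ℝ) ^ (l x : ℕ)))) =
          4 * g S * ∏ x, (π (l x) * if x ∈ S then 16 * (1 / 16 : ℝ) ^ (l x : ℕ) else 1) := by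
        intro l
        rw [Finset.prod_mul_distrib (s := Finset.univ), Finset.prod_ite_mem, Finset.univ_inter]
        simp only [hw]; ring
      simp_rw [e1]
      rw [← Finset.mul_sum, ← Fintype.prod_sum
        (fun (x : X) (k : Fin (m + 1)) => π k * if x ∈ S then 16 * (1 / 16 : ℝ) ^ (k : ℕ) else 1)]
      have e2 : ∀ x : X, ∑ k : Fin (m + 1), (π k * if x ∈ S then 16 * (1 / 16 : ℝ) ^ (k : ℕ) else 1)
          = if x ∈ S then ∑ k, π k * (16 * (1 / 16 : ℝ) ^ (k : ℕ)) else 1 := by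
        intro x; split_ifs
        · rfl
        · simpa using hπ1
      simp_rw [e2]
      rw [Finset.prod_ite_mem, Finset.univ_inter, Finset.prod_const]
      have h3 : (∑ k, π k * (16 * (1 / 16 : ℝ) ^ (k : ℕ))) ^ S.card ≤ (0.16 * r) ^ S.card :=
        pow_le_pow_left₀ (Finset.sum_nonneg fun k _ => mul_nonneg (hπ0 k) (by positivity))
          (by linarith) _
      have h4 : (0.16 : ℝ) ^ S.card ≤ 0.16 := pow_le_of_le_one (by norm_num) (by norm_num) (by omega)
      have hr0 : 0 ≤ r := by linarith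
      rw [mul_pow] at h3
      have h5 := mul_le_mul_of_nonneg_right h4 (pow_nonneg hr0 S.card)
      have h6 := mul_le_mul_of_nonneg_left (h3.trans h5) (hg S)
      linarith
    refine (Finset.sum_le_sum h2).trans ?_
    rw [← Finset.mul_sum]; linarith
  -- the bad part
  set c : Fin (m + 1) → ℝ := fun k => (1 / 2) ^ (k : ℕ) / 250 with hc
  have he2 : Real.exp 2 ≤ 7.4 := by
    have := Real.exp_one_lt_d9
    have h2 : Real.exp 2 = Real.exp 1 * Real.exp 1 := by rw [← Real.exp_add]; norm_num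
    nlinarith [Real.exp_pos 1]
  have hc0 : ∀ k, 0 ≤ c k := fun k => by positivity
  have hc1 : ∀ k, Real.exp 2 * c k ≤ 1 / 2 := fun k => by
    have : (1 / 2 : ℝ) ^ (k : ℕ) ≤ 1 := pow_le_one₀ (by norm_num) (by norm_num)
    have h2 : c k ≤ 1 / 250 := by simp only [hc]; linarith
    nlinarith [hc0 k]
  have hc2 : Real.exp (2 * ∑ k, Real.exp 2 * c k) - 1 ≤ 0.14 := by
    have h1 : ∑ k, c k ≤ 2 / 250 := by
      simp only [hc]
      rw [← Finset.sum_div, Fin.sum_univ_eq_sum_range (fun k => (1 / 2 : ℝ) ^ k)]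
      linarith [sum_geometric_two_le (m + 1)]
    have h0 : 0 ≤ ∑ k, c k := Finset.sum_nonneg fun k _ => hc0 k
    have h2 : 2 * ∑ k, Real.exp 2 * c k ≤ 0.12 := by
      rw [← Finset.mul_sum]; nlinarith
    have h3 := Real.exp_bound_div_one_sub_of_interval (x := 0.12) (by norm_num) (by norm_num)
    have h4 := Real.exp_le_exp.mpr h2
    have h5 : (1 : ℝ) / (1 - 0.12) ≤ 1.14 := by norm_num
    linarith
  have hbad : ∑ l, w l * ind (¬ Gd l) ≤ 2 * 0.14 := by
    have h1 : ∀ l, ind (¬ Gd l) ≤ 2 * ∑ l' : X → Fin (m + 1), ∑ T : Finset X,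
        ind (dif l l' = T) * (ind (T ≠ ∅ ∧ Str F g l' T) * p ^ T.card) := by
      intro l
      have e : ∀ l' : X → Fin (m + 1), ∑ T : Finset X,
          ind (dif l l' = T) * (ind (T ≠ ∅ ∧ Str F g l' T) * p ^ T.card) =
          ind (dif l l' ≠ ∅ ∧ Str F g l' (dif l l')) * p ^ (dif l l').card := by
        intro l'
        simp_rw [ind_eq_ite (dif l l' = _)]
        simp
      simp_rw [e]
      by_cases h : Gd l
      · rw [ind_neg (not_not.mpr h)]
        exact mul_nonneg (by norm_num) (Finset.sum_nonneg fun l' _ =>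
          mul_nonneg (ind_nonneg _) (by positivity))
      rw [ind_pos h]
      set Mn := Finset.univ.filter fun l' => dif l l' ≠ ∅ ∧ Str F g l' (dif l l') with hMn
      have hcv := hcon (Mn.image (dif l)) fun H hH => by
        obtain ⟨l', h1, h2⟩ := exists_str F g l hH
        refine ⟨dif l l', Finset.mem_image_of_mem _
          (Finset.mem_filter.mpr ⟨Finset.mem_univ _, fun h0 => h ?_, h2⟩), h1⟩
        obtain ⟨H', hH', hQ⟩ := h2.1
        have e1 : l' = l := by
          funext x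
          by_contra hx
          have : x ∈ dif l l' := Finset.mem_filter.mpr ⟨Finset.mem_univ _, hx⟩
          rw [h0] at this; simp at this
        rw [h0, e1] at hQ
        have e2 : tau l ∅ = fun _ => 0 := by funext i; simp [tau]
        exact ⟨H', hH', e2 ▸ hQ⟩
      have h2 : ∑ S ∈ Mn.image (dif l), p ^ S.card ≤ ∑ l' ∈ Mn, p ^ (dif l l').card :=
        Finset.sum_image_le_of_nonneg fun _ _ => by positivity
      have h3 : ∑ l' ∈ Mn, p ^ (dif l l').card = ∑ l' : X → Fin (m + 1),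
          ind (dif l l' ≠ ∅ ∧ Str F g l' (dif l l')) * p ^ (dif l l').card := by
        rw [hMn, Finset.sum_filter]
        refine Finset.sum_congr rfl fun l' _ => ?_
        rw [ind_eq_ite]; split_ifs <;> simp
      linarith
    refine (Finset.sum_le_sum fun l _ => mul_le_mul_of_nonneg_left (h1 l) (hw0 l)).trans ?_
    have h2 : ∑ l, w l * (2 * ∑ l' : X → Fin (m + 1), ∑ T : Finset X,
        ind (dif l l' = T) * (ind (T ≠ ∅ ∧ Str F g l' T) * p ^ T.card)) =
        2 * ∑ l' : X → Fin (m + 1), ∑ T : Finset X, (∑ l, w l * ind (dif l l' = T)) *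
          (ind (T ≠ ∅ ∧ Str F g l' T) * p ^ T.card) := by
      simp_rw [Finset.mul_sum, Finset.sum_mul]
      rw [Finset.sum_comm]
      refine Finset.sum_congr rfl fun l' _ => ?_
      rw [Finset.sum_comm]
      refine Finset.sum_congr rfl fun T _ => ?_
      rw [Finset.mul_sum]
      exact Finset.sum_congr rfl fun l _ => by ring
    rw [h2]
    refine mul_le_mul_of_nonneg_left ?_ (by norm_num)
    have h3 : ∀ l' : X → Fin (m + 1), ∑ T : Finset X, (∑ l, w l * ind (dif l l' = T)) *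
        (ind (T ≠ ∅ ∧ Str F g l' T) * p ^ T.card) ≤ w l' * 0.14 := by
      intro l'
      refine le_trans ?_ (mul_le_mul_of_nonneg_left ((sum_str F g l' c hc0 hc1).trans hc2) (hw0 l'))
      rw [Finset.mul_sum]
      refine Finset.sum_le_sum fun T _ => ?_
      by_cases h : T ≠ ∅ ∧ Str F g l' T
      swap
      · simp [ind_neg h]
      rw [ind_pos h, one_mul, one_mul]
      refine (mul_le_mul_of_nonneg_right (sum_dif_eq π hπ0 hπ1 l' T) (by positivity)).trans
        (le_of_eq ?_)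
      simp only [hw]
      rw [← Finset.prod_mul_prod_compl T, mul_comm (∏ x ∈ T, π (l' x)), mul_assoc,
        ← Finset.prod_mul_distrib, ← Finset.prod_const]
      congr 1
      refine Finset.prod_congr rfl fun x hx => ?_
      obtain ⟨H, hH, hQ⟩ := h.2.1
      have hk := (h.2.2 H hH hQ x hx).1
      simp only [hπ, hc, eps, hk, if_true, hq]
      have : (8 : ℝ) ^ (l' x : ℕ) * ((1 / 2) ^ (l' x : ℕ) * ((1 / 2) ^ (l' x : ℕ) *
          (1 / 2) ^ (l' x : ℕ))) = 1 := by
        rw [← mul_pow, ← mul_pow, ← mul_pow]; norm_num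
      linear_combination (-p) * this
    refine (Finset.sum_le_sum fun l' _ => h3 l').trans ?_
    rw [← Finset.sum_mul, hw1, one_mul]
  simp_rw [ind_not, mul_sub, mul_one] at hbad
  rw [Finset.sum_sub_distrib, hw1] at hbad
  linarith

end Crest.Agent.R52
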