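import Mathlib

/-! Row 52: layering a degenerate graph; cutting a finite set in parts. -/

set_option autoImplicit false

namespace Crest.Agent.R52

open Finset

theorem exists_parts {W : Type} [DecidableEq W] (N : Finset W) (k b : ℕ) (hk : 0 < k)
    (h : N.card ≤ k * b) : ∃ f : W → Fin k, ∀ t, (N.filter fun u => f u = t).card ≤ b := by
  rcases Nat.eq_zero_or_pos b with hb | hb
  · subst hb
    have hN : N = ∅ := Finset.card_eq_zero.mp (by simpa using h)
    subst hN
    exact ⟨fun _ => ⟨0, hk⟩, fun t => by simp⟩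
  let idx : W → ℕ := fun u => if hu : u ∈ N then (N.equivFin ⟨u, hu⟩ : ℕ) else 0
  have hidx : ∀ u, idx u / b < k := by
    intro u
    by_cases hu : u ∈ N
    · have : idx u < N.card := by simp only [idx, hu, dif_pos]; exact (N.equivFin ⟨u, hu⟩).2
      rw [Nat.div_lt_iff_lt_mul hb]; omega
    · simp only [idx, hu, dif_neg, not_false_eq_true]; simpa using hk
  have hinj : ∀ u ∈ N, ∀ v ∈ N, idx u = idx v → u = v := by
    intro u hu v hv huv
    simp only [idx, hu, hv, dif_pos] at huv
    have := N.equivFin.injective (Fin.ext huv)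
    exact congrArg Subtype.val this
  refine ⟨fun u => ⟨idx u / b, hidx u⟩, fun t => ?_⟩
  calc _ ≤ (Finset.range b).card := by
        refine Finset.card_le_card_of_injOn (fun u => idx u % b) ?_ ?_
        · intro u _
          simpa using Nat.mod_lt _ hb
        · intro u hu v hv huv
          simp only [Finset.coe_filter, Set.mem_ofPred_eq] at hu hv
          have h1 : idx u / b = idx v / b := by
            have a := congrArg Fin.val hu.2
            have c := congrArg Fin.val hv.2
            simp only at a c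
            rw [a, c]
          refine hinj u hu.1 v hv.1 ?_
          rw [← Nat.div_add_mod (idx u) b, ← Nat.div_add_mod (idx v) b, h1]
          simp only at huv
          rw [huv]
    _ = b := Finset.card_range b

/-- A large independent set of low-degree vertices. -/
lemma exists_indep_low {W : Type} [DecidableEq W] (H : SimpleGraph W) [DecidableRel H.Adj]
    (D : ℕ) (U : Finset W)
    (hden : 2 * ∑ v ∈ U, (U.filter fun u => H.Adj v u).card ≤ D * U.card) :
    ∃ I ⊆ U, (∀ v ∈ I, (U.filter fun u => H.Adj v u).card ≤ D) ∧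
      (∀ u ∈ I, ∀ v ∈ I, ¬ H.Adj u v) ∧ U.card ≤ 2 * (D + 1) * I.card := by
  classical
  set Low := U.filter fun v => (U.filter fun u => H.Adj v u).card ≤ D with hLow
  set High := U.filter fun v => ¬ (U.filter fun u => H.Adj v u).card ≤ D with hHigh
  have hcard : Low.card + High.card = U.card := Finset.card_filter_add_card_filter_not _
  have h1 : (D + 1) * High.card ≤ ∑ v ∈ U, (U.filter fun u => H.Adj v u).card := by
    calc (D + 1) * High.card = ∑ v ∈ High, (D + 1) := by simp [mul_comm]
      _ ≤ ∑ v ∈ High, (U.filter fun u => H.Adj v u).card := by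
          refine Finset.sum_le_sum fun v hv => ?_
          have := (Finset.mem_filter.mp hv).2
          omega
      _ ≤ _ := Finset.sum_le_sum_of_subset (Finset.filter_subset _ _)
  have h2 : U.card ≤ 2 * Low.card := by
    by_contra hc
    push Not at hc
    have : U.card < 2 * High.card := by omega
    nlinarith
  obtain ⟨I, hI, hmax⟩ := Finset.exists_max_image
    (Low.powerset.filter fun I => ∀ u ∈ I, ∀ v ∈ I, ¬ H.Adj u v) Finset.card
    ⟨∅, by simp⟩
  simp only [Finset.mem_filter, Finset.mem_powerset] at hI hmax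
  have hsub : Low ⊆ I ∪ I.biUnion fun v => U.filter fun u => H.Adj v u := by
    intro w hw
    by_contra hc
    rw [Finset.mem_union, not_or] at hc
    have hw' : ∀ v ∈ I, ¬ H.Adj v w := by
      intro v hv ha
      exact hc.2 (Finset.mem_biUnion.mpr ⟨v, hv, Finset.mem_filter.mpr
        ⟨(Finset.mem_filter.mp hw).1, ha⟩⟩)
    have := hmax (insert w I) (by
      refine ⟨Finset.insert_subset hw hI.1, ?_⟩
      intro u hu v hv
      rcases Finset.mem_insert.mp hu with rfl | hu'
      · rcases Finset.mem_insert.mp hv with rfl | hv'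
        · exact H.irrefl
        · exact fun ha => hw' v hv' ha.symm
      · rcases Finset.mem_insert.mp hv with rfl | hv'
        · exact hw' u hu'
        · exact hI.2 u hu' v hv')
    rw [Finset.card_insert_of_notMem hc.1] at this
    omega
  have hlow : ∀ v ∈ I, (U.filter fun u => H.Adj v u).card ≤ D :=
    fun v hv => (Finset.mem_filter.mp (hI.1 hv)).2
  have h3 : Low.card ≤ (D + 1) * I.card := by
    calc Low.card ≤ _ := Finset.card_le_card hsub
      _ ≤ I.card + (I.biUnion fun v => U.filter fun u => H.Adj v u).card :=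
          Finset.card_union_le _ _
      _ ≤ I.card + ∑ v ∈ I, (U.filter fun u => H.Adj v u).card :=
          Nat.add_le_add_left Finset.card_biUnion_le _
      _ ≤ I.card + ∑ v ∈ I, D := Nat.add_le_add_left (Finset.sum_le_sum hlow) _
      _ = (D + 1) * I.card := by simp; ring
  refine ⟨I, hI.1.trans (Finset.filter_subset _ _), hlow, hI.2, ?_⟩
  nlinarith

lemma layering_aux {W : Type} [DecidableEq W] (H : SimpleGraph W) [DecidableRel H.Adj]
    (D : ℕ)
    (hden : ∀ U : Finset W, 2 * ∑ v ∈ U, (U.filter fun u => H.Adj v u).card ≤ D * U.card)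
    (S : ℕ) : ∀ U : Finset W, (1 - 1 / (2 * ((D : ℝ) + 1))) ^ S * U.card < 1 →
    ∃ st : W → ℕ, ∃ col : W → Fin (D + 1), (∀ v ∈ U, st v < S) ∧
      (∀ u ∈ U, ∀ v ∈ U, H.Adj u v → st u ≠ st v ∧ col u ≠ col v) ∧
      ∀ v ∈ U, (U.filter fun u => H.Adj v u ∧ st u < st v).card ≤ D := by
  classical
  induction S with
  | zero =>
    intro U hU
    have : U.card = 0 := by
      have : (U.card : ℝ) < 1 := by simpa using hU
      exact_mod_cast Nat.lt_one_iff.mp (by exact_mod_cast this)
    have hU0 : U = ∅ := Finset.card_eq_zero.mp this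
    subst hU0
    exact ⟨fun _ => 0, fun _ => 0, by simp, by simp, by simp⟩
  | succ S ih =>
    intro U hU
    obtain ⟨I, hIU, hlow, hind, hcard⟩ := exists_indep_low H D U (hden U)
    have hD : (0 : ℝ) < 2 * ((D : ℝ) + 1) := by positivity
    have hq : (0 : ℝ) ≤ 1 - 1 / (2 * ((D : ℝ) + 1)) := by
      rw [sub_nonneg, div_le_one hD]
      have : (0 : ℝ) ≤ D := Nat.cast_nonneg D
      linarith
    have hU' : ((U \ I).card : ℝ) ≤ (1 - 1 / (2 * ((D : ℝ) + 1))) * U.card := by
      rw [Finset.card_sdiff_of_subset hIU, Nat.cast_sub (Finset.card_le_card hIU)]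
      have h1 : (U.card : ℝ) ≤ 2 * ((D : ℝ) + 1) * I.card := by exact_mod_cast hcard
      have h2 : 1 / (2 * ((D : ℝ) + 1)) * U.card ≤ I.card := by
        rw [div_mul_eq_mul_div, one_mul, div_le_iff₀ hD]; linarith
      linarith
    obtain ⟨st, col, h1, h2, h3⟩ := ih (U \ I) (by
      refine lt_of_le_of_lt ?_ hU
      rw [pow_succ, mul_assoc]
      exact mul_le_mul_of_nonneg_left hU' (pow_nonneg hq _))
    have hcol : ∀ v ∈ I, ∃ c : Fin (D + 1), ∀ u ∈ U, H.Adj v u → col u ≠ c := by
      intro v hv
      have hlt : ((U.filter fun u => H.Adj v u).image col).card <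
          (Finset.univ : Finset (Fin (D + 1))).card := by
        have := Finset.card_image_le (s := U.filter fun u => H.Adj v u) (f := col)
        have := hlow v hv
        simp only [Finset.card_univ, Fintype.card_fin]
        omega
      obtain ⟨c, -, hc⟩ := Finset.exists_mem_notMem_of_card_lt_card hlt
      exact ⟨c, fun u hu ha h => hc (Finset.mem_image.mpr
        ⟨u, Finset.mem_filter.mpr ⟨hu, ha⟩, h⟩)⟩
    choose c hc using hcol
    refine ⟨fun v => if v ∈ I then S else st v, fun v => if h : v ∈ I then c v h else col v,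
      ?_, ?_, ?_⟩
    · intro v hv
      by_cases hvI : v ∈ I
      · simp [hvI]
      · simp only [hvI, if_false]
        exact (h1 v (Finset.mem_sdiff.mpr ⟨hv, hvI⟩)).trans (Nat.lt_succ_self S)
    · intro u hu v hv ha
      by_cases huI : u ∈ I <;> by_cases hvI : v ∈ I
      · exact absurd ha (hind u huI v hvI)
      · simp only [huI, hvI, if_true, if_false, dif_pos, dif_neg, not_false_eq_true]
        exact ⟨(h1 v (Finset.mem_sdiff.mpr ⟨hv, hvI⟩)).ne', (hc u huI v hv ha).symm⟩
      · simp only [huI, hvI, if_true, if_false, dif_pos, dif_neg, not_false_eq_true]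
        exact ⟨(h1 u (Finset.mem_sdiff.mpr ⟨hu, huI⟩)).ne, hc v hvI u hu ha.symm⟩
      · simp only [huI, hvI, if_false, dif_neg, not_false_eq_true]
        exact h2 u (Finset.mem_sdiff.mpr ⟨hu, huI⟩) v (Finset.mem_sdiff.mpr ⟨hv, hvI⟩) ha
    · intro v hv
      by_cases hvI : v ∈ I
      · refine le_trans (Finset.card_le_card ?_) (hlow v hvI)
        intro u hu
        rw [Finset.mem_filter] at hu ⊢
        exact ⟨hu.1, hu.2.1⟩
      · have hv' : v ∈ U \ I := Finset.mem_sdiff.mpr ⟨hv, hvI⟩
        refine le_trans (Finset.card_le_card ?_) (h3 v hv')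
        intro u hu
        rw [Finset.mem_filter] at hu ⊢
        obtain ⟨hu1, hu2, hu3⟩ := hu
        by_cases huI : u ∈ I
        · simp only [huI, hvI, if_true, if_false] at hu3
          have := h1 v hv'
          omega
        · simp only [huI, hvI, if_false] at hu3
          exact ⟨Finset.mem_sdiff.mpr ⟨hu1, huI⟩, hu2, hu3⟩

theorem layering {W : Type} [Fintype W] [DecidableEq W] (H : SimpleGraph W) [DecidableRel H.Adj]
    (D S : ℕ)
    (hden : ∀ U : Finset W, 2 * ∑ v ∈ U, (U.filter fun u => H.Adj v u).card ≤ D * U.card)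
    (hS : (1 - 1 / (2 * ((D : ℝ) + 1))) ^ S * Fintype.card W < 1) :
    ∃ st : W → ℕ, ∃ col : W → Fin (D + 1), (∀ v, st v < S) ∧
      (∀ u v, H.Adj u v → st u ≠ st v ∧ col u ≠ col v) ∧
      ∀ v, (Finset.univ.filter fun u => H.Adj v u ∧ st u < st v).card ≤ D := by
  obtain ⟨st, col, h1, h2, h3⟩ := layering_aux H D hden S Finset.univ (by simpa using hS)
  exact ⟨st, col, fun v => h1 v (Finset.mem_univ _),
    fun u v => h2 u (Finset.mem_univ _) v (Finset.mem_univ _), fun v => h3 v (Finset.mem_univ _)⟩

end Crest.Agent.R52
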