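import Crest.Agent.R52.Stage

/-! Row 52: one-stage and multi-stage embedding in the random host. -/

set_option autoImplicit false

namespace Crest.Agent.R52

open Finset Crest.Agent.Lib.Sunflower Crest.CombinatoricsR.RandomGraph

lemma m0_pos {ρ : ℝ} (h0 : 0 < ρ) (b : ℕ) : 0 < m0 ρ b := by unfold m0; positivity

lemma exp_neg_le_lin {y : ℝ} (h0 : 0 ≤ y) (h1 : y ≤ 1) : Real.exp (-y) ≤ 1 - 5 / 8 * y := by
  have h := convexOn_exp.2 (Set.mem_univ 0) (Set.mem_univ (-1)) (sub_nonneg.2 h1) h0 (by ring)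
  simp only [smul_eq_mul, mul_zero, zero_add, mul_neg, mul_one, Real.exp_zero] at h
  have h2 : Real.exp (-1) ≤ 3 / 8 := by
    have := Real.exp_neg_one_lt_d9; linarith
  nlinarith

/-- Fractional Hall. -/
lemma hall_of_weights {ι R : Type} [DecidableEq ι] [Fintype R] [DecidableEq R] [Nonempty R]
    (A : Finset ι) (c : ι → R → ℝ) (hc : ∀ v w, 0 ≤ c v w) {t : ℝ} (ht : 0 < t)
    (hcol : ∀ w, ∑ v ∈ A, c v w ≤ t) (hrow : ∀ v ∈ A, t ≤ ∑ w, c v w) :
    ∃ ψ : ι → R, Set.InjOn ψ A ∧ ∀ v ∈ A, c v (ψ v) ≠ 0 := by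
  classical
  obtain ⟨f, hf, hf'⟩ := (all_card_le_biUnion_card_iff_exists_injective
    (fun v : A => univ.filter fun w => c v w ≠ 0)).1 (by
      intro s
      set N := s.biUnion fun v : A => univ.filter fun w => c v w ≠ 0 with hN
      have h1 : (s.card : ℝ) * t ≤ ∑ v ∈ s, ∑ w ∈ N, c v w := by
        rw [← nsmul_eq_mul, ← sum_const]
        refine sum_le_sum fun v hv => (hrow v v.2).trans (le_of_eq ?_)
        refine (sum_subset (subset_univ N) fun w _ hw => ?_).symm
        by_contra h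
        exact hw (mem_biUnion.2 ⟨v, hv, mem_filter.2 ⟨mem_univ _, h⟩⟩)
      have h2 : ∑ v ∈ s, ∑ w ∈ N, c v w ≤ (N.card : ℝ) * t := by
        rw [sum_comm, ← nsmul_eq_mul, ← sum_const]
        refine sum_le_sum fun w _ => le_trans ?_ (hcol w)
        rw [← sum_coe_sort A]
        exact sum_le_sum_of_subset_of_nonneg (subset_univ s) fun v _ _ => hc v w
      exact_mod_cast le_of_mul_le_mul_right (h1.trans h2) ht)
  refine ⟨fun v => if h : v ∈ A then f ⟨v, h⟩ else Classical.arbitrary R, ?_, ?_⟩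
  · intro u hu v hv huv
    simp only [mem_coe.1 hu, mem_coe.1 hv, dif_pos] at huv
    exact congrArg Subtype.val (hf huv)
  · intro v hv
    simp only [hv, dif_pos]
    exact (mem_filter.1 (hf' ⟨v, hv⟩)).2

lemma sum_rows_single {Y R : Type} [Fintype Y] [DecidableEq Y] [Fintype R] [DecidableEq R]
    (p : ℝ) (w : R) (f : Finset Y → ℝ) :
    ∑ ω : R → Finset Y, (∏ w, wt p (ω w)) * f (ω w) = ∑ y : Finset Y, wt p y * f y := by
  have := sum_rows_prod (p := p) (fun w' (y : Finset Y) => if w' = w then f y else 1)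
  simp only [prod_ite_eq', mem_univ, if_true] at this
  rw [this, prod_eq_single w (fun w' _ h => by simp [h, sum_wt]) (by simp)]
  simp

theorem stage_rows {Y ι R : Type} [Fintype Y] [DecidableEq Y] [Fintype ι] [DecidableEq ι]
    [Fintype R] [DecidableEq R] [Nonempty R]
    {ρ : ℝ} (h0 : 0 < ρ) (h1 : ρ ≤ 1 / 2) (A : Finset ι) (S : ι → Finset Y) (b : ℕ)
    (hb : ∀ v ∈ A, (S v).card ≤ b) (hA : 32 * A.card ≤ Fintype.card R)
    (hsp : ∀ T : Finset Y, T.Nonempty →
      ((A.filter fun v => T ⊆ S v).card : ℝ) ≤ Fintype.card R * ρ ^ T.card / 1000) :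
    ∃ M : Fin 2 → ι → Finset Y, (∀ v ∈ A, S v ⊆ M 0 v ∪ M 1 v) ∧ (∀ i v, M i v ⊆ S v) ∧
      ∀ i, prRows ρ (fun ω : R → Finset Y =>
          ¬ ∃ ψ : ι → R, Set.InjOn ψ A ∧ ∀ v ∈ A, M i v ⊆ ω (ψ v)) ≤
        2 * Fintype.card R * Real.exp (-(Fintype.card R * m0 ρ b) / 8) := by
  have hr : (0 : ℝ) < Fintype.card R := by exact_mod_cast Fintype.card_pos
  have hA' : 32 * (A.card : ℝ) ≤ Fintype.card R := by exact_mod_cast hA
  obtain ⟨M, a, m1, m2, m3, m4, m5, m6⟩ := stage_det h0 h1 A S b hb _ hr hA' hsp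
  refine ⟨M, m1, m2, fun i => ?_⟩
  set r : ℝ := (Fintype.card R : ℝ) with hrdef
  set m := m0 ρ b with hm
  have hm0 : 0 < m := m0_pos h0 b
  have hρ1 : ρ ≤ 1 := by linarith
  have key : ∀ ω : R → Finset Y,
      ind (¬ ∃ ψ : ι → R, Set.InjOn ψ A ∧ ∀ v ∈ A, M i v ⊆ ω (ψ v)) ≤
      ∑ w, ind (r * m / 2 < ∑ v ∈ A, a i v (ω w)) +
        ∑ v ∈ A, Real.exp (r * m / 2) * ∏ w, Real.exp (-a i v (ω w)) := by
    intro ω
    have n1 : 0 ≤ ∑ w, ind (r * m / 2 < ∑ v ∈ A, a i v (ω w)) := sum_nonneg fun _ _ => ind_nonneg _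
    have n2 : 0 ≤ ∑ v ∈ A, Real.exp (r * m / 2) * ∏ w, Real.exp (-a i v (ω w)) :=
      sum_nonneg fun _ _ => by positivity
    by_cases hcol : ∃ w, r * m / 2 < ∑ v ∈ A, a i v (ω w)
    · obtain ⟨w, hw⟩ := hcol
      have := single_le_sum (f := fun w => ind (r * m / 2 < ∑ v ∈ A, a i v (ω w)))
        (fun _ _ => ind_nonneg _) (mem_univ w)
      rw [ind_pos hw] at this
      linarith [ind_le_one (¬ ∃ ψ : ι → R, Set.InjOn ψ A ∧ ∀ v ∈ A, M i v ⊆ ω (ψ v))]
    by_cases hrow : ∃ v ∈ A, ∑ w, a i v (ω w) ≤ r * m / 2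
    · obtain ⟨v, hv, hw⟩ := hrow
      have := single_le_sum (f := fun v => Real.exp (r * m / 2) * ∏ w, Real.exp (-a i v (ω w)))
        (fun _ _ => by positivity) hv
      have h2 : 1 ≤ Real.exp (r * m / 2) * ∏ w, Real.exp (-a i v (ω w)) := by
        rw [← Real.exp_sum, ← Real.exp_add, sum_neg_distrib]
        exact Real.one_le_exp (by linarith)
      linarith [ind_le_one (¬ ∃ ψ : ι → R, Set.InjOn ψ A ∧ ∀ v ∈ A, M i v ⊆ ω (ψ v))]
    push Not at hcol hrow
    obtain ⟨ψ, hψ, hψ'⟩ := hall_of_weights A (fun v w => a i v (ω w)) (fun v w => (m3 i v _).1)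
      (t := r * m / 2) (by positivity) hcol fun v hv => (hrow v hv).le
    rw [ind_neg (not_not.2 ⟨ψ, hψ, fun v hv => m4 i v _ (hψ' v hv)⟩)]
    linarith
  have hw0 : ∀ ω : R → Finset Y, 0 ≤ ∏ w, wt ρ (ω w) := fun ω =>
    prod_nonneg fun w _ => wt_nonneg h0.le hρ1 _
  refine (sum_le_sum fun ω _ => mul_le_mul_of_nonneg_left (key ω) (hw0 ω)).trans ?_
  simp only [mul_add, sum_add_distrib, mul_sum]
  rw [sum_comm, sum_comm (t := A)]
  have b1 : ∀ w : R, ∑ ω : R → Finset Y, (∏ w, wt ρ (ω w)) *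
      ind (r * m / 2 < ∑ v ∈ A, a i v (ω w)) ≤ Real.exp (-(r * m) / 8) := by
    intro w
    rw [sum_rows_single ρ w fun y => ind (r * m / 2 < ∑ v ∈ A, a i v y)]
    refine (m6 i).trans (Real.exp_le_exp.2 ?_)
    have : 0 < r * m := by positivity
    linarith
  have b2 : ∀ v ∈ A, ∑ ω : R → Finset Y, (∏ w, wt ρ (ω w)) *
      (Real.exp (r * m / 2) * ∏ w, Real.exp (-a i v (ω w))) ≤ Real.exp (-(r * m) / 8) := by
    intro v hv
    have e : ∀ ω : R → Finset Y, (∏ w, wt ρ (ω w)) *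
        (Real.exp (r * m / 2) * ∏ w, Real.exp (-a i v (ω w))) =
        Real.exp (r * m / 2) * ((∏ w, wt ρ (ω w)) * ∏ w, Real.exp (-a i v (ω w))) :=
      fun ω => by ring
    simp only [e]
    rw [← mul_sum, sum_rows_prod fun _ y => Real.exp (-a i v y), prod_const, card_univ]
    have h2 : ∑ y : Finset Y, wt ρ y * Real.exp (-a i v y) ≤ Real.exp (-(5 / 8 * m)) := by
      calc _ ≤ ∑ y : Finset Y, wt ρ y * (1 - 5 / 8 * a i v y) :=
            sum_le_sum fun y _ => mul_le_mul_of_nonneg_left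
              (exp_neg_le_lin (m3 i v y).1 (m3 i v y).2) (wt_nonneg h0.le hρ1 _)
        _ = ∑ y : Finset Y, wt ρ y - 5 / 8 * ∑ y : Finset Y, wt ρ y * a i v y := by
            rw [mul_sum, ← sum_sub_distrib]; exact sum_congr rfl fun y _ => by ring
        _ = -(5 / 8 * m) + 1 := by rw [sum_wt, m5 i v hv]; ring
        _ ≤ _ := Real.add_one_le_exp _
    have h3 := pow_le_pow_left₀ (sum_nonneg fun y _ => mul_nonneg (wt_nonneg h0.le hρ1 _)
      (Real.exp_pos _).le) h2 (Fintype.card R)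
    refine (mul_le_mul_of_nonneg_left h3 (Real.exp_pos _).le).trans (le_of_eq ?_)
    rw [← Real.exp_nat_mul, ← Real.exp_add]
    congr 1; rw [← hrdef]; ring
  have c1 := sum_le_sum fun w (_ : w ∈ (univ : Finset R)) => b1 w
  have c2 := sum_le_sum b2
  rw [sum_const, nsmul_eq_mul] at c1 c2
  rw [card_univ, ← hrdef] at c1
  have : (A.card : ℝ) * Real.exp (-(r * m) / 8) ≤ r * Real.exp (-(r * m) / 8) :=
    mul_le_mul_of_nonneg_right (by linarith [(Nat.cast_nonneg A.card : (0 : ℝ) ≤ _)])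
      (Real.exp_pos _).le
  linarith

/-- One stage, in terms of the host graph. -/
lemma stage_host (n : ℕ) (W : Type) [Fintype W] [DecidableEq W]
    {ρ : ℝ} (h0 : 0 < ρ) (h1 : ρ ≤ 1 / 2) (V A : Finset W) (pat : W → Finset W) (b r o : ℕ)
    (hr : 0 < r) (ho : o + r ≤ n) (hpat : ∀ v ∈ A, pat v ⊆ V)
    (hb : ∀ v ∈ A, (pat v).card ≤ b) (hA : 32 * A.card ≤ r)
    (hsp : ∀ T : Finset W, T.Nonempty →
      ((A.filter fun v => T ⊆ pat v).card : ℝ) ≤ r * ρ ^ T.card / 1000) :
    ∃ M : Fin 2 → W → Finset W, (∀ v ∈ A, pat v ⊆ M 0 v ∪ M 1 v) ∧ (∀ i v, M i v ⊆ pat v) ∧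
      ∀ i, ∀ φ : W → Fin n, Set.InjOn φ V → (∀ u ∈ V, (φ u : ℕ) < o) →
        pr ρ (fun z : Finset (EdgeSlot n) => ¬ ∃ ψ : W → Fin n, Set.InjOn ψ A ∧
          (∀ v, o ≤ (ψ v : ℕ) ∧ (ψ v : ℕ) < o + r) ∧
          ∀ v ∈ A, ∀ u ∈ M i v, (edgeGraph z).Adj (φ u) (ψ v)) ≤
        2 * r * Real.exp (-(r * m0 ρ b) / 8) := by
  have : Nonempty (Fin r) := ⟨⟨0, hr⟩⟩
  have hρ1 : ρ ≤ 1 := by linarith
  obtain ⟨M, m1, m2, m3⟩ := stage_rows (Y := V) (R := Fin r) h0 h1 A
    (fun v => (pat v).subtype (· ∈ V)) b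
    (fun v hv => by
      rw [card_subtype]; exact (card_filter_le _ _).trans (hb v hv))
    (by simpa using hA)
    (fun T hT => by
      have := hsp (T.map (Function.Embedding.subtype _)) (by simpa using hT)
      rw [card_map] at this
      rw [Fintype.card_fin]
      refine le_trans (Nat.cast_le.2 (card_le_card fun v hv => ?_)) this
      rw [mem_filter] at hv ⊢
      refine ⟨hv.1, fun u hu => ?_⟩
      obtain ⟨u', hu', rfl⟩ := mem_map.1 hu
      exact mem_subtype.1 (hv.2 hu'))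
  refine ⟨fun i v => (M i v).map (Function.Embedding.subtype _), fun v hv u hu => ?_,
    fun i v u hu => ?_, fun i φ hφ hφo => ?_⟩
  · have := m1 v hv (mem_subtype.2 hu : (⟨u, hpat v hv hu⟩ : V) ∈ _)
    rw [mem_union] at this ⊢
    exact this.imp (fun h => mem_map.2 ⟨_, h, rfl⟩) fun h => mem_map.2 ⟨_, h, rfl⟩
  · obtain ⟨u', hu', rfl⟩ := mem_map.1 hu
    exact mem_subtype.1 (m2 i v hu')
  · let e : Fin r → Fin n := fun w => ⟨o + w, by omega⟩
    have hne : ∀ (w : Fin r) (u : V), φ u ≠ e w := by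
      intro w u h
      have := hφo u u.2
      rw [h] at this
      simp [e] at this
    let j : Fin r → V → EdgeSlot n := fun w u => ⟨s(φ u, e w), by simpa using hne w u⟩
    have hj : Function.Injective fun a : Fin r × V => j a.1 a.2 := by
      rintro ⟨w, u⟩ ⟨w', u'⟩ h
      have h' : s(φ u, e w) = s(φ u', e w') := congrArg Subtype.val h
      rcases Sym2.eq_iff.1 h' with ⟨h2, h3⟩ | ⟨h2, -⟩
      · have h4 : w = w' := by
          have := congrArg Fin.val h3
          simp only [e] at this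
          exact Fin.ext (by omega)
        rw [h4, Subtype.ext (hφ u.2 u'.2 h2)]
      · exact absurd h2 (hne _ _)
    have h2 := m3 i
    rw [← pr_rows j hj, Fintype.card_fin] at h2
    refine le_trans (pr_mono h0.le hρ1 fun z hz => ?_) h2
    rintro ⟨ψ, hψ, hψ'⟩
    refine hz ⟨fun v => e (ψ v), fun a ha c hc hac => hψ ha hc ?_, fun v => ?_, fun v hv u hu => ?_⟩
    · have := congrArg Fin.val hac
      simp only [e] at this
      exact Fin.ext (by omega)
    · have := (ψ v).2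
      simp only [e]; omega
    · obtain ⟨u', hu', rfl⟩ := mem_map.1 hu
      exact (edgeGraph_adj z (hne _ u')).2 (mem_filter.1 (hψ' v hv hu')).2

theorem multi_stage (n : ℕ) (W : Type) [Fintype W] [DecidableEq W] (hW : Fintype.card W ≤ n)
    {ρ : ℝ} (h0 : 0 < ρ) (h1 : ρ ≤ 1 / 2) (U : Finset W) (σ : W → ℕ) (S : ℕ)
    (pat : W → Finset W) (b : ℕ) (r : ℕ → ℕ) (rmin : ℝ) (hrmin : 0 < rmin)
    (hpat : ∀ v ∈ U, ∀ u ∈ pat v, u ∈ U ∧ σ u < σ v) (hσ : ∀ v ∈ U, σ v < S)
    (hb : ∀ v ∈ U, (pat v).card ≤ b) (hsum : ∑ s ∈ Finset.range S, r s ≤ n)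
    (hA : ∀ s < S, 32 * (U.filter fun v => σ v = s).card ≤ r s)
    (hsp : ∀ s < S, ∀ T : Finset W, T.Nonempty →
      ((U.filter fun v => σ v = s ∧ T ⊆ pat v).card : ℝ) ≤ r s * ρ ^ T.card / 1000)
    (hr : ∀ s < S, rmin ≤ r s)
    (hfail : 2 * n * Real.exp (-(rmin * m0 ρ b) / 8) ≤ 1 / 2) :
    ∃ M : Fin 2 → W → Finset W, (∀ v ∈ U, pat v ⊆ M 0 v ∪ M 1 v) ∧
      ∀ i, Good n ρ (patG U (M i)) := by
  classical
  have hρ1 : ρ ≤ 1 := by linarith
  set off : ℕ → ℕ := fun s => ∑ t ∈ range s, r t with hoff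
  have hoffS : ∀ s < S, off s + r s ≤ n := fun s hs => by
    have : off (s + 1) ≤ off S := sum_le_sum_of_subset (range_subset_range.2 hs)
    simp only [hoff, sum_range_succ] at this ⊢
    omega
  have H : ∀ s : ℕ, ∃ M : Fin 2 → W → Finset W, s < S →
      (∀ v ∈ U.filter fun v => σ v = s, pat v ⊆ M 0 v ∪ M 1 v) ∧ (∀ i v, M i v ⊆ pat v) ∧
      ∀ i, ∀ φ : W → Fin n, Set.InjOn φ (U.filter fun v => σ v < s) →
        (∀ u ∈ U.filter fun v => σ v < s, (φ u : ℕ) < off s) →
        pr ρ (fun z : Finset (EdgeSlot n) => ¬ ∃ ψ : W → Fin n,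
          Set.InjOn ψ (U.filter fun v => σ v = s) ∧
          (∀ v, off s ≤ (ψ v : ℕ) ∧ (ψ v : ℕ) < off s + r s) ∧
          ∀ v ∈ U.filter fun v => σ v = s, ∀ u ∈ M i v, (edgeGraph z).Adj (φ u) (ψ v)) ≤
        2 * r s * Real.exp (-(r s * m0 ρ b) / 8) := by
    intro s
    by_cases hs : s < S
    · have hrs : 0 < r s := by exact_mod_cast hrmin.trans_le (hr s hs)
      obtain ⟨M, hM⟩ := stage_host n W h0 h1 (U.filter fun v => σ v < s)
        (U.filter fun v => σ v = s) pat b (r s) (off s) hrs (hoffS s hs)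
        (fun v hv u hu => by
          rw [mem_filter] at hv ⊢
          exact ⟨(hpat v hv.1 u hu).1, hv.2 ▸ (hpat v hv.1 u hu).2⟩)
        (fun v hv => hb v (mem_filter.1 hv).1) (hA s hs)
        (fun T hT => by rw [filter_filter]; exact hsp s hs T hT)
      exact ⟨M, fun _ => hM⟩
    · exact ⟨fun _ _ => ∅, fun h => absurd h hs⟩
  choose Ms hMs using H
  refine ⟨fun i v => Ms (σ v) i v, fun v hv =>
    (hMs _ (hσ v hv)).1 v (mem_filter.2 ⟨hv, rfl⟩), fun i => ?_⟩
  have hMp : ∀ v ∈ U, Ms (σ v) i v ⊆ pat v := fun v hv => (hMs _ (hσ v hv)).2.1 i v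
  set E : ℕ → Finset (EdgeSlot n) → Prop := fun s z => ∃ φ : W → Fin n,
    Set.InjOn φ (U.filter fun v => σ v < s) ∧
    (∀ u ∈ U.filter fun v => σ v < s, (φ u : ℕ) < off s) ∧
    ∀ v ∈ U.filter fun v => σ v < s, ∀ u ∈ Ms (σ v) i v, (edgeGraph z).Adj (φ u) (φ v) with hE
  set ε := Real.exp (-(rmin * m0 ρ b) / 8) with hε
  have main : ∀ s ≤ S, 1 - 2 * off s * ε ≤ pr ρ (E s) := by
    intro s
    induction s with
    | zero =>
      intro _
      obtain ⟨g⟩ := Function.Embedding.nonempty_of_card_le (α := W) (β := Fin n) (by simpa using hW)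
      rw [pr_of_forall (E := E 0) fun z => ⟨g, g.injective.injOn, by simp, by simp⟩]
      simp [hoff]
    | succ s ih =>
      intro hs
      have hs' : s < S := hs
      have ih := ih hs'.le
      set C : Finset (EdgeSlot n) := univ.filter fun e => ∀ y ∈ e.1, (y : ℕ) < off s with hC
      have hfs : 2 * r s * Real.exp (-(r s * m0 ρ b) / 8) ≤ 2 * r s * ε := by
        refine mul_le_mul_of_nonneg_left (Real.exp_le_exp.2 ?_) (by positivity)
        have := mul_le_mul_of_nonneg_right (hr s hs') (m0_pos h0 b).le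
        linarith
      have hε0 : 0 ≤ 2 * r s * ε := by positivity
      have step : ∀ x : Finset (EdgeSlot n), ind (E s x) - 2 * r s * ε ≤
          ∑ z : Finset (EdgeSlot n), wt ρ z * ind (E (s + 1) ((x ∩ C) ∪ (z \ C))) := by
        intro x
        by_cases hx : E s x
        swap
        · rw [ind_neg hx]
          have := pr_nonneg h0.le hρ1 fun z : Finset (EdgeSlot n) => E (s + 1) ((x ∩ C) ∪ (z \ C))
          unfold pr at this
          linarith
        rw [ind_pos hx]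
        obtain ⟨φ, p1, p2, p3⟩ := hx
        have h2 := (hMs s hs').2.2 i φ p1 p2
        rw [pr_not] at h2
        refine le_trans (by linarith) (pr_mono h0.le hρ1 (F := fun z =>
          E (s + 1) ((x ∩ C) ∪ (z \ C))) (E := fun z => ∃ ψ : W → Fin n,
          Set.InjOn ψ (U.filter fun v => σ v = s) ∧
          (∀ v, off s ≤ (ψ v : ℕ) ∧ (ψ v : ℕ) < off s + r s) ∧
          ∀ v ∈ U.filter fun v => σ v = s, ∀ u ∈ Ms s i v, (edgeGraph z).Adj (φ u) (ψ v)) ?_)
        rintro z ⟨ψ, q1, q2, q3⟩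
        have hlt : ∀ {v}, v ∈ U → σ v < s → v ∈ U.filter fun v => σ v < s := fun h h' =>
          mem_filter.2 ⟨h, h'⟩
        have heq : ∀ {v}, v ∈ U.filter (fun v => σ v < s + 1) → ¬ σ v < s →
            v ∈ U.filter fun v => σ v = s := fun h h' =>
          mem_filter.2 ⟨(mem_filter.1 h).1, by have := (mem_filter.1 h).2; omega⟩
        refine ⟨fun v => if σ v < s then φ v else ψ v, fun u hu v hv huv => ?_, fun u hu => ?_,
          fun v hv u hu => ?_⟩
        · have hu' := mem_coe.1 hu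
          have hv' := mem_coe.1 hv
          by_cases h3 : σ u < s <;> by_cases h4 : σ v < s <;>
            simp only [h3, h4, if_true, if_false] at huv
          · exact p1 (hlt (mem_filter.1 hu').1 h3) (hlt (mem_filter.1 hv').1 h4) huv
          · have := p2 u (hlt (mem_filter.1 hu').1 h3)
            have := (q2 v).1
            rw [huv] at *; omega
          · have := p2 v (hlt (mem_filter.1 hv').1 h4)
            have := (q2 u).1
            rw [huv] at *; omega
          · exact q1 (heq hu' h3) (heq hv' h4) huv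
        · have e : off (s + 1) = off s + r s := sum_range_succ _ _
          by_cases h3 : σ u < s <;> simp only [h3, if_true, if_false]
          · have := p2 u (hlt (mem_filter.1 hu).1 h3); omega
          · have := (q2 u).2; omega
        · have hvU := (mem_filter.1 hv).1
          obtain ⟨huU, hσu⟩ := hpat v hvU u (hMp v hvU hu)
          have hus : σ u < s := by have := (mem_filter.1 hv).2; omega
          by_cases h3 : σ v < s <;> simp only [h3, hus, if_true, if_false]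
          · have h4 := p3 v (hlt hvU h3) u hu
            have hne := h4.ne
            rw [edgeGraph_adj _ hne] at h4 ⊢
            refine mem_union_left _ (mem_inter.2 ⟨h4, mem_filter.2 ⟨mem_univ _, ?_⟩⟩)
            intro y hy
            rcases Sym2.mem_iff.1 hy with rfl | rfl
            · exact p2 u (hlt huU hus)
            · exact p2 v (hlt hvU h3)
          · have h5 := heq hv h3
            have h4 := q3 v h5 u ((mem_filter.1 h5).2 ▸ hu)
            have hne := h4.ne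
            rw [edgeGraph_adj _ hne] at h4 ⊢
            refine mem_union_right _ (mem_sdiff.2 ⟨h4, fun h => ?_⟩)
            have := (mem_filter.1 h).2 (ψ v) (Sym2.mem_mk_right _ _)
            have := (q2 v).1
            omega
      have h3 := sum_le_sum fun x (_ : x ∈ (univ : Finset (Finset (EdgeSlot n)))) =>
        mul_le_mul_of_nonneg_left (step x) (wt_nonneg h0.le hρ1 x)
      rw [sum_wt_splice C fun y => ind (E (s + 1) y)] at h3
      simp only [mul_sub, sum_sub_distrib, ← sum_mul, sum_wt, one_mul] at h3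
      have e : (off (s + 1) : ℝ) = off s + r s := by
        rw [← Nat.cast_add]; exact congrArg _ (sum_range_succ _ _)
      unfold pr at ih ⊢
      rw [e]
      linarith
  have h2 := main S le_rfl
  have h3 : (off S : ℝ) ≤ n := by exact_mod_cast hsum
  have h4 : 2 * off S * ε ≤ 2 * n * ε :=
    mul_le_mul_of_nonneg_right (by linarith) (Real.exp_pos _).le
  refine le_trans (by linarith) (pr_mono h0.le hρ1 (E := E S) ?_)
  rintro z ⟨φ, p1, -, p3⟩
  have hU : U.filter (fun v => σ v < S) = U := filter_true_of_mem hσ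
  rw [hU] at p1 p3
  exact patG_isContained hW U _ _ U Subset.rfl
    (fun v hv u hu => (hpat v hv u (hMp v hv hu)).1) φ p1 p3

end Crest.Agent.R52
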