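import Crest.Agent.R52.Count
import Crest.Agent.R52.Layer
import Crest.Agent.R52.Multi

/-! Row 52: covering the edges of `H` by boundedly many likely graphs (sparse case). -/

set_option autoImplicit false
set_option linter.unusedSectionVars false

namespace Crest.Agent.R52

open Finset Crest.CombinatoricsR.RandomGraph

variable {n : ℕ} {W : Type} [Fintype W] [DecidableEq W] {H : SimpleGraph W} [DecidableRel H.Adj]
  {p : ℝ}

/-- The edges of `H` are covered by `k` graphs each appearing with probability at least `1/2`. -/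
def CovBy (n : ℕ) (ρ : ℝ) (k : ℕ) {W : Type} (H : SimpleGraph W) : Prop :=
  ∃ G : Fin k → SimpleGraph W, (∀ i, Good n ρ (G i)) ∧ ∀ u v, H.Adj u v → ∃ i, (G i).Adj u v

lemma covBy_of_fintype {ρ : ℝ} {k : ℕ} (κ : Type) [Fintype κ] [Nonempty κ]
    (hk : Fintype.card κ ≤ k) (G : κ → SimpleGraph W) (h1 : ∀ i, Good n ρ (G i)) (st : W → ℕ)
    (hst : ∀ u v, H.Adj u v → st u ≠ st v)
    (h2 : ∀ u v, H.Adj v u → st u < st v → ∃ i, (G i).Adj v u) : CovBy n ρ k H := by
  classical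
  obtain ⟨e⟩ := Function.Embedding.nonempty_of_card_le (α := κ) (β := Fin k) (by simpa using hk)
  have hs : Function.Surjective (Function.invFun e) := Function.invFun_surjective e.injective
  refine ⟨fun i => G (Function.invFun e i), fun i => h1 _, fun u v huv => ?_⟩
  have : ∃ i, (G i).Adj u v := by
    rcases lt_or_gt_of_ne (hst u v huv) with h | h
    · obtain ⟨i, hi⟩ := h2 u v huv.symm h
      exact ⟨i, hi.symm⟩
    · exact h2 v u huv h
  obtain ⟨i, hi⟩ := this
  obtain ⟨j, rfl⟩ := hs i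
  exact ⟨j, hi⟩

lemma patG_adj {U : Finset W} {M : W → Finset W} {u v : W} (hne : v ≠ u) (hv : v ∈ U)
    (hu : u ∈ M v) : (patG U M).Adj v u := by
  rw [patG, SimpleGraph.fromRel_adj]
  exact ⟨hne, Or.inl ⟨hv, hu⟩⟩

lemma hden_of (hn : 1 ≤ n) (hp0 : 0 < p) (hp1 : p < 1) (h : NotSmall n H p) {D : ℕ}
    (hD : 4 * (Real.log n + 1) ≤ D * Real.log (1 / p)) (U : Finset W) :
    2 * ∑ v ∈ U, (U.filter fun u => H.Adj v u).card ≤ D * U.card := by
  have h1 := density_le hn hp0 hp1.le h U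
  have hl : 0 < Real.log (1 / p) := Real.log_pos (by rw [lt_div_iff₀ hp0]; linarith)
  have h2 : (2 * ∑ v ∈ U, ((U.filter fun u => H.Adj v u).card : ℝ)) * Real.log (1 / p) ≤
      (D * U.card) * Real.log (1 / p) := by
    have := mul_le_mul_of_nonneg_left hD (Nat.cast_nonneg (α := ℝ) U.card)
    linarith
  exact_mod_cast le_of_mul_le_mul_right h2 hl

lemma layering' (hn : 1 ≤ n) (hW : Fintype.card W ≤ n) (D : ℕ)
    (hden : ∀ U : Finset W, 2 * ∑ v ∈ U, (U.filter fun u => H.Adj v u).card ≤ D * U.card) :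
    ∃ st : W → ℕ, ∃ col : W → Fin (D + 1),
      (∀ v, st v < ⌈2 * ((D : ℝ) + 1) * (Real.log n + 1)⌉₊) ∧
      (∀ u v, H.Adj u v → st u ≠ st v ∧ col u ≠ col v) ∧
      ∀ v, (Finset.univ.filter fun u => H.Adj v u ∧ st u < st v).card ≤ D := by
  refine layering H D _ hden ?_
  set S := ⌈2 * ((D : ℝ) + 1) * (Real.log n + 1)⌉₊ with hS
  have hD : (0 : ℝ) < 2 * ((D : ℝ) + 1) := by positivity
  have hn' : (0 : ℝ) < n := by exact_mod_cast hn
  have h1 : 1 - 1 / (2 * ((D : ℝ) + 1)) ≤ Real.exp (-(1 / (2 * ((D : ℝ) + 1)))) := by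
    linarith [Real.add_one_le_exp (-(1 / (2 * ((D : ℝ) + 1))))]
  have h0 : 0 ≤ 1 - 1 / (2 * ((D : ℝ) + 1)) := by
    rw [sub_nonneg, div_le_one hD]; linarith [Nat.cast_nonneg (α := ℝ) D]
  have h2 := pow_le_pow_left₀ h0 h1 S
  rw [← Real.exp_nat_mul] at h2
  have h3 : (S : ℝ) * -(1 / (2 * ((D : ℝ) + 1))) ≤ -(Real.log n + 1) := by
    have := Nat.le_ceil (2 * ((D : ℝ) + 1) * (Real.log n + 1))
    rw [mul_neg, neg_le_neg_iff, mul_one_div, le_div_iff₀ hD]
    linarith
  have h4 : Real.exp (-(Real.log n + 1)) * n < 1 := by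
    rw [neg_add, Real.exp_add, Real.exp_neg, Real.exp_log hn']
    have : Real.exp (-1) < 1 := by linarith [Real.exp_neg_one_lt_d9]
    field_simp
    exact this
  have h5 : (Fintype.card W : ℝ) ≤ n := by exact_mod_cast hW
  calc _ ≤ Real.exp (-(Real.log n + 1)) * n :=
        mul_le_mul (h2.trans (Real.exp_le_exp.mpr h3)) h5 (Nat.cast_nonneg _) (Real.exp_pos _).le
    _ < 1 := h4

lemma exists_blocks (hW : Fintype.card W ≤ n) :
    ∃ blk : W → Fin 200, ∀ g, (Finset.univ.filter fun v => blk v = g).card ≤ n / 200 + 1 :=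
  exists_parts Finset.univ 200 (n / 200 + 1) (by norm_num) (by rw [Finset.card_univ]; omega)

lemma two_le_log (hp0 : 0 < p) (hρ : 10 ^ 8 * p ≤ 1 / 2) : 2 ≤ Real.log (1 / p) := by
  rw [Real.le_log_iff_exp_le (by positivity), le_div_iff₀ hp0]
  have h2 : Real.exp 2 = Real.exp 1 * Real.exp 1 := by rw [← Real.exp_add]; norm_num
  have h3 : Real.exp 2 ≤ 9 := by nlinarith [Real.exp_pos 1, Real.exp_one_lt_d9]
  nlinarith

theorem sparse_case (hn : 200 ≤ n) (hW : Fintype.card W ≤ n) (hp0 : 0 < p)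
    (hρ : 10 ^ 8 * p ≤ 1 / 2) (h : NotSmall n H p)
    (hs : Real.log n < 300 * Real.log (1 / p)) : CovBy n (10 ^ 8 * p) (10 ^ 9) H := by
  classical
  have hl := two_le_log hp0 hρ
  have hn1 : 1 ≤ n := by omega
  obtain ⟨st, col, -, hst, hback⟩ := layering' (H := H) hn1 hW 1204
    (hden_of hn1 hp0 (by linarith) h (by push_cast; linarith))
  obtain ⟨blk, hblk⟩ := exists_blocks hW
  choose part hpart using fun v => exists_parts
    (Finset.univ.filter fun u => H.Adj v u ∧ st u < st v) 1204 1 (by norm_num) (hback v)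
  let par : Fin 1204 → W → W := fun t v =>
    if h : ∃ u, (H.Adj v u ∧ st u < st v) ∧ part v u = t then h.choose else v
  let Lf : Fin 1204 × Fin 200 × Fin 1205 → Finset W := fun κ => Finset.univ.filter fun v =>
    blk v = κ.2.1 ∧ col v = κ.2.2 ∧ ∃ u, (H.Adj v u ∧ st u < st v) ∧ part v u = κ.1
  have hadj : ∀ κ, ∀ v ∈ Lf κ, H.Adj v (par κ.1 v) := by
    intro κ v hv
    have h1 := (Finset.mem_filter.mp hv).2.2.2
    simp only [par, dif_pos h1]
    exact h1.choose_spec.1.1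
  have hpar : ∀ κ, ∀ v ∈ Lf κ, par κ.1 v ∉ Lf κ := by
    intro κ v hv hv'
    exact (hst _ _ (hadj κ v hv)).2
      ((Finset.mem_filter.mp hv).2.2.1.trans (Finset.mem_filter.mp hv').2.2.1.symm)
  refine covBy_of_fintype (Fin 1204 × Fin 200 × Fin 1205) (by simp)
    (fun κ => patG (Lf κ) fun v => {par κ.1 v}) (fun κ => ?_) st (fun u v huv => (hst u v huv).1) ?_
  · refine star_good n W hW (Lf κ) (par κ.1) (hpar κ) ?_ p hp0 hρ
      (starCount_le hn1 hp0 (by linarith) h (Lf κ) (par κ.1) (hpar κ) (hadj κ))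
    have : (Lf κ).card ≤ n / 200 + 1 := by
      refine le_trans (Finset.card_le_card fun v hv => ?_) (hblk κ.2.1)
      exact Finset.mem_filter.mpr ⟨Finset.mem_univ _, (Finset.mem_filter.mp hv).2.1⟩
    omega
  · intro u v huv hlt
    have h1 : ∃ u', (H.Adj v u' ∧ st u' < st v) ∧ part v u' = part v u := ⟨u, ⟨huv, hlt⟩, rfl⟩
    refine ⟨(part v u, blk v, col v), patG_adj huv.ne
      (Finset.mem_filter.mpr ⟨Finset.mem_univ _, rfl, rfl, h1⟩) ?_⟩
    simp only [par, dif_pos h1, Finset.mem_singleton]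
    refine Finset.card_le_one.mp (hpart v (part v u)) _ ?_ _ ?_
    · simp [huv, hlt]
    · simpa using h1.choose_spec

end Crest.Agent.R52
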