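import Crest.Agent.R52.Main1

/-! Row 52: the dense case. -/

set_option autoImplicit false
set_option linter.unusedSectionVars false

namespace Crest.Agent.R52

open Finset Crest.CombinatoricsR.RandomGraph

variable {n : ℕ} {W : Type} [Fintype W] [DecidableEq W] {H : SimpleGraph W} [DecidableRel H.Adj]
  {p : ℝ}

lemma fail_le {y : ℝ} (hy : 100 ≤ y) (hn : (n : ℝ) = y ^ 30) (hx : Real.log n ≤ 30 * y)
    {m : ℝ} (hm : 1 / (2 * y) ≤ m) :
    2 * n * Real.exp (-(y ^ 28 / 75600 * m) / 8) ≤ 1 / 2 := by
  have hy0 : 0 < y := by linarith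
  have hn0 : (0 : ℝ) < n := by rw [hn]; positivity
  have h1 : y ^ 27 / 151200 ≤ y ^ 28 / 75600 * m := by
    refine le_trans (le_of_eq ?_) (mul_le_mul_of_nonneg_left hm (by positivity))
    field_simp; ring
  have h2 : (100 : ℝ) ^ 26 ≤ y ^ 26 := pow_le_pow_left₀ (by norm_num) hy _
  have h3 : 2 + 30 * y ≤ y ^ 27 / 151200 / 8 := by
    have : y ^ 27 = y ^ 26 * y := by ring
    rw [this]; nlinarith
  have h4 : Real.exp (-(y ^ 28 / 75600 * m) / 8) ≤ Real.exp (-2 + -Real.log n) :=
    Real.exp_le_exp.mpr (by linarith)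
  rw [Real.exp_add, Real.exp_neg (Real.log n), Real.exp_log hn0] at h4
  have h5 : Real.exp (-2) ≤ 1 / 4 := by
    have : Real.exp (-2) = Real.exp (-1) * Real.exp (-1) := by rw [← Real.exp_add]; norm_num
    nlinarith [Real.exp_neg_one_lt_d9, Real.exp_pos (-1)]
  calc _ ≤ 2 * n * (Real.exp (-2) * (n : ℝ)⁻¹) := mul_le_mul_of_nonneg_left h4 (by positivity)
    _ = 2 * Real.exp (-2) := by field_simp
    _ ≤ 1 / 2 := by linarith

theorem dense_case (hn : 10 ^ 60 ≤ n) (hW : Fintype.card W ≤ n) (hp0 : 0 < p)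
    (hρ : 10 ^ 8 * p ≤ 1 / 2) (h : NotSmall n H p)
    (hs : 300 * Real.log (1 / p) ≤ Real.log n) : CovBy n (10 ^ 8 * p) (10 ^ 9) H := by
  classical
  have hl := two_le_log hp0 hρ
  have hn1 : 1 ≤ n := le_trans (by norm_num) hn
  have hn1000 : 1000 ≤ n := le_trans (by norm_num) hn
  have hn0 : (0 : ℝ) < n := by exact_mod_cast hn1
  have hp1 : p < 1 := by linarith
  set x := Real.log n with hx
  set l := Real.log (1 / p) with hldef
  have hl0 : 0 < l := by linarith
  have hx1 : 600 ≤ x := by linarith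
  set y := Real.exp (x / 30) with hy
  have hy0 : 0 < y := Real.exp_pos _
  have hny : (n : ℝ) = y ^ 30 := by
    rw [hy, ← Real.exp_nat_mul, ← Real.exp_log hn0]; congr 1; push_cast; ring
  have hy100 : 100 ≤ y := by
    refine le_of_pow_le_pow_left₀ (n := 30) (by norm_num) hy0.le ?_
    rw [← hny]
    have : ((10 ^ 60 : ℕ) : ℝ) ≤ n := by exact_mod_cast hn
    norm_num at this ⊢
    exact this
  have hxy : x ≤ 30 * y := by linarith [Real.add_one_le_exp (x / 30)]
  set z := x / l with hz
  have hz1 : 300 ≤ z := by rw [hz, le_div_iff₀ hl0]; exact hs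
  have hzl : z * l = x := by rw [hz]; field_simp
  have hzx : 2 * z ≤ x := by nlinarith
  set D := ⌈4 * (x + 1) / l⌉₊ with hD
  have hD1 : 4 * (x + 1) ≤ D * l := by
    rw [← div_le_iff₀ hl0]; exact Nat.le_ceil _
  have hD2 : (D : ℝ) + 1 ≤ 9 * z := by
    have h1 : (D : ℝ) < 4 * (x + 1) / l + 1 := Nat.ceil_lt_add_one (by positivity)
    have h2 : 4 * (x + 1) / l ≤ 8 * z := by rw [div_le_iff₀ hl0]; nlinarith
    linarith
  have hden := hden_of hn1 hp0 hp1 h hD1
  obtain ⟨st, col, hstS, hst, hback⟩ := layering' (H := H) hn1 hW D hden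
  set S := ⌈2 * ((D : ℝ) + 1) * (x + 1)⌉₊ with hS
  have hS1 : (S : ℝ) ≤ 18900 * y ^ 2 := by
    have h1 : (S : ℝ) < 2 * ((D : ℝ) + 1) * (x + 1) + 1 := Nat.ceil_lt_add_one (by positivity)
    have h2 : 2 * ((D : ℝ) + 1) * (x + 1) ≤ (9 * x) * (2 * x) :=
      mul_le_mul (by linarith) (by linarith) (by linarith) (by linarith)
    have h3 : x * x ≤ (30 * y) * (30 * y) := mul_le_mul hxy hxy (by linarith) (by linarith)
    nlinarith
  have hS0 : 0 < S := Nat.ceil_pos.mpr (by positivity)
  set b := D / 300 + 1 with hb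
  have hb1 : (b : ℝ) ≤ z / 30 := by
    have h1 : ((D / 300 : ℕ) : ℝ) ≤ D / 300 := Nat.cast_div_le
    rw [hb]; push_cast; linarith
  have hpj : ∀ j ≤ b, 1 / y ≤ p ^ j := by
    intro j hj
    have h1 : p = Real.exp (-l) := by
      rw [hldef, Real.exp_neg, Real.exp_log (by positivity)]; simp
    have h2 : (j : ℝ) ≤ b := by exact_mod_cast hj
    rw [h1, ← Real.exp_nat_mul, hy, one_div, ← Real.exp_neg]
    refine Real.exp_le_exp.mpr ?_
    nlinarith
  have hρj : ∀ j, p ^ j ≤ (10 ^ 8 * p) ^ j := fun j => pow_le_pow_left₀ hp0.le (by linarith) _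
  have hm : 1 / (2 * y) ≤ m0 (10 ^ 8 * p) b := by
    have h1 : p ^ b ≤ (10 ^ 8 * p / 4) ^ b := pow_le_pow_left₀ hp0.le (by linarith) _
    have h2 := hpj b le_rfl
    unfold m0
    have : 1 / (2 * y) = 1 / y / 2 := by field_simp
    linarith
  have hfail := fail_le hy100 hny hxy hm
  have hρ0 : 0 < 10 ^ 8 * p := by positivity
  have hpow : ∀ i j : ℕ, (100 : ℝ) ^ i * y ^ j ≤ y ^ (i + j) := fun i j => by
    rw [pow_add]
    exact mul_le_mul_of_nonneg_right (pow_le_pow_left₀ (by norm_num) hy100 _) (by positivity)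
  obtain ⟨blk, hblk⟩ := exists_blocks hW
  choose part hpart using fun v => exists_parts
    (Finset.univ.filter fun u => H.Adj v u ∧ st u < st v) 300 b (by norm_num)
    ((hback v).trans (by omega))
  set B : Finset W := Finset.univ.filter fun v =>
    y ^ 15 ≤ ((Finset.univ.filter fun u => H.Adj v u).card : ℝ) with hB
  have hBc : (B.card : ℝ) ≤ 75 * y ^ 16 := by
    have h1 : (B.card : ℝ) * y ^ 15 ≤
        ∑ v ∈ Finset.univ, ((Finset.univ.filter fun u => H.Adj v u).card : ℝ) := by
      refine le_trans ?_ (Finset.sum_le_sum_of_subset_of_nonneg (Finset.subset_univ B)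
        fun _ _ _ => Nat.cast_nonneg _)
      rw [← nsmul_eq_mul]
      exact Finset.card_nsmul_le_sum _ _ _ fun v hv => (Finset.mem_filter.mp hv).2
    have h2 : 2 * ∑ v ∈ Finset.univ, ((Finset.univ.filter fun u => H.Adj v u).card : ℝ) ≤
        D * (Fintype.card W : ℝ) := by exact_mod_cast hden Finset.univ
    have h3 : (Fintype.card W : ℝ) ≤ y ^ 30 := by rw [← hny]; exact_mod_cast hW
    have h4 : (D : ℝ) * (Fintype.card W : ℝ) ≤ (150 * y) * y ^ 30 :=
      mul_le_mul (by linarith) h3 (Nat.cast_nonneg _) (by positivity)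
    refine le_of_mul_le_mul_right ?_ (show 0 < y ^ 15 by positivity)
    have : 75 * y ^ 16 * y ^ 15 = (150 * y) * y ^ 30 / 2 := by ring
    linarith
  have hhalf : (n : ℝ) / 3 ≤ ((n / 2 : ℕ) : ℝ) := by
    have : n ≤ 3 * (n / 2) := by omega
    have : (n : ℝ) ≤ 3 * ((n / 2 : ℕ) : ℝ) := by exact_mod_cast this
    linarith
  -- type I pieces
  have hI : ∀ κ : Fin 300 × Fin 200, ∃ M : Fin 2 → W → Finset W,
      (∀ v ∈ B ∪ Finset.univ.filter (fun v => blk v = κ.2), (if v ∈ B then ∅ else
        ((Finset.univ.filter fun u => H.Adj v u ∧ st u < st v).filter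
          fun u => part v u = κ.1).filter fun u => u ∈ B) ⊆ M 0 v ∪ M 1 v) ∧
      ∀ i, Good n (10 ^ 8 * p) (patG (B ∪ Finset.univ.filter (fun v => blk v = κ.2)) (M i)) := by
    intro κ
    refine multi_stage n W hW hρ0 hρ _ (fun v => if v ∈ B then 0 else 1) 2 _ b (fun _ => n / 2)
      (y ^ 28 / 75600) (by positivity) ?_ ?_ ?_ ?_ ?_ ?_ ?_ hfail
    · intro v _ u hu
      by_cases hv : v ∈ B
      · simp [hv] at hu
      · simp only [hv, if_false] at hu ⊢
        have := (Finset.mem_filter.mp hu).2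
        simp [this]
    · intro v _; split_ifs <;> norm_num
    · intro v _
      split_ifs
      · simp
      · exact (Finset.card_filter_le _ _).trans (hpart v κ.1)
    · simp only [Finset.sum_const, Finset.card_range, smul_eq_mul]; omega
    · intro s hs
      interval_cases s
      · have h1 : ((B ∪ Finset.univ.filter (fun v => blk v = κ.2)).filter
            fun v => (if v ∈ B then 0 else 1) = 0) ⊆ B := by
          intro v hv
          by_contra hvB
          simpa [hvB] using (Finset.mem_filter.mp hv).2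
        have h2 : (32 * B.card : ℝ) ≤ ((n / 2 : ℕ) : ℝ) := by
          have := hpow 14 16
          norm_num at this
          nlinarith [show 0 < y ^ 16 by positivity]
        have h3 : 32 * B.card ≤ n / 2 := by exact_mod_cast h2
        exact le_trans (Nat.mul_le_mul_left _ (Finset.card_le_card h1)) h3
      · have h1 : ((B ∪ Finset.univ.filter (fun v => blk v = κ.2)).filter
            fun v => (if v ∈ B then 0 else 1) = 1) ⊆ Finset.univ.filter (fun v => blk v = κ.2) := by
          intro v hv
          obtain ⟨h1, h2⟩ := Finset.mem_filter.mp hv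
          rcases Finset.mem_union.mp h1 with h | h
          · simp [h] at h2
          · exact h
        have h2 := (Finset.card_le_card h1).trans (hblk κ.2)
        omega
    · intro s _ T hT
      set X := (B ∪ Finset.univ.filter (fun v => blk v = κ.2)).filter fun v =>
        (if v ∈ B then 0 else 1) = s ∧ T ⊆ (if v ∈ B then ∅ else
        ((Finset.univ.filter fun u => H.Adj v u ∧ st u < st v).filter
          fun u => part v u = κ.1).filter fun u => u ∈ B) with hX
      rcases X.eq_empty_or_nonempty with h0 | ⟨v0, hv0⟩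
      · rw [h0]; simp only [Finset.card_empty, Nat.cast_zero]; positivity
      have hXv : ∀ v ∈ X, v ∉ B ∧ T ⊆ ((Finset.univ.filter fun u => H.Adj v u ∧ st u < st v).filter
          fun u => part v u = κ.1).filter fun u => u ∈ B := by
        intro v hv
        have h1 := (Finset.mem_filter.mp hv).2.2
        by_cases hvB : v ∈ B
        · simp only [hvB, if_true, Finset.subset_empty] at h1
          exact absurd h1 hT.ne_empty
        · simp only [hvB, if_false] at h1
          exact ⟨hvB, h1⟩
      have hj : T.card ≤ b := (Finset.card_le_card (hXv v0 hv0).2).trans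
        ((Finset.card_filter_le _ _).trans (hpart v0 κ.1))
      have h1 := common_le hn1 hp0 hp1.le h T X
        (Finset.disjoint_left.mpr fun u hu huX =>
          (hXv u huX).1 (Finset.mem_filter.mp ((hXv v0 hv0).2 hu)).2)
        (fun v hv u hu => by
          have := (hXv v hv).2 hu
          simp only [Finset.mem_filter, Finset.mem_univ, true_and] at this
          exact this.1.1.1)
      have h2 := hpj _ hj
      have h3 : (T.card : ℝ) ≤ b := by exact_mod_cast hj
      have h4 : (T.card : ℝ) * x ≤ (30 * y) * (30 * y) :=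
        mul_le_mul (by linarith) hxy (by linarith) (by linarith)
      have h5 : y ^ 29 ≤ n * p ^ T.card := by
        refine le_trans (le_of_eq ?_) (mul_le_mul_of_nonneg_left h2 hn0.le)
        rw [hny]; field_simp
      have h6 := hpow 27 2
      have h7 : 10 ^ 8 * p ^ T.card ≤ (10 ^ 8 * p) ^ T.card := by
        rw [mul_pow]
        exact mul_le_mul_of_nonneg_right (le_self_pow₀ (by norm_num) hT.card_pos.ne')
          (by positivity)
      have h8 : (n : ℝ) / 3 * (10 ^ 8 * p ^ T.card) ≤
          ((n / 2 : ℕ) : ℝ) * (10 ^ 8 * p) ^ T.card :=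
        mul_le_mul hhalf h7 (by positivity) (Nat.cast_nonneg _)
      have h9 : 1 ≤ y ^ 2 := one_le_pow₀ (by linarith)
      norm_num at h6
      rw [← hx] at h1
      nlinarith
    · intro s _
      have := hpow 2 28
      norm_num at this
      nlinarith [show 0 < y ^ 28 by positivity]
  -- type A pieces
  have hr : y ^ 28 / 75600 ≤ ((n / (2 * S) : ℕ) : ℝ) := by
    have hS' : (0 : ℝ) < S := by exact_mod_cast hS0
    have h1 : n < (n / (2 * S) + 1) * (2 * S) := by
      rw [mul_comm]; exact Nat.lt_mul_div_succ n (by omega)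
    have h2 : (n : ℝ) < (((n / (2 * S) : ℕ) : ℝ) + 1) * (2 * S) := by exact_mod_cast h1
    have h3 : (((n / (2 * S) : ℕ) : ℝ) + 1) * (2 * S) ≤
        (((n / (2 * S) : ℕ) : ℝ) + 1) * (37800 * y ^ 2) :=
      mul_le_mul_of_nonneg_left (by linarith) (by positivity)
    have h4 : y ^ 28 * (y ^ 2) < ((((n / (2 * S) : ℕ) : ℝ) + 1) * 37800) * y ^ 2 := by
      have : y ^ 28 * (y ^ 2) = n := by rw [hny]; ring
      linarith
    have h5 := lt_of_mul_lt_mul_right h4 (by positivity)
    have h6 := hpow 28 0
    norm_num at h6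
    linarith
  have hA : ∀ κ : Fin 300 × Fin 200 × Fin 200, ∃ M : Fin 2 → W → Finset W,
      (∀ v ∈ Finset.univ.filter (fun v => blk v = κ.2.1 ∨ blk v = κ.2.2),
        ((Finset.univ.filter fun u => H.Adj v u ∧ st u < st v).filter
          fun u => part v u = κ.1).filter (fun u => (blk u = κ.2.1 ∨ blk u = κ.2.2) ∧
            ¬ (u ∈ B ∧ v ∉ B)) ⊆ M 0 v ∪ M 1 v) ∧
      ∀ i, Good n (10 ^ 8 * p)
        (patG (Finset.univ.filter (fun v => blk v = κ.2.1 ∨ blk v = κ.2.2)) (M i)) := by
    intro κ
    set U := Finset.univ.filter (fun v => blk v = κ.2.1 ∨ blk v = κ.2.2) with hU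
    have hr' : ∀ s, y ^ 28 / 75600 ≤
        ((32 * (U.filter fun v => st v = s).card + n / (2 * S) : ℕ) : ℝ) := by
      intro s
      refine hr.trans ?_
      exact_mod_cast Nat.le_add_left _ _
    refine multi_stage n W hW hρ0 hρ U st S _ b
      (fun s => 32 * (U.filter fun v => st v = s).card + n / (2 * S))
      (y ^ 28 / 75600) (by positivity) ?_ (fun v _ => hstS v) ?_ ?_ ?_ ?_ (fun s _ => hr' s) hfail
    · intro v _ u hu
      simp only [hU, Finset.mem_filter, Finset.mem_univ, true_and] at hu ⊢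
      exact ⟨hu.2.1, hu.1.1.2⟩
    · intro v _
      exact (Finset.card_filter_le _ _).trans (hpart v κ.1)
    · rw [Finset.sum_add_distrib, ← Finset.mul_sum,
        ← Finset.card_eq_sum_card_fiberwise (fun v _ => Finset.mem_range.mpr (hstS v))]
      simp only [Finset.sum_const, Finset.card_range, smul_eq_mul]
      have h1 : U.card ≤ (n / 200 + 1) + (n / 200 + 1) := by
        rw [hU, Finset.filter_or]
        exact (Finset.card_union_le _ _).trans (add_le_add (hblk _) (hblk _))
      have h2 : n / (2 * S) * (2 * S) ≤ n := Nat.div_mul_le_self _ _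
      have h3 : 2 * (S * (n / (2 * S))) ≤ n := by linarith
      omega
    · intro s _; exact Nat.le_add_right _ _
    · intro s _ T hT
      obtain ⟨u0, hu0⟩ := hT
      set X := U.filter fun v => st v = s ∧ T ⊆
        ((Finset.univ.filter fun u => H.Adj v u ∧ st u < st v).filter
          fun u => part v u = κ.1).filter (fun u => (blk u = κ.2.1 ∨ blk u = κ.2.2) ∧
            ¬ (u ∈ B ∧ v ∉ B)) with hX
      rcases X.eq_empty_or_nonempty with h0 | ⟨v0, hv0⟩
      · rw [h0, Finset.card_empty, Nat.cast_zero]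
        exact div_nonneg (mul_nonneg (Nat.cast_nonneg _) (pow_nonneg hρ0.le _)) (by norm_num)
      have hj : T.card ≤ b := (Finset.card_le_card (Finset.mem_filter.mp hv0).2.2).trans
        ((Finset.card_filter_le _ _).trans (hpart v0 κ.1))
      have hXv : ∀ v ∈ X, H.Adj v u0 ∧ ¬ (u0 ∈ B ∧ v ∉ B) := by
        intro v hv
        have := (Finset.mem_filter.mp hv).2.2 hu0
        obtain ⟨h1, h2⟩ := Finset.mem_filter.mp this
        exact ⟨(Finset.mem_filter.mp (Finset.mem_filter.mp h1).1).2.1, h2.2⟩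
      have h1 : (X.card : ℝ) ≤ 75 * y ^ 16 := by
        by_cases huB : u0 ∈ B
        · refine le_trans ?_ hBc
          have : X ⊆ B := fun v hv => by
            by_contra hvB
            exact (hXv v hv).2 ⟨huB, hvB⟩
          exact_mod_cast Finset.card_le_card this
        · have h2 : ((Finset.univ.filter fun u => H.Adj u0 u).card : ℝ) < y ^ 15 := by
            by_contra hc
            exact huB (Finset.mem_filter.mpr ⟨Finset.mem_univ _, not_lt.mp hc⟩)
          have h3 : X ⊆ Finset.univ.filter fun u => H.Adj u0 u := fun v hv =>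
            Finset.mem_filter.mpr ⟨Finset.mem_univ _, (hXv v hv).1.symm⟩
          have h4 : (X.card : ℝ) ≤ (Finset.univ.filter fun u => H.Adj u0 u).card := by
            exact_mod_cast Finset.card_le_card h3
          have h5 := hpow 1 15
          norm_num at h5
          nlinarith [show 0 < y ^ 15 by positivity]
      have h2 : y ^ 28 / 75600 * (1 / y) ≤
          ((32 * (U.filter fun v => st v = s).card + n / (2 * S) : ℕ) : ℝ) *
            (10 ^ 8 * p) ^ T.card :=
        mul_le_mul (hr' s) ((hpj _ hj).trans (hρj _)) (by positivity) (Nat.cast_nonneg _)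
      have h3 : y ^ 28 / 75600 * (1 / y) = y ^ 27 / 75600 := by field_simp
      have h4 := hpow 11 16
      norm_num at h4
      nlinarith [show 0 < y ^ 16 by positivity]
  choose MI hMI1 hMI2 using hI
  choose MA hMA1 hMA2 using hA
  refine covBy_of_fintype (((Fin 300 × Fin 200) × Fin 2) ⊕ ((Fin 300 × Fin 200 × Fin 200) × Fin 2))
    (by simp) (Sum.elim
      (fun κ => patG (B ∪ Finset.univ.filter (fun v => blk v = κ.1.2)) (MI κ.1 κ.2))
      (fun κ => patG (Finset.univ.filter (fun v => blk v = κ.1.2.1 ∨ blk v = κ.1.2.2))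
        (MA κ.1 κ.2))) ?_ st (fun u v huv => (hst u v huv).1) ?_
  · rintro (κ | κ)
    · exact hMI2 κ.1 κ.2
    · exact hMA2 κ.1 κ.2
  · intro u v huv hlt
    by_cases hc : u ∈ B ∧ v ∉ B
    · have hv : v ∈ B ∪ Finset.univ.filter (fun w => blk w = blk v) := by simp
      have h1 : u ∈ MI (part v u, blk v) 0 v ∪ MI (part v u, blk v) 1 v :=
        hMI1 (part v u, blk v) v hv (by
        rw [if_neg hc.2]
        exact Finset.mem_filter.mpr ⟨by simp [huv, hlt], hc.1⟩)
      rcases Finset.mem_union.mp h1 with h2 | h2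
      · exact ⟨Sum.inl ((part v u, blk v), 0), patG_adj huv.ne hv h2⟩
      · exact ⟨Sum.inl ((part v u, blk v), 1), patG_adj huv.ne hv h2⟩
    · have hv : v ∈ Finset.univ.filter (fun w => blk w = blk v ∨ blk w = blk u) := by simp
      have h1 : u ∈ MA (part v u, blk v, blk u) 0 v ∪ MA (part v u, blk v, blk u) 1 v :=
        hMA1 (part v u, blk v, blk u) v hv
        (Finset.mem_filter.mpr ⟨by simp [huv, hlt], Or.inr rfl, hc⟩)
      rcases Finset.mem_union.mp h1 with h2 | h2
      · exact ⟨Sum.inr ((part v u, blk v, blk u), 0), patG_adj huv.ne hv h2⟩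
      · exact ⟨Sum.inr ((part v u, blk v, blk u), 1), patG_adj huv.ne hv h2⟩

end Crest.Agent.R52
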