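import Crest.Agent.R52.Main2

/-! Row 52: the graph decomposition theorem. -/

set_option autoImplicit false

namespace Crest.Agent.R52

open Finset Crest.CombinatoricsR.RandomGraph

lemma small_base {n : ℕ} (hn : 2 ≤ n) {W : Type} {H : SimpleGraph W} (hH : H ≠ ⊥) :
    ¬ NotSmall n H (1 / (n : ℝ) ^ 2) := by
  classical
  intro h
  have h1 := h (Finset.univ.image fun z : EdgeSlot n => ({z} : Finset (EdgeSlot n))) (by
    rintro A ⟨φ⟩
    obtain ⟨u, v, huv⟩ : ∃ u v, H.Adj u v := by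
      by_contra hc
      push Not at hc
      exact hH (by ext u v; simpa using hc u v)
    have h2 : (edgeGraph A).Adj (φ u) (φ v) := φ.toHom.map_adj huv
    have h3 := (edgeGraph_adj A h2.ne).mp h2
    exact ⟨_, Finset.mem_image_of_mem _ (Finset.mem_univ _), Finset.singleton_subset_iff.mpr h3⟩)
  rw [Finset.sum_image (fun a _ b _ hab => Finset.singleton_injective hab)] at h1
  simp only [Finset.card_singleton, pow_one, Finset.sum_const, Finset.card_univ, nsmul_eq_mul,
    Sym2.card_subtype_not_diag, Fintype.card_fin] at h1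
  rw [Nat.cast_choose_two] at h1
  have hn0 : (2 : ℝ) ≤ n := by exact_mod_cast hn
  rw [mul_one_div, lt_div_iff₀ (by positivity)] at h1
  nlinarith

lemma good_one {n : ℕ} {W : Type} [Fintype W] (hW : Fintype.card W ≤ n) (G : SimpleGraph W) :
    Good n 1 G := by
  classical
  obtain ⟨e⟩ := Function.Embedding.nonempty_of_card_le (α := W) (β := Fin n) (by simpa using hW)
  have h1 := pr_mono (X := EdgeSlot n) (p := 1) zero_le_one le_rfl
    (E := fun w => Finset.univ ⊆ w) (F := fun z => G.IsContained (edgeGraph z)) (by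
      intro w hw
      refine ⟨⟨⟨e, fun {a b} hab => ?_⟩, e.injective⟩⟩
      exact (edgeGraph_adj w (e.injective.ne hab.ne)).mpr (hw (Finset.mem_univ _)))
  rw [pr_subset, one_pow] at h1
  unfold Good
  linarith

lemma CovBy.mono {n k : ℕ} {ρ ρ' : ℝ} (h0 : 0 ≤ ρ) (h : ρ ≤ ρ') (h1 : ρ' ≤ 1) {W : Type}
    {H : SimpleGraph W} (hc : CovBy n ρ k H) : CovBy n ρ' k H := by
  obtain ⟨G, hG, hcov⟩ := hc
  refine ⟨G, fun i => (hG i).trans (pr_mono_density h0 h h1 fun w v hwv hw => ?_), hcov⟩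
  exact hw.mono_right (edgeGraph_mono hwv)

theorem main :
    ∃ k : ℕ, 2 ≤ k ∧ ∃ L : ℝ, 1 ≤ L ∧ ∀ n : ℕ, 2 ≤ n →
      ∀ (W : Type) [Fintype W] [DecidableEq W] (H : SimpleGraph W),
        Fintype.card W ≤ n → H ≠ ⊥ →
        ∃ c : H.edgeSet → Fin k, ∀ i : Fin k, ∃ p : ℝ, 0 ≤ p ∧ p ≤ 1 ∧
          (∃ C : Finset (Finset (EdgeSlot n)),
            (∀ A : Finset (EdgeSlot n), H.IsContained (edgeGraph A) → ∃ S ∈ C, S ⊆ A) ∧
            ∑ S ∈ C, p ^ S.card ≤ 1 / 2) ∧
          1 / 2 ≤ gnpProb n (min 1 (L * p)) {G | (pieceGraph H c i).IsContained G} := by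
  classical
  refine ⟨10 ^ 9, by norm_num, 10 ^ 120, by norm_num, fun n hn W _ _ H hW hH => ?_⟩
  have hn0 : (2 : ℝ) ≤ n := by exact_mod_cast hn
  set p0 : ℝ := 1 / (n : ℝ) ^ 2 with hp0
  have hp00 : 0 < p0 := by positivity
  have hex : ∃ j : ℕ, ¬ (p0 * 2 ^ j ≤ 1 ∧ ¬ NotSmall n H (p0 * 2 ^ j)) := by
    obtain ⟨j, hj⟩ := pow_unbounded_of_one_lt (1 / p0) (show (1 : ℝ) < 2 by norm_num)
    refine ⟨j, fun h => ?_⟩
    rw [div_lt_iff₀ hp00] at hj
    linarith [h.1]
  have h0 : Nat.find hex ≠ 0 := by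
    intro h
    have := Nat.find_spec hex
    rw [h, pow_zero, mul_one] at this
    refine this ⟨?_, small_base hn hH⟩
    rw [hp0, div_le_one (by positivity)]; nlinarith
  obtain ⟨j, hj⟩ := Nat.exists_eq_succ_of_ne_zero h0
  obtain ⟨hp1, hsm⟩ := not_not.mp (Nat.find_min hex (show j < Nat.find hex by omega))
  have hns := Nat.find_spec hex
  rw [hj, pow_succ, ← mul_assoc] at hns
  set p := p0 * 2 ^ j with hp
  have hpp0 : p0 ≤ p := le_mul_of_one_le_right hp00.le (one_le_pow₀ (by norm_num))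
  have hp0' : 0 < p := by linarith
  have hcov : CovBy n (min 1 (10 ^ 120 * p)) (10 ^ 9) H := by
    by_cases hc : 10 ^ 60 ≤ n ∧ 10 ^ 8 * (p * 2) ≤ 1 / 2
    · have hns' : NotSmall n H (p * 2) := by
        by_contra h
        exact hns ⟨by linarith [hc.2], h⟩
      have h1 : CovBy n (10 ^ 8 * (p * 2)) (10 ^ 9) H := by
        by_cases hs : Real.log n < 300 * Real.log (1 / (p * 2))
        · exact sparse_case (le_trans (by norm_num) hc.1) hW (by positivity) hc.2 hns' hs
        · exact dense_case hc.1 hW (by positivity) hc.2 hns' (not_lt.mp hs)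
      exact h1.mono (by positivity) (le_min (by linarith [hc.2]) (by nlinarith)) (min_le_left _ _)
    · have h1 : 1 ≤ 10 ^ 120 * p := by
        rcases not_and_or.mp hc with h | h
        · have h2 : (n : ℝ) ≤ 10 ^ 60 := by exact_mod_cast (not_le.mp h).le
          have h3 : (n : ℝ) ^ 2 ≤ (10 ^ 60) ^ 2 := pow_le_pow_left₀ (by linarith) h2 _
          have h4 : 1 ≤ 10 ^ 120 * p0 := by
            rw [hp0, mul_one_div, le_div_iff₀ (by positivity)]; linarith
          nlinarith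
        · linarith [not_le.mp h]
      rw [min_eq_left h1]
      exact ⟨fun _ => H, fun _ => good_one hW H, fun u v huv => ⟨0, huv⟩⟩
  obtain ⟨G, hG, hc⟩ := hcov
  have hc' : ∀ e : H.edgeSet, ∃ i, e.1 ∈ (G i).edgeSet := by
    rintro ⟨e, he⟩
    induction e using Sym2.ind with
    | h u v => exact hc u v he
  choose c hc'' using hc'
  refine ⟨c, fun i => ⟨p, hp0'.le, hp1, ?_, ?_⟩⟩
  · unfold NotSmall at hsm
    push Not at hsm
    exact hsm
  · rw [gnpProb_eq_pr]
    refine (hG i).trans (pr_mono (le_min zero_le_one (by positivity)) (min_le_left _ _)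
      fun w hw => ?_)
    refine SimpleGraph.IsContained.mono_left ?_ hw
    intro u v huv
    rw [pieceGraph, SimpleGraph.fromEdgeSet_adj] at huv
    obtain ⟨⟨he, hi⟩, -⟩ := huv
    have := hc'' ⟨_, he⟩
    rwa [hi] at this

end Crest.Agent.R52
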