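import Crest.Agent.R52.StageAux

/-! Row 52: the deterministic stage lemma. -/

set_option autoImplicit false
set_option linter.unusedSectionVars false

namespace Crest.Agent.R52

open Finset Crest.Agent.Lib.Sunflower

section aux
variable {Y : Type} [Fintype Y] [DecidableEq Y]

/-- A choice of two sub-patterns and two regions. -/
abbrev Ch (Y : Type) := Fin 2 → Finset Y × Finset (Finset Y)

/-- The normalised indicator of a region. -/
noncomputable def hh (ρ m : ℝ) (R : Finset (Finset Y)) (w : Finset Y) : ℝ :=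
  if w ∈ R then m / pr ρ (fun x => x ∈ R) else 0

/-- Admissible choices. -/
def Adm (ρ m : ℝ) (S : Finset Y) (c : Ch Y) : Prop :=
  S ⊆ (c 0).1 ∪ (c 1).1 ∧ ∀ i, (c i).1 ⊆ S ∧ (∀ w ∈ (c i).2, (c i).1 ⊆ w) ∧
    m ≤ pr ρ (fun x => x ∈ (c i).2)

variable {ρ m : ℝ}

lemma hh_bounds (hm : 0 < m) {R : Finset (Finset Y)} (hR : m ≤ pr ρ (fun x => x ∈ R))
    (w : Finset Y) : 0 ≤ hh ρ m R w ∧ hh ρ m R w ≤ 1 := by
  unfold hh
  split_ifs
  · exact ⟨div_nonneg hm.le (by linarith), (div_le_one (by linarith)).mpr hR⟩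
  · norm_num

lemma sum_hh (hm : 0 < m) {R : Finset (Finset Y)} (hR : m ≤ pr ρ (fun x => x ∈ R)) :
    ∑ w : Finset Y, wt ρ w * hh ρ m R w = m := by
  have e : ∀ w : Finset Y, wt ρ w * hh ρ m R w =
      wt ρ w * ind (w ∈ R) * (m / pr ρ (fun x => x ∈ R)) := by
    intro w; unfold hh; rw [ind_eq_ite]; split_ifs <;> simp
  simp_rw [e]
  rw [← Finset.sum_mul]
  have : pr ρ (fun x => x ∈ R) ≠ 0 := by linarith [hm.trans_le hR |>.ne']
  change pr ρ (fun x => x ∈ R) * _ = _
  field_simp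

end aux

theorem stage_det {Y ι : Type} [Fintype Y] [DecidableEq Y] [Fintype ι] [DecidableEq ι]
    {ρ : ℝ} (h0 : 0 < ρ) (h1 : ρ ≤ 1 / 2) (A : Finset ι) (S : ι → Finset Y) (b : ℕ)
    (hb : ∀ v ∈ A, (S v).card ≤ b) (r : ℝ) (hr : 0 < r) (hA : 32 * (A.card : ℝ) ≤ r)
    (hsp : ∀ T : Finset Y, T.Nonempty →
      ((A.filter fun v => T ⊆ S v).card : ℝ) ≤ r * ρ ^ T.card / 1000) :
    ∃ M : Fin 2 → ι → Finset Y, ∃ a : Fin 2 → ι → Finset Y → ℝ,
      (∀ v ∈ A, S v ⊆ M 0 v ∪ M 1 v) ∧ (∀ i v, M i v ⊆ S v) ∧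
      (∀ i v w, 0 ≤ a i v w ∧ a i v w ≤ 1) ∧ (∀ i v w, a i v w ≠ 0 → M i v ⊆ w) ∧
      (∀ i, ∀ v ∈ A, ∑ w : Finset Y, wt ρ w * a i v w = m0 ρ b) ∧
      ∀ i, pr ρ (fun w : Finset Y => r * m0 ρ b / 2 < ∑ v ∈ A, a i v w) ≤
        Real.exp (-(r * m0 ρ b) / 4) := by
  classical
  have h1' : ρ ≤ 1 := by linarith
  have hwt : ∀ w : Finset Y, 0 ≤ wt ρ w := wt_nonneg h0.le h1'
  set m := m0 ρ b with hm
  have hm0 : 0 < m := m0_pos0 h0 b
  set L : (ι → Ch Y) → Fin 2 → Finset Y → ℝ :=
    fun γ i w => ∑ v ∈ A, hh ρ m (γ v i).2 w with hL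
  set Φ : (ι → Ch Y) → ℝ := fun γ => ∑ i, ∑ w, wt ρ w * Real.exp (L γ i w) with hΦ
  set C : Finset (ι → Ch Y) := Finset.univ.filter fun γ => ∀ v ∈ A, Adm ρ m (S v) (γ v) with hC
  have hne : C.Nonempty := by
    refine ⟨fun v _ => (S v, Finset.univ.filter fun w => S v ⊆ w),
      Finset.mem_filter.mpr ⟨Finset.mem_univ _, fun v hv => ⟨Finset.subset_union_left, fun i =>
        ⟨Finset.Subset.refl _, fun w hw => (Finset.mem_filter.mp hw).2, ?_⟩⟩⟩⟩
    simp only [Finset.mem_filter, Finset.mem_univ, true_and]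
    rw [pr_subset, hm, m0]
    have e1 : (ρ / 4) ^ b ≤ ρ ^ b := pow_le_pow_left₀ (by positivity) (by linarith) _
    have e2 : ρ ^ b ≤ ρ ^ (S v).card := pow_le_pow_of_le_one h0.le h1' (hb v hv)
    have : 0 ≤ (ρ / 4) ^ b := by positivity
    linarith
  obtain ⟨γ, hγ, hmin⟩ := C.exists_min_image Φ hne
  have hadm : ∀ v ∈ A, Adm ρ m (S v) (γ v) := (Finset.mem_filter.mp hγ).2
  have hhb : ∀ v ∈ A, ∀ i w, 0 ≤ hh ρ m (γ v i).2 w ∧ hh ρ m (γ v i).2 w ≤ 1 :=
    fun v hv i w => hh_bounds hm0 ((hadm v hv).2 i).2.2 w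
  set cst : ι → ℝ := fun v => ∑ i, ∑ w, wt ρ w * (Real.exp (L γ i w) * hh ρ m (γ v i).2 w)
    with hcst
  -- the exchange inequality
  have hswap : ∀ v ∈ A, ∀ t : ℝ,
      1 / 2 < hform ρ (S v) (fun w => L γ 0 w ≤ t) (fun w => L γ 1 w ≤ t) →
      cst v ≤ 8 * m * Real.exp t := by
    intro v hv t ht
    obtain ⟨α, β, hα, hβ, hαβ, hE, hF⟩ := exists_cover_of_hform h0 h1' (hb v hv) ht
    set c' : Ch Y := fun i => (![α, β] i,
      Finset.univ.filter fun w => L γ i w ≤ t ∧ w ∩ S v = ![α, β] i) with hc'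
    have hadm' : Adm ρ m (S v) c' := by
      refine ⟨hαβ, fun i => ⟨?_, fun w hw => ?_, ?_⟩⟩
      · fin_cases i <;> assumption
      · have := (Finset.mem_filter.mp hw).2.2
        simp only [hc']
        rw [← this]; exact Finset.inter_subset_left
      · simp only [hc', Finset.mem_filter, Finset.mem_univ, true_and]
        fin_cases i <;> assumption
    have hmem : Function.update γ v c' ∈ C := by
      refine Finset.mem_filter.mpr ⟨Finset.mem_univ _, fun u hu => ?_⟩
      by_cases huv : u = v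
      · subst huv; simpa using hadm'
      · simpa [huv] using hadm u hu
    have hL' : ∀ i w, L (Function.update γ v c') i w =
        L γ i w - hh ρ m (γ v i).2 w + hh ρ m (c' i).2 w := by
      intro i w
      simp only [hL]
      rw [← Finset.add_sum_erase _ _ hv, ← Finset.add_sum_erase _ _ hv]
      have : ∑ u ∈ A.erase v, hh ρ m (Function.update γ v c' u i).2 w =
          ∑ u ∈ A.erase v, hh ρ m (γ u i).2 w :=
        Finset.sum_congr rfl fun u hu => by simp [(Finset.mem_erase.mp hu).1]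
      rw [this]; simp only [Function.update_self]; ring
    have h2 : ∀ i, ∑ w, wt ρ w * Real.exp (L (Function.update γ v c') i w) ≤
        ∑ w, wt ρ w * Real.exp (L γ i w) -
        (∑ w, wt ρ w * (Real.exp (L γ i w) * hh ρ m (γ v i).2 w)) / 2 + 2 * (Real.exp t * m) := by
      intro i
      have hb' := hh_bounds hm0 (hadm'.2 i).2.2
      rw [← sum_hh hm0 (hadm'.2 i).2.2, Finset.mul_sum, Finset.mul_sum, Finset.sum_div,
        ← Finset.sum_sub_distrib, ← Finset.sum_add_distrib, sum_hh hm0 (hadm'.2 i).2.2]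
      refine Finset.sum_le_sum fun w _ => ?_
      rw [hL']
      have e1 := exp_swap_le (L := L γ i w) (hhb v hv i w).1 (hhb v hv i w).2 (hb' w).1 (hb' w).2
      have e2 : Real.exp (L γ i w) * hh ρ m (c' i).2 w ≤ Real.exp t * hh ρ m (c' i).2 w := by
        by_cases hw : w ∈ (c' i).2
        · exact mul_le_mul_of_nonneg_right
            (Real.exp_le_exp.mpr (Finset.mem_filter.mp hw).2.1) (hb' w).1
        · simp [hh, hw]
      nlinarith [hwt w]
    have h3 := hmin _ hmem
    simp only [hΦ, hcst, Fin.sum_univ_two] at h3 ⊢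
    linarith [h2 0, h2 1]
  set lam := r * m with hlam
  have hlam0 : 0 < lam := mul_pos hr hm0
  have hL0 : ∀ i w, 0 ≤ L γ i w := fun i w => Finset.sum_nonneg fun v hv => (hhb v hv i w).1
  have hL1 : ∀ i w, L γ i w ≤ A.card := fun i w => by
    calc L γ i w ≤ ∑ v ∈ A, (1 : ℝ) := Finset.sum_le_sum fun v hv => (hhb v hv i w).2
      _ = A.card := by simp
  have hEL : ∀ i, ∑ w, wt ρ w * L γ i w = A.card * m := by
    intro i
    simp only [hL, Finset.mul_sum]
    rw [Finset.sum_comm, Finset.sum_congr rfl fun v hv => sum_hh hm0 ((hadm v hv).2 i).2.2]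
    simp
  have hD : ∀ i (j : ℕ), 7 / 8 ≤ pr ρ (fun w => L γ i w ≤ lam / 4 + j) := by
    intro i j
    have h2 : pr ρ (fun w => ¬ L γ i w ≤ lam / 4 + j) * (lam / 4) ≤ A.card * m := by
      rw [← hEL i, pr, Finset.sum_mul]
      refine Finset.sum_le_sum fun w _ => ?_
      rw [mul_assoc]
      refine mul_le_mul_of_nonneg_left ?_ (hwt w)
      by_cases h : L γ i w ≤ lam / 4 + j
      · rw [ind_neg (not_not.mpr h), zero_mul]; exact hL0 i w
      · rw [ind_pos h, one_mul]
        have : (0 : ℝ) ≤ j := Nat.cast_nonneg j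
        linarith
    rw [pr_not] at h2
    have h3 : (A.card : ℝ) * m ≤ lam / 32 := by rw [hlam]; nlinarith
    by_contra h
    push Not at h
    nlinarith
  set U : ℕ → ι → Prop := fun j v => hform ρ (S v) (fun w => L γ 0 w ≤ lam / 4 + j)
    (fun w => L γ 1 w ≤ lam / 4 + j) ≤ 1 / 2 with hU
  have hUc : ∀ j : ℕ, ∑ v ∈ A, ind (U j v) ≤
      r / 500 * ∑ i, ∑ w, wt ρ w * ind (lam / 4 + j < L γ i w) := by
    intro j
    have := card_uncovered_le h0 h1 A S hr hsp (hD 0 j) (hD 1 j)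
    rw [← pr_not, ← pr_not] at this
    simpa only [Fin.sum_univ_two, pr, not_le] using this
  have hJ : ∀ v ∈ A, ¬ U A.card v := by
    intro v hv hu
    have h2 := hUc A.card
    have h3 : ∀ i w, ind (lam / 4 + (A.card : ℝ) < L γ i w) = 0 :=
      fun i w => ind_neg (by linarith [hL1 i w])
    simp only [h3, mul_zero, Finset.sum_const_zero] at h2
    have h4 := Finset.single_le_sum (f := fun v => ind (U A.card v)) (fun v _ => ind_nonneg _) hv
    simp only [ind_pos hu] at h4
    linarith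
  have hc1 : ∀ v ∈ A, cst v ≤ 8 * m * Real.exp (lam / 4) + ∑ j ∈ Finset.range A.card,
      ind (U j v) * (8 * m * Real.exp 1 * Real.exp (lam / 4 + j)) := by
    intro v hv
    have hex : ∃ j, ¬ U j v := ⟨_, hJ v hv⟩
    have hnn : ∀ j ∈ Finset.range A.card,
        0 ≤ ind (U j v) * (8 * m * Real.exp 1 * Real.exp (lam / 4 + j)) :=
      fun j _ => mul_nonneg (ind_nonneg _) (by positivity)
    have h2 := hswap v hv _ (not_le.mp (Nat.find_spec hex))
    have h3 : Nat.find hex ≤ A.card := Nat.find_min' hex (hJ v hv)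
    rcases hk : Nat.find hex with _ | k
    · rw [hk] at h2
      simp only [Nat.cast_zero, add_zero] at h2
      linarith [Finset.sum_nonneg hnn]
    · have h4 : U k v := not_not.mp (Nat.find_min hex (by omega))
      have h5 := Finset.single_le_sum hnn (Finset.mem_range.mpr (show k < A.card by omega))
      rw [ind_pos h4, one_mul] at h5
      rw [hk] at h2
      have e : Real.exp (lam / 4 + (k + 1 : ℕ)) = Real.exp 1 * Real.exp (lam / 4 + k) := by
        rw [← Real.exp_add]; push_cast; ring_nf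
      rw [e] at h2
      have : 0 ≤ 8 * m * Real.exp (lam / 4) := by positivity
      linarith
  set Ψ := ∑ i, ∑ w, wt ρ w * (Real.exp (L γ i w) * L γ i w) with hΨ
  have hΨ0 : ∀ i, 0 ≤ ∑ w, wt ρ w * (Real.exp (L γ i w) * L γ i w) := fun i =>
    Finset.sum_nonneg fun w _ => mul_nonneg (hwt w) (mul_nonneg (Real.exp_pos _).le (hL0 i w))
  have hΨ1 : Ψ = ∑ v ∈ A, cst v := by
    simp only [hΨ, hcst]
    rw [Finset.sum_comm (s := A)]
    refine Finset.sum_congr rfl fun i _ => ?_
    rw [Finset.sum_comm (s := A)]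
    refine Finset.sum_congr rfl fun w _ => ?_
    rw [← Finset.mul_sum, ← Finset.mul_sum]
  have hΨ2 : ∑ j ∈ Finset.range A.card, (∑ i, ∑ w, wt ρ w * ind (lam / 4 + j < L γ i w)) *
      Real.exp (lam / 4 + j) ≤ 8 / lam * Ψ := by
    simp_rw [Finset.sum_mul]
    rw [hΨ, Finset.mul_sum, Finset.sum_comm]
    refine Finset.sum_le_sum fun i _ => ?_
    rw [Finset.mul_sum, Finset.sum_comm]
    refine Finset.sum_le_sum fun w _ => ?_
    simp_rw [mul_assoc]
    rw [← Finset.mul_sum, mul_left_comm]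
    refine mul_le_mul_of_nonneg_left ((geom_levels _ _ _).trans ?_) (hwt w)
    by_cases h : lam / 4 < L γ i w
    · rw [ind_pos h, mul_one, div_mul_eq_mul_div, le_div_iff₀ hlam0]
      nlinarith [Real.exp_pos (L γ i w)]
    · rw [ind_neg h, mul_zero]
      exact mul_nonneg (by positivity) (mul_nonneg (Real.exp_pos _).le (hL0 i w))
  have hΨ3 : Ψ ≤ lam / 2 * Real.exp (lam / 4) := by
    have h2 := Finset.sum_le_sum hc1
    rw [← hΨ1, Finset.sum_add_distrib, Finset.sum_const, nsmul_eq_mul, Finset.sum_comm] at h2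
    have h3 : ∑ j ∈ Finset.range A.card, ∑ v ∈ A,
        ind (U j v) * (8 * m * Real.exp 1 * Real.exp (lam / 4 + j)) ≤
        8 * m * Real.exp 1 * (r / 500) * (8 / lam * Ψ) := by
      refine le_trans ?_ (mul_le_mul_of_nonneg_left hΨ2 (by positivity))
      rw [Finset.mul_sum]
      refine Finset.sum_le_sum fun j _ => ?_
      rw [← Finset.sum_mul]
      refine (mul_le_mul_of_nonneg_right (hUc j) (by positivity)).trans (le_of_eq (by ring))
    have h4 : 8 * m * Real.exp 1 * (r / 500) * (8 / lam * Ψ) = 64 / 500 * Real.exp 1 * Ψ := by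
      rw [hlam]; field_simp; ring
    have h5 : 0 ≤ Ψ := Finset.sum_nonneg fun i _ => hΨ0 i
    have h6 : (A.card : ℝ) * (8 * m * Real.exp (lam / 4)) ≤ lam / 4 * Real.exp (lam / 4) := by
      have : (A.card : ℝ) * (8 * m) ≤ lam / 4 := by rw [hlam]; nlinarith
      nlinarith [Real.exp_pos (lam / 4)]
    have h7 : 64 / 500 * Real.exp 1 * Ψ ≤ Ψ / 2 := by nlinarith [Real.exp_one_lt_d9]
    linarith
  refine ⟨fun i v => if v ∈ A then (γ v i).1 else ∅,
    fun i v w => if v ∈ A then hh ρ m (γ v i).2 w else 0, ?_, ?_, ?_, ?_, ?_, ?_⟩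
  · intro v hv; simpa [hv] using (hadm v hv).1
  · intro i v
    beta_reduce
    split_ifs with hv
    · exact ((hadm v hv).2 i).1
    · exact Finset.empty_subset _
  · intro i v w
    beta_reduce
    split_ifs with hv
    · exact hhb v hv i w
    · norm_num
  · intro i v w
    beta_reduce
    split_ifs with hv
    · intro h
      refine ((hadm v hv).2 i).2.1 w ?_
      by_contra hw
      exact h (by simp [hh, hw])
    · simp
  · intro i v hv
    simp only [hv, if_true]
    exact sum_hh hm0 ((hadm v hv).2 i).2.2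
  · intro i
    have e : ∀ w, ∑ v ∈ A, (if v ∈ A then hh ρ m (γ v i).2 w else 0) = L γ i w :=
      fun w => Finset.sum_congr rfl fun v hv => by simp [hv]
    simp only [e]
    have h2 : pr ρ (fun w => lam / 2 < L γ i w) * (lam / 2 * Real.exp (lam / 2)) ≤
        ∑ w, wt ρ w * (Real.exp (L γ i w) * L γ i w) := by
      rw [pr, Finset.sum_mul]
      refine Finset.sum_le_sum fun w _ => ?_
      rw [mul_assoc]
      refine mul_le_mul_of_nonneg_left ?_ (hwt w)
      by_cases h : lam / 2 < L γ i w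
      · rw [ind_pos h, one_mul, mul_comm]
        exact mul_le_mul (Real.exp_le_exp.mpr h.le) h.le (by positivity) (Real.exp_pos _).le
      · rw [ind_neg h, zero_mul]
        exact mul_nonneg (Real.exp_pos _).le (hL0 i w)
    have h3 : ∑ w, wt ρ w * (Real.exp (L γ i w) * L γ i w) ≤ Ψ :=
      Finset.single_le_sum (f := fun i => ∑ w, wt ρ w * (Real.exp (L γ i w) * L γ i w))
        (fun i _ => hΨ0 i) (Finset.mem_univ i)
    have h4 : lam / 2 * Real.exp (lam / 4) =
        Real.exp (-lam / 4) * (lam / 2 * Real.exp (lam / 2)) := by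
      rw [mul_left_comm, ← Real.exp_add]; ring_nf
    exact le_of_mul_le_mul_right (by linarith) (show 0 < lam / 2 * Real.exp (lam / 2) by positivity)

end Crest.Agent.R52
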