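import Crest.Agent.R52.Hoffman

/-! Row 52: auxiliary lemmas for the deterministic stage lemma. -/

set_option autoImplicit false
set_option linter.unusedSectionVars false

namespace Crest.Agent.R52

open Finset Crest.Agent.Lib.Sunflower

variable {Y : Type} [Fintype Y] [DecidableEq Y] {ρ : ℝ}

/-- The Hoffman form of two events. -/
noncomputable def hform (ρ : ℝ) (S : Finset Y) (E F : Finset Y → Prop) : ℝ :=
  ∑ x : Finset Y, ∑ y : Finset Y, wt ρ x * ind (E x) * (wt ρ y * ind (F y)) * ker ρ S x y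

lemma m0_pos0 (h0 : 0 < ρ) (b : ℕ) : 0 < m0 ρ b := by unfold m0; positivity

lemma sum_fiber_inter (S : Finset Y) (E : Finset Y → Prop) (f : Finset Y → ℝ) :
    ∑ x : Finset Y, wt ρ x * ind (E x) * f (x ∩ S) =
      ∑ α ∈ S.powerset, pr ρ (fun x => E x ∧ x ∩ S = α) * f α := by
  unfold pr
  simp_rw [Finset.sum_mul]
  rw [Finset.sum_comm]
  refine Finset.sum_congr rfl fun x _ => ?_
  simp_rw [ind_and, ind_eq_ite (x ∩ S = _)]
  simp [Finset.inter_subset_right]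

lemma exists_cover_of_hform (h0 : 0 < ρ) (h1 : ρ ≤ 1) {S : Finset Y} {b : ℕ} (hb : S.card ≤ b)
    {E F : Finset Y → Prop} (h : 1 / 2 < hform ρ S E F) :
    ∃ α β : Finset Y, α ⊆ S ∧ β ⊆ S ∧ S ⊆ α ∪ β ∧
      m0 ρ b ≤ pr ρ (fun x => E x ∧ x ∩ S = α) ∧ m0 ρ b ≤ pr ρ (fun x => F x ∧ x ∩ S = β) := by
  by_contra hcon
  push Not at hcon
  have hi : 1 ≤ 1 / ρ := by rw [le_div_iff₀ h0]; linarith
  have h2 : hform ρ S E F ≤ ∑ α ∈ S.powerset, pr ρ (fun x => E x ∧ x ∩ S = α) *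
      ∑ β ∈ S.powerset, pr ρ (fun x => F x ∧ x ∩ S = β) *
        (ind (S ⊆ α ∪ β) * ((1 / ρ) ^ α.card * (1 / ρ) ^ β.card)) := by
    rw [← sum_fiber_inter S E (fun α => ∑ β ∈ S.powerset, pr ρ (fun x => F x ∧ x ∩ S = β) *
        (ind (S ⊆ α ∪ β) * ((1 / ρ) ^ α.card * (1 / ρ) ^ β.card)))]
    refine Finset.sum_le_sum fun x _ => ?_
    rw [← sum_fiber_inter S F (fun β =>
      (ind (S ⊆ x ∩ S ∪ β) * ((1 / ρ) ^ (x ∩ S).card * (1 / ρ) ^ β.card))), Finset.mul_sum]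
    refine Finset.sum_le_sum fun y _ => ?_
    rw [← mul_assoc (wt ρ x * ind (E x)) (wt ρ y * ind (F y))]
    refine mul_le_mul_of_nonneg_left ?_ (mul_nonneg (mul_nonneg (wt_nonneg h0.le h1 x)
      (ind_nonneg _)) (mul_nonneg (wt_nonneg h0.le h1 y) (ind_nonneg _)))
    by_cases hc : S ⊆ x ∪ y
    · rw [ind_pos, one_mul]
      · exact (le_abs_self _).trans (abs_ker_le h0 h1 S x y)
      · intro i hi
        have := hc hi
        simp only [Finset.mem_union, Finset.mem_inter] at this ⊢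
        tauto
    · rw [ker_eq_zero h0 hc]
      exact mul_nonneg (ind_nonneg _) (by positivity)
  have hu : ∀ (G : Finset Y → Prop) (α : Finset Y),
      pr ρ (fun x => G x ∧ x ∩ S = α) * (1 / ρ) ^ α.card ≤ 1 := by
    intro G α
    have : pr ρ (fun x => G x ∧ x ∩ S = α) ≤ ρ ^ α.card := by
      rw [← pr_subset]
      exact pr_mono h0.le h1 fun w hw => hw.2 ▸ Finset.inter_subset_left
    calc _ ≤ ρ ^ α.card * (1 / ρ) ^ α.card := mul_le_mul_of_nonneg_right this (by positivity)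
      _ = 1 := by rw [← mul_pow]; field_simp; simp
  have hv : ∀ (G : Finset Y → Prop) (α : Finset Y), α ⊆ S →
      pr ρ (fun x => G x ∧ x ∩ S = α) < m0 ρ b →
      pr ρ (fun x => G x ∧ x ∩ S = α) * (1 / ρ) ^ α.card ≤ (1 / 4) ^ b / 2 := by
    intro G α hα hlt
    have e1 : (1 / ρ) ^ α.card ≤ (1 / ρ) ^ b :=
      pow_le_pow_right₀ hi ((Finset.card_le_card hα).trans hb)
    calc _ ≤ m0 ρ b * (1 / ρ) ^ b := mul_le_mul hlt.le e1 (by positivity) (m0_pos0 h0 b).le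
      _ = _ := by
        have : (ρ / 4) ^ b * (1 / ρ) ^ b = (1 / 4) ^ b := by rw [← mul_pow]; congr 1; field_simp
        unfold m0; rw [← this]; ring
  have h3 : ∀ α ∈ S.powerset, pr ρ (fun x => E x ∧ x ∩ S = α) *
      ∑ β ∈ S.powerset, pr ρ (fun x => F x ∧ x ∩ S = β) *
        (ind (S ⊆ α ∪ β) * ((1 / ρ) ^ α.card * (1 / ρ) ^ β.card)) ≤
      ∑ β ∈ S.powerset, (1 / 4 : ℝ) ^ b / 2 := by
    intro α hα
    rw [Finset.mul_sum]
    refine Finset.sum_le_sum fun β hβ => ?_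
    rw [Finset.mem_powerset] at hα hβ
    by_cases hc : S ⊆ α ∪ β
    swap
    · rw [ind_neg hc]; simp only [zero_mul, mul_zero]; positivity
    rw [ind_pos hc, one_mul]
    have e : pr ρ (fun x => E x ∧ x ∩ S = α) * (pr ρ (fun x => F x ∧ x ∩ S = β) *
        ((1 / ρ) ^ α.card * (1 / ρ) ^ β.card)) =
        (pr ρ (fun x => E x ∧ x ∩ S = α) * (1 / ρ) ^ α.card) *
        (pr ρ (fun x => F x ∧ x ∩ S = β) * (1 / ρ) ^ β.card) := by ring
    rw [e]
    have n1 : 0 ≤ pr ρ (fun x => E x ∧ x ∩ S = α) * (1 / ρ) ^ α.card :=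
      mul_nonneg (pr_nonneg h0.le h1 _) (by positivity)
    have n2 : 0 ≤ pr ρ (fun x => F x ∧ x ∩ S = β) * (1 / ρ) ^ β.card :=
      mul_nonneg (pr_nonneg h0.le h1 _) (by positivity)
    by_cases hE : m0 ρ b ≤ pr ρ (fun x => E x ∧ x ∩ S = α)
    · exact (mul_le_of_le_one_left n2 (hu E α)).trans (hv F β hβ (hcon α β hα hβ hc hE))
    · exact (mul_le_of_le_one_right n1 (hu F β)).trans (hv E α hα (not_le.mp hE))
  have h4 := h2.trans (Finset.sum_le_sum h3)
  simp only [Finset.sum_const, Finset.card_powerset, nsmul_eq_mul] at h4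
  have h5 : ((2 ^ S.card : ℕ) : ℝ) ≤ 2 ^ b := by
    exact_mod_cast Nat.pow_le_pow_right (by norm_num) hb
  have h6 : (2 : ℝ) ^ b * (2 ^ b * ((1 / 4) ^ b / 2)) = 1 / 2 := by
    have : (2 : ℝ) ^ b * 2 ^ b * (1 / 4) ^ b = 1 := by rw [← mul_pow, ← mul_pow]; norm_num
    linear_combination this / 2
  have h7 : ((2 ^ S.card : ℕ) : ℝ) * (((2 ^ S.card : ℕ) : ℝ) * ((1 / 4) ^ b / 2)) ≤
      (2 : ℝ) ^ b * (2 ^ b * ((1 / 4) ^ b / 2)) := by gcongr
  linarith

lemma card_uncovered_le {ι : Type} [DecidableEq ι] (h0 : 0 < ρ) (h1 : ρ ≤ 1 / 2) (A : Finset ι)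
    (S : ι → Finset Y) {r : ℝ} (hr : 0 < r)
    (hsp : ∀ T : Finset Y, T.Nonempty →
      ((A.filter fun v => T ⊆ S v).card : ℝ) ≤ r * ρ ^ T.card / 1000)
    {E F : Finset Y → Prop} (hE : 7 / 8 ≤ pr ρ E) (hF : 7 / 8 ≤ pr ρ F) :
    ∑ v ∈ A, ind (hform ρ (S v) E F ≤ 1 / 2) ≤ r / 500 * ((1 - pr ρ E) + (1 - pr ρ F)) := by
  set a := coef ρ (fun w => ind (E w)) with ha
  set c := coef ρ (fun w => ind (F w)) with hc
  have hnn : ∀ T : Finset Y, 0 ≤ (1 / ρ ^ 2) ^ T.card * (|a T| * |c T|) := fun T => by positivity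
  have h2 : ∀ v ∈ A, ind (hform ρ (S v) E F ≤ 1 / 2) ≤ 4 * ∑ T ∈ Finset.univ.erase (∅ : Finset Y),
      (if T ⊆ S v then 1 else 0) * ((1 / ρ ^ 2) ^ T.card * (|a T| * |c T|)) := by
    intro v _
    have e : ∑ T ∈ Finset.univ.erase (∅ : Finset Y),
        (if T ⊆ S v then 1 else 0) * ((1 / ρ ^ 2) ^ T.card * (|a T| * |c T|)) =
        ∑ T ∈ (S v).powerset.erase ∅, (1 / ρ ^ 2) ^ T.card * (|a T| * |c T|) := by
      simp_rw [ite_mul, one_mul, zero_mul]
      rw [← Finset.sum_filter]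
      refine Finset.sum_congr ?_ fun _ _ => rfl
      ext T; simp
    rw [e]
    by_cases h : hform ρ (S v) E F ≤ 1 / 2
    · rw [ind_pos h]
      have h3 := (hoffman_lower (p := ρ) (S v) E F).trans h
      nlinarith
    · rw [ind_neg h]
      exact mul_nonneg (by norm_num) (Finset.sum_nonneg fun T _ => hnn T)
  refine (Finset.sum_le_sum h2).trans ?_
  rw [← Finset.mul_sum, Finset.sum_comm]
  have h3 : ∀ T ∈ Finset.univ.erase (∅ : Finset Y), ∑ v ∈ A,
      (if T ⊆ S v then 1 else 0) * ((1 / ρ ^ 2) ^ T.card * (|a T| * |c T|)) ≤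
      r / 2000 * ((1 / ρ) ^ T.card * (a T * a T) + (1 / ρ) ^ T.card * (c T * c T)) := by
    intro T hT
    rw [← Finset.sum_mul, Finset.sum_boole]
    refine (mul_le_mul_of_nonneg_right
      (hsp T (Finset.nonempty_iff_ne_empty.mpr (Finset.mem_erase.mp hT).1)) (hnn T)).trans ?_
    have e : (1 / ρ) ^ T.card = ρ ^ T.card * (1 / ρ ^ 2) ^ T.card := by
      rw [← mul_pow]; congr 1; field_simp
    have h4 : 2 * (|a T| * |c T|) ≤ a T * a T + c T * c T := by
      rw [← abs_mul_abs_self (a T), ← abs_mul_abs_self (c T)]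
      nlinarith [sq_nonneg (|a T| - |c T|)]
    have h5 : 0 ≤ r / 2000 * (1 / ρ) ^ T.card := by positivity
    have h6 := mul_le_mul_of_nonneg_left h4 h5
    rw [e] at h6 ⊢
    linarith
  refine (mul_le_mul_of_nonneg_left (Finset.sum_le_sum h3) (by norm_num)).trans ?_
  rw [← Finset.mul_sum, Finset.sum_add_distrib]
  have e1 := energy_le (t := 1 / ρ) h0 (by linarith) (by positivity) (by field_simp; linarith) E
  have e2 := energy_le (t := 1 / ρ) h0 (by linarith) (by positivity) (by field_simp; linarith) F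
  have e3 := pr_le_one h0.le (by linarith) E
  have e4 := pr_le_one h0.le (by linarith) F
  rw [← ha] at e1
  rw [← hc] at e2
  have e5 : pr ρ E - pr ρ E * pr ρ E ≤ 1 - pr ρ E := by nlinarith
  have e6 : pr ρ F - pr ρ F * pr ρ F ≤ 1 - pr ρ F := by nlinarith
  nlinarith

lemma geom_levels (y0 y : ℝ) (J : ℕ) :
    ∑ j ∈ Finset.range J, ind (y0 + j < y) * Real.exp (y0 + j) ≤ 2 * Real.exp y * ind (y0 < y) := by
  by_cases h : y0 < y
  swap
  · rw [ind_neg h, mul_zero]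
    refine le_of_eq (Finset.sum_eq_zero fun j _ => ?_)
    rw [ind_neg, zero_mul]
    have : (0 : ℝ) ≤ j := Nat.cast_nonneg j
    linarith
  rw [ind_pos h, mul_one]
  suffices hs : ∑ j ∈ Finset.range J, ind (y0 + j < y) * Real.exp (y0 + j) ≤ 2 * Real.exp y ∧
      ∑ j ∈ Finset.range J, ind (y0 + j < y) * Real.exp (y0 + j) ≤ Real.exp (y0 + J) from hs.1
  induction J with
  | zero => simp [(Real.exp_pos _).le]
  | succ J ih =>
    rw [Finset.sum_range_succ]
    have e : Real.exp (y0 + (J + 1 : ℕ)) = Real.exp (y0 + J) * Real.exp 1 := by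
      rw [← Real.exp_add]; push_cast; ring_nf
    have h2 : 2 ≤ Real.exp 1 := by linarith [Real.add_one_le_exp 1]
    have h3 := Real.exp_pos (y0 + J)
    rw [e]
    by_cases hJ : y0 + J < y
    · rw [ind_pos hJ, one_mul]
      have := Real.exp_le_exp.mpr hJ.le
      constructor <;> nlinarith [ih.2]
    · rw [ind_neg hJ, zero_mul, add_zero]
      exact ⟨ih.1, by nlinarith [ih.2]⟩

lemma exp_swap_le {L h h' : ℝ} (h0 : 0 ≤ h) (h1 : h ≤ 1) (h0' : 0 ≤ h') (h1' : h' ≤ 1) :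
    Real.exp (L - h + h') ≤ Real.exp L - Real.exp L * h / 2 + 2 * (Real.exp L * h') := by
  have e1 : Real.exp (-h) ≤ 1 - h / 2 := by
    rw [Real.exp_neg, inv_le_iff_one_le_mul₀ (Real.exp_pos h)]
    nlinarith [Real.add_one_le_exp h]
  have e2 : Real.exp h' ≤ 1 + 2 * h' := by
    have := convexOn_exp.2 (Set.mem_univ 0) (Set.mem_univ 1) (sub_nonneg.mpr h1') h0' (by ring)
    simp only [smul_eq_mul, mul_zero, mul_one, zero_add, Real.exp_zero] at this
    nlinarith [Real.exp_one_lt_d9]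
  have e3 : Real.exp (L - h + h') = Real.exp L * (Real.exp (-h) * Real.exp h') := by
    rw [← Real.exp_add, ← Real.exp_add]; ring_nf
  have e4 : Real.exp (-h) * Real.exp h' ≤ 1 - h / 2 + 2 * h' := by
    have := mul_le_mul e1 e2 (Real.exp_pos _).le (by linarith)
    nlinarith
  rw [e3]
  nlinarith [Real.exp_pos L]

end Crest.Agent.R52
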