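import Crest.Agent.R52.Defs

/-! Row 52: the adaptive greedy embedding of stars in independent rows. -/

set_option autoImplicit false

namespace Crest.Agent.R52

open Finset Crest.Agent.Lib.Sunflower

section prob
variable {Y : Type} [Fintype Y] [DecidableEq Y] {ρ : ℝ}

lemma sum_wt_prod_ite (p : ℝ) (f g : Y → ℝ) :
    ∑ w : Finset Y, wt p w * ∏ x, (if x ∈ w then f x else g x) =
      ∏ x, (p * f x + (1 - p) * g x) := by
  rw [← sum_prod_ite]
  refine sum_congr rfl fun w _ => ?_
  rw [wt, ← prod_mul_distrib]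
  exact prod_congr rfl fun x _ => by split_ifs <;> rfl

lemma pr_inter_lt (h0 : 0 ≤ ρ) (h1 : ρ ≤ 1) (Z : Finset Y) (e : ℕ) :
    pr ρ (fun w => ¬ e ≤ (w ∩ Z).card) ≤ 2 ^ e * (1 - ρ / 2) ^ Z.card := by
  have e1 := sum_wt_prod_ite ρ (fun x => if x ∈ Z then (1 / 2 : ℝ) else 1) fun _ => 1
  have e2 : ∏ x : Y, (ρ * (if x ∈ Z then (1 / 2 : ℝ) else 1) + (1 - ρ) * 1) =
      (1 - ρ / 2) ^ Z.card := by
    rw [← prod_const, ← univ_inter Z, ← prod_ite_mem, univ_inter]
    exact prod_congr rfl fun x _ => by split_ifs <;> ring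
  rw [← e2, ← e1, mul_sum]
  refine sum_le_sum fun w _ => ?_
  rw [mul_left_comm]
  refine mul_le_mul_of_nonneg_left ?_ (wt_nonneg h0 h1 w)
  have e3 : ∏ x : Y, (if x ∈ w then (if x ∈ Z then (1 / 2 : ℝ) else 1) else 1) =
      (1 / 2) ^ (w ∩ Z).card := by
    rw [← prod_const, ← univ_inter (w ∩ Z), ← prod_ite_mem]
    refine prod_congr rfl fun x _ => ?_
    by_cases h : x ∈ w <;> by_cases h' : x ∈ Z <;> simp [h, h']
  rw [e3]
  by_cases h : e ≤ (w ∩ Z).card
  · rw [ind_neg (not_not.2 h)]; positivity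
  · rw [ind_pos h, one_div, inv_pow, ← div_eq_mul_inv, one_le_div (by positivity)]
    exact pow_le_pow_right₀ one_le_two (by omega)

lemma pr_inter_eq {Z T : Finset Y} (hT : T ⊆ Z) :
    pr ρ (fun w => w ∩ Z = T) = ρ ^ T.card * (1 - ρ) ^ (Z.card - T.card) := by
  have e1 := sum_wt_prod_ite ρ (fun x => if x ∈ Z \ T then (0 : ℝ) else 1)
    fun x => if x ∈ T then 0 else 1
  have e2 : ∏ x : Y, (ρ * (if x ∈ Z \ T then (0 : ℝ) else 1) + (1 - ρ) * if x ∈ T then 0 else 1) =
      (∏ x : Y, if x ∈ T then ρ else 1) * ∏ x : Y, if x ∈ Z \ T then 1 - ρ else 1 := by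
    rw [← prod_mul_distrib]
    refine prod_congr rfl fun x _ => ?_
    by_cases h : x ∈ T <;> by_cases h' : x ∈ Z <;> simp [h, h']
  rw [prod_ite_mem, prod_ite_mem, univ_inter, univ_inter, prod_const, prod_const,
    card_sdiff_of_subset hT] at e2
  rw [← e2, ← e1, pr]
  refine sum_congr rfl fun w _ => ?_
  congr 1
  by_cases h : w ∩ Z = T
  · rw [ind_pos h]
    refine (prod_eq_one fun x _ => ?_).symm
    rw [← h]
    by_cases h : x ∈ w <;> by_cases h' : x ∈ Z <;> simp [h, h']
  · rw [ind_neg h]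
    obtain ⟨x, hx⟩ : ∃ x, ¬ (x ∈ w ∩ Z ↔ x ∈ T) := by
      by_contra hc
      push Not at hc
      exact h (Finset.ext hc)
    refine (prod_eq_zero (mem_univ x) ?_).symm
    have := @hT x
    by_cases h : x ∈ w <;> by_cases h' : x ∈ Z <;> by_cases h'' : x ∈ T <;> simp_all

lemma pr_inter_ge (h0 : 0 ≤ ρ) (h1 : ρ ≤ 1) (Z : Finset Y) (e : ℕ) :
    (Z.card.choose e : ℝ) * (ρ ^ e * (1 - ρ) ^ (Z.card - e)) ≤
      pr ρ (fun w => e ≤ (w ∩ Z).card) := by
  rw [← card_powersetCard, ← nsmul_eq_mul, ← sum_const]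
  calc _ = ∑ T ∈ powersetCard e Z, pr ρ (fun w => w ∩ Z = T) := by
        refine sum_congr rfl fun T hT => ?_
        rw [pr_inter_eq (mem_powersetCard.1 hT).1, (mem_powersetCard.1 hT).2]
    _ = ∑ w : Finset Y, wt ρ w * ∑ T ∈ powersetCard e Z, ind (w ∩ Z = T) := by
        simp only [pr, mul_sum]; exact sum_comm
    _ ≤ _ := by
        refine sum_le_sum fun w _ => mul_le_mul_of_nonneg_left ?_ (wt_nonneg h0 h1 w)
        simp only [ind_eq_ite (w ∩ Z = _), sum_ite_eq]
        split_ifs with h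
        · rw [ind_pos (mem_powersetCard.1 h).2.ge]
        · exact ind_nonneg _

lemma pow_le_choose_real' : ∀ v n : ℕ, v ≤ n → ((n : ℝ) / v) ^ v ≤ n.choose v
  | 0, n, _ => by simp
  | v + 1, 0, h => by omega
  | v + 1, n + 1, h => by
    have ih := pow_le_choose_real' v n (by omega)
    have e : ((n + 1).choose (v + 1) : ℝ) = ((n + 1 : ℕ) : ℝ) / (v + 1 : ℕ) * n.choose v := by
      have := Nat.add_one_mul_choose_eq n v
      rw [div_mul_eq_mul_div, eq_div_iff (by positivity)]
      exact_mod_cast this.symm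
    rw [e, pow_succ']
    refine mul_le_mul_of_nonneg_left (le_trans ?_ ih) (by positivity)
    rcases Nat.eq_zero_or_pos v with rfl | hv
    · simp
    · refine pow_le_pow_left₀ (by positivity) ?_ v
      have hv' : (0 : ℝ) < v := by exact_mod_cast hv
      have hvn : (v : ℝ) ≤ n := by exact_mod_cast (show v ≤ n by omega)
      rw [div_le_div_iff₀ (by positivity) hv']
      push_cast
      nlinarith

/-- Tail of the binomial distribution from below. -/
lemma pr_inter_lower (h0 : 0 < ρ) (h1 : ρ ≤ 1 / 2) {m e : ℕ} (he : 1 ≤ e) (hem : e ≤ m)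
    (Z : Finset Y) (hZ : m ≤ Z.card) :
    min (1 / 2) ((m * ρ / (6561 * e)) ^ e) ≤ pr ρ (fun w => e ≤ (w ∩ Z).card) := by
  have hρ1 : ρ ≤ 1 := by linarith
  obtain ⟨Z', hZ', rfl⟩ := exists_subset_card_eq hZ
  refine le_trans ?_ (pr_mono h0.le hρ1 (E := fun w => e ≤ (w ∩ Z').card) fun w hw =>
    hw.trans (card_le_card (inter_subset_inter_left hZ')))
  set m := Z'.card with hm
  have he' : (1 : ℝ) ≤ e := by exact_mod_cast he
  by_cases hc : 4 * (e : ℝ) ≤ ρ * m
  · refine (min_le_left _ _).trans ?_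
    have h2 := pr_inter_lt h0.le hρ1 Z' e
    rw [pr_not, ← hm] at h2
    have h3 : (1 - ρ / 2) ^ m ≤ Real.exp (-2) ^ e := by
      calc (1 - ρ / 2) ^ m ≤ Real.exp (-(ρ / 2)) ^ m :=
            pow_le_pow_left₀ (by linarith) (by linarith [Real.add_one_le_exp (-(ρ / 2))]) m
        _ ≤ _ := by
            rw [← Real.exp_nat_mul, ← Real.exp_nat_mul]
            exact Real.exp_le_exp.2 (by linarith)
    have h4 : Real.exp (-2) ≤ 1 / 4 := by
      have := Real.exp_neg_one_lt_d9
      have e : Real.exp (-2) = Real.exp (-1) * Real.exp (-1) := by rw [← Real.exp_add]; norm_num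
      nlinarith [Real.exp_pos (-1)]
    have h5 : (2 : ℝ) ^ e * Real.exp (-2) ^ e ≤ 1 / 2 := by
      rw [← mul_pow]
      calc _ ≤ (1 / 2 : ℝ) ^ e := pow_le_pow_left₀ (by positivity) (by linarith) e
        _ ≤ (1 / 2) ^ 1 := pow_le_pow_of_le_one (by norm_num) (by norm_num) he
        _ = _ := pow_one _
    have := mul_le_mul_of_nonneg_left h3 (show (0 : ℝ) ≤ 2 ^ e by positivity)
    linarith
  · refine (min_le_right _ _).trans (le_trans ?_ (pr_inter_ge h0.le hρ1 Z' e))
    push Not at hc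
    rw [← hm]
    have h2 := pow_le_choose_real' e m hem
    have h3 : (1 / 6561 : ℝ) ^ e ≤ (1 - ρ) ^ (m - e) := by
      have a1 : Real.exp (-(2 * ρ)) ≤ 1 - ρ := by
        rw [Real.exp_neg, inv_le_comm₀ (Real.exp_pos _) (by linarith), ← one_div,
          div_le_iff₀ (by linarith)]
        nlinarith [Real.add_one_le_exp (2 * ρ)]
      have a2 : (1 / 6561 : ℝ) ≤ Real.exp (-8) := by
        have b1 : Real.exp 8 ≤ 3 ^ 8 := by
          have := Real.exp_one_lt_d9
          calc Real.exp 8 = Real.exp 1 ^ 8 := by rw [← Real.exp_nat_mul]; norm_num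
            _ ≤ 3 ^ 8 := pow_le_pow_left₀ (Real.exp_pos _).le (by linarith) 8
        rw [Real.exp_neg, ← one_div]
        exact one_div_le_one_div_of_le (Real.exp_pos _) (by linarith)
      calc (1 / 6561 : ℝ) ^ e ≤ Real.exp (-8) ^ e := pow_le_pow_left₀ (by norm_num) a2 e
        _ ≤ Real.exp (-(2 * ρ)) ^ m := by
            rw [← Real.exp_nat_mul, ← Real.exp_nat_mul]
            exact Real.exp_le_exp.2 (by linarith)
        _ ≤ (1 - ρ) ^ m := pow_le_pow_left₀ (Real.exp_pos _).le a1 m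
        _ ≤ _ := pow_le_pow_of_le_one (by linarith) (by linarith) (Nat.sub_le _ _)
    calc ((m : ℝ) * ρ / (6561 * e)) ^ e = ((m : ℝ) / e) ^ e * (ρ ^ e * (1 / 6561 : ℝ) ^ e) := by
          rw [← mul_pow, ← mul_pow]; congr 1; field_simp
      _ ≤ _ := by gcongr

lemma sum_rows_succ {k : ℕ} (p : ℝ) (F : (Fin (k + 1) → Finset Y) → ℝ) :
    ∑ ω : Fin (k + 1) → Finset Y, (∏ w, wt p (ω w)) * F ω =
      ∑ y : Finset Y, wt p y * ∑ ω : Fin k → Finset Y, (∏ w, wt p (ω w)) * F (Fin.cons y ω) := by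
  rw [← (Fin.consEquiv fun _ => Finset Y).sum_comp, Fintype.sum_prod_type]
  refine sum_congr rfl fun y _ => ?_
  rw [mul_sum]
  refine sum_congr rfl fun ω _ => ?_
  rw [Fin.prod_univ_succ, mul_assoc]
  rfl

lemma prRows_le_one {R : Type} [Fintype R] [DecidableEq R] (h0 : 0 ≤ ρ) (h1 : ρ ≤ 1)
    (E : (R → Finset Y) → Prop) : prRows ρ E ≤ 1 := by
  have := sum_rows_prod (p := ρ) (R := R) fun _ (_ : Finset Y) => 1
  simp only [prod_const_one, mul_one, sum_wt] at this
  rw [← this]
  exact sum_le_sum fun ω _ => mul_le_of_le_one_right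
    (prod_nonneg fun w _ => wt_nonneg h0 h1 _) (ind_le_one _)

lemma prRows_mono {R : Type} [Fintype R] [DecidableEq R] (h0 : 0 ≤ ρ) (h1 : ρ ≤ 1)
    {E F : (R → Finset Y) → Prop} (h : ∀ ω, E ω → F ω) : prRows ρ E ≤ prRows ρ F :=
  sum_le_sum fun ω _ => mul_le_mul_of_nonneg_left (ind_mono (h ω))
    (prod_nonneg fun _ _ => wt_nonneg h0 h1 _)

end prob

/-- The stars with centres in `D` and degrees `d` fit in the rows `ω`, with leaves in `Z`. -/
def Fits {W Y : Type} (d : W → ℕ) {k : ℕ} (D : Finset W) (Z : Finset Y)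
    (ω : Fin k → Finset Y) : Prop :=
  ∃ φ : W → ℕ, Set.InjOn φ D ∧ ∃ L : W → Finset Y,
    (∀ c ∈ D, ∀ c' ∈ D, c ≠ c' → Disjoint (L c) (L c')) ∧
    ∀ c ∈ D, (L c).card = d c ∧ L c ⊆ Z ∧ ∃ h : φ c < k, L c ⊆ ω ⟨φ c, h⟩

theorem fits_core {W Y : Type} [DecidableEq W] [Fintype Y] [DecidableEq Y] {ρ : ℝ}
    (h0 : 0 ≤ ρ) (h1 : ρ ≤ 1) (d : W → ℕ) (m : ℕ) (π : ℕ → ℝ) (D0 : Finset W)
    (hπ : ∀ e ∈ D0.image d, ∀ Z : Finset Y, m ≤ Z.card → π e ≤ pr ρ fun w => e ≤ (w ∩ Z).card) :
    ∀ (k : ℕ) (D : Finset W) (Z : Finset Y), D ⊆ D0 → m + ∑ c ∈ D, d c ≤ Z.card →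
      prRows ρ (fun ω : Fin k → Finset Y => ¬ Fits d D Z ω) ≤
        ∑ e ∈ D.image d, 2 ^ (D.filter fun c => e ≤ d c).card * (1 - π e / 2) ^ k
  | 0, D, Z, _, _ => by
    rcases D.eq_empty_or_nonempty with rfl | ⟨c, hc⟩
    · refine le_of_eq ?_
      rw [image_empty, sum_empty]
      refine sum_eq_zero fun ω _ => ?_
      rw [ind_neg (not_not.2 ⟨fun _ => 0, by simp, fun _ => ∅, by simp, by simp⟩), mul_zero]
    · refine (prRows_le_one h0 h1 _).trans ?_
      refine le_trans ?_ (single_le_sum (fun e _ => by positivity) (mem_image_of_mem d hc))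
      rw [pow_zero, mul_one]
      exact one_le_pow₀ one_le_two
  | k + 1, D, Z, hD, hZ => by
    have hπ1 : ∀ e ∈ D.image d, 0 ≤ 1 - π e / 2 := fun e he => by
      have := (hπ e (image_subset_image hD he) Z (by omega)).trans (pr_le_one h0 h1 _)
      linarith
    have step : ∀ y : Finset Y,
        prRows ρ (fun ω : Fin k → Finset Y => ¬ Fits d D Z (Fin.cons y ω : Fin (k + 1) → _)) ≤
        ∑ e ∈ D.image d, (2 ^ (D.filter fun c => e ≤ d c).card * (1 - π e / 2) ^ k) *
          (1 - ind (e ≤ (y ∩ Z).card) / 2) := by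
      intro y
      rcases (D.filter fun c => d c ≤ (y ∩ Z).card).eq_empty_or_nonempty with h | h
      · refine le_trans (prRows_mono h0 h1 (F := fun ω => ¬ Fits d D Z ω) fun ω hω hf => hω ?_)
          ((fits_core h0 h1 d m π D0 hπ k D Z hD hZ).trans (le_of_eq ?_))
        · obtain ⟨φ, p1, L, p2, p3⟩ := hf
          refine ⟨fun c => φ c + 1, fun a ha b hb hab => p1 ha hb (by simpa using hab), L, p2,
            fun c hc => ?_⟩
          obtain ⟨q1, q2, q3, q4⟩ := p3 c hc
          exact ⟨q1, q2, Nat.succ_lt_succ q3, q4⟩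
        · refine sum_congr rfl fun e he => ?_
          obtain ⟨c, hc, rfl⟩ := mem_image.1 he
          rw [ind_neg (fun h' => (filter_eq_empty_iff.1 h hc) h')]
          ring
      · obtain ⟨c0, hc0, hmax⟩ := exists_max_image _ d h
        obtain ⟨hc0D, hc0d⟩ := mem_filter.1 hc0
        obtain ⟨L0, hL0, hL0c⟩ := exists_subset_card_eq hc0d
        have hL0Z : L0 ⊆ Z := hL0.trans inter_subset_right
        have hsum := add_sum_erase D d hc0D
        refine le_trans (prRows_mono h0 h1 (F := fun ω => ¬ Fits d (D.erase c0) (Z \ L0) ω)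
          fun ω hω hf => hω ?_)
          ((fits_core h0 h1 d m π D0 hπ k (D.erase c0) (Z \ L0) ((erase_subset _ _).trans hD)
            (by rw [card_sdiff_of_subset hL0Z]; omega)).trans ?_)
        · obtain ⟨φ, p1, L, p2, p3⟩ := hf
          refine ⟨fun c => if c = c0 then 0 else φ c + 1, fun a ha b hb hab => ?_,
            fun c => if c = c0 then L0 else L c, fun a ha b hb hab => ?_, fun c hc => ?_⟩
          · by_cases h2 : a = c0 <;> by_cases h3 : b = c0 <;>
              simp only [h2, h3, if_true, if_false] at hab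
            · rw [h2, h3]
            · omega
            · omega
            · exact p1 (mem_erase.2 ⟨h2, ha⟩) (mem_erase.2 ⟨h3, hb⟩) (by omega)
          · by_cases h2 : a = c0 <;> by_cases h3 : b = c0 <;>
              simp only [h2, h3, if_true, if_false]
            · exact absurd (h2.trans h3.symm) hab
            · exact disjoint_of_subset_right (p3 b (mem_erase.2 ⟨h3, hb⟩)).2.1 disjoint_sdiff
            · exact disjoint_of_subset_left (p3 a (mem_erase.2 ⟨h2, ha⟩)).2.1 sdiff_disjoint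
            · exact p2 a (mem_erase.2 ⟨h2, ha⟩) b (mem_erase.2 ⟨h3, hb⟩) hab
          · by_cases h2 : c = c0 <;> simp only [h2, if_true, if_false]
            · exact ⟨hL0c, hL0Z, Nat.succ_pos _, hL0.trans inter_subset_left⟩
            · obtain ⟨q1, q2, q3, q4⟩ := p3 c (mem_erase.2 ⟨h2, hc⟩)
              exact ⟨q1, q2.trans sdiff_subset, Nat.succ_lt_succ q3, q4⟩
        · have hterm : ∀ e ∈ D.image d,
              (2 : ℝ) ^ ((D.erase c0).filter fun c => e ≤ d c).card * (1 - π e / 2) ^ k ≤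
              (2 ^ (D.filter fun c => e ≤ d c).card * (1 - π e / 2) ^ k) *
                (1 - ind (e ≤ (y ∩ Z).card) / 2) := by
            intro e he
            have hk := pow_nonneg (hπ1 e he) k
            by_cases h2 : e ≤ (y ∩ Z).card
            · obtain ⟨c, hc, rfl⟩ := mem_image.1 he
              have h3 : c0 ∈ D.filter fun c' => d c ≤ d c' :=
                mem_filter.2 ⟨hc0D, hmax c (mem_filter.2 ⟨hc, h2⟩)⟩
              rw [ind_pos h2, filter_erase, ← card_erase_add_one h3, pow_succ]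
              exact le_of_eq (by ring)
            · rw [ind_neg h2, zero_div, sub_zero, mul_one]
              exact mul_le_mul_of_nonneg_right (pow_le_pow_right₀ one_le_two
                (card_le_card (filter_subset_filter _ (erase_subset _ _)))) hk
          refine le_trans (sum_le_sum_of_subset_of_nonneg
            (image_subset_image (erase_subset c0 D)) fun e he _ => ?_) (sum_le_sum hterm)
          exact mul_nonneg (by positivity) (pow_nonneg (hπ1 e he) k)
    rw [prRows, sum_rows_succ]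
    refine (sum_le_sum fun y _ => mul_le_mul_of_nonneg_left (step y) (wt_nonneg h0 h1 y)).trans ?_
    simp only [mul_sum]
    rw [sum_comm]
    refine sum_le_sum fun e he => ?_
    have h2 := hπ e (image_subset_image hD he) Z (by omega)
    have h3 : ∑ y : Finset Y, wt ρ y * (1 - ind (e ≤ (y ∩ Z).card) / 2) =
        1 - pr ρ (fun w => e ≤ (w ∩ Z).card) / 2 := by
      rw [pr, sum_div, ← sum_wt (X := Y) ρ, ← sum_sub_distrib]
      simp only [sum_wt]
      exact sum_congr rfl fun y _ => by ring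
    simp only [mul_left_comm (wt ρ _)]
    rw [← mul_sum, h3, pow_succ, ← mul_assoc]
    exact mul_le_mul_of_nonneg_left (by linarith)
      (mul_nonneg (by positivity) (pow_nonneg (hπ1 e he) k))

end Crest.Agent.R52
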