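import Crest.Agent.R52.Defs
import Crest.Agent.R52.StarAux

/-! Row 52: star forests appear in the random graph (sparse case). -/

set_option autoImplicit false

namespace Crest.Agent.R52

open Finset Crest.Agent.Lib.Sunflower Crest.CombinatoricsR.RandomGraph

/-- Number of centres (values of `par` on `Lf`) with at least `d` leaves. -/
def starCount {W : Type} [DecidableEq W] (Lf : Finset W) (par : W → W) (d : ℕ) : ℕ :=
  ((Lf.image par).filter fun c => d ≤ (Lf.filter fun v => par v = c).card).card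

lemma sum_third_le {W : Type} [DecidableEq W] (D : Finset W) (d : W → ℕ) :
    ∑ e ∈ D.image d, (1 / 3 : ℝ) ^ (D.filter fun c => e ≤ d c).card ≤ 1 / 2 := by
  have hlt : ∀ e ∈ D.image d, ∀ e', e < e' →
      (D.filter fun c => e' ≤ d c).card < (D.filter fun c => e ≤ d c).card := by
    intro e he e' h
    obtain ⟨c, hc, rfl⟩ := mem_image.1 he
    refine card_lt_card ⟨fun x hx => ?_, fun h' => ?_⟩
    · rw [mem_filter] at hx ⊢; exact ⟨hx.1, by omega⟩
    · have := (mem_filter.1 (h' (mem_filter.2 ⟨hc, le_rfl⟩))).2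
      omega
  rw [← sum_image (g := fun e => (D.filter fun c => e ≤ d c).card)
    (f := fun s => (1 / 3 : ℝ) ^ s) (fun e he e' he' h => by
      rcases lt_trichotomy e e' with h' | h' | h'
      · exact absurd h (hlt e he e' h').ne'
      · exact h'
      · exact absurd h (hlt e' he' e h').ne)]
  refine le_trans (sum_le_sum_of_subset_of_nonneg (t := Ico 1 (D.card + 1)) ?_
    fun _ _ _ => by positivity) ((geom_sum_Ico_le_of_lt_one (by norm_num) (by norm_num)).trans
      (by norm_num))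
  intro s hs
  obtain ⟨e, he, rfl⟩ := mem_image.1 hs
  obtain ⟨c, hc, rfl⟩ := mem_image.1 he
  exact mem_Ico.2 ⟨card_pos.2 ⟨c, mem_filter.2 ⟨hc, le_rfl⟩⟩, Nat.lt_succ_of_le (card_filter_le _ _)⟩

theorem star_good (n : ℕ) (W : Type) [Fintype W] [DecidableEq W] (hW : Fintype.card W ≤ n)
    (Lf : Finset W) (par : W → W) (hpar : ∀ v ∈ Lf, par v ∉ Lf)
    (hsmall : 100 * Lf.card ≤ n) (p : ℝ) (hp : 0 < p) (hρ : 10 ^ 8 * p ≤ 1 / 2)
    (hcount : ∀ d : ℕ, 1 ≤ d → (starCount Lf par d : ℝ) ≤ 6 * n * (3 * n * p / d) ^ d) :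
    Good n (10 ^ 8 * p) (patG Lf fun v => {par v}) := by
  classical
  set ρ : ℝ := 10 ^ 8 * p with hρdef
  have h0 : 0 < ρ := by positivity
  have h1 : ρ ≤ 1 := by linarith
  rcases Lf.eq_empty_or_nonempty with rfl | hLf
  · obtain ⟨g⟩ := Function.Embedding.nonempty_of_card_le (α := W) (β := Fin n) (by simpa using hW)
    rw [Good, pr_of_forall fun z => patG_isContained hW ∅ _ _ ∅ Subset.rfl (by simp) g
      g.injective.injOn (by simp)]
    norm_num
  have hn : 100 ≤ n := by have := card_pos.2 hLf; omega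
  have hnR : (100 : ℝ) ≤ n := by exact_mod_cast hn
  set D := Lf.image par with hD
  set d : W → ℕ := fun c => (Lf.filter fun v => par v = c).card with hd
  have hsum : ∑ c ∈ D, d c = Lf.card := (card_eq_sum_card_image par Lf).symm
  have hd1 : ∀ c ∈ D, 1 ≤ d c := fun c hc => by
    obtain ⟨v, hv, rfl⟩ := mem_image.1 hc
    exact card_pos.2 ⟨v, mem_filter.2 ⟨hv, rfl⟩⟩
  have hs : ∀ e, 100 * (starCount Lf par e : ℝ) ≤ n := fun e => by
    have : starCount Lf par e ≤ Lf.card := (card_filter_le _ _).trans card_image_le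
    exact_mod_cast (show 100 * starCount Lf par e ≤ n by omega)
  have core := fits_core (Y := Fin (n / 2)) h0.le h1 d (n / 4)
    (fun e => 18 * starCount Lf par e / n) D (fun e he Z hZ => by
      obtain ⟨c, hc, rfl⟩ := mem_image.1 he
      have he1 := hd1 c hc
      have he2 : d c ≤ Lf.card := card_filter_le _ _
      refine le_trans (le_min ?_ ?_) (pr_inter_lower h0 hρ he1 (by omega) Z hZ)
      · rw [div_le_iff₀ (by linarith)]; linarith [hs (d c)]
      · have he' : (1 : ℝ) ≤ d c := by exact_mod_cast he1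
        have hm : (n : ℝ) ≤ 5 * (n / 4 : ℕ) := by exact_mod_cast (show n ≤ 5 * (n / 4) by omega)
        calc 18 * (starCount Lf par (d c) : ℝ) / n ≤ 108 ^ 1 * (3 * n * p / d c) ^ d c := by
              rw [div_le_iff₀ (by linarith)]; linarith [hcount (d c) he1]
          _ ≤ 108 ^ d c * (3 * n * p / d c) ^ d c :=
              mul_le_mul_of_nonneg_right (pow_le_pow_right₀ (by norm_num) he1) (by positivity)
          _ ≤ _ := by
              rw [← mul_pow]
              refine pow_le_pow_left₀ (by positivity) ?_ _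
              rw [← mul_div_assoc, div_le_div_iff₀ (by linarith) (by linarith), hρdef]
              have : 0 ≤ p * d c := by positivity
              nlinarith [mul_le_mul_of_nonneg_right hm this])
    (n / 2) D univ Subset.rfl (by rw [hsum, card_univ, Fintype.card_fin]; omega)
  have hbound : ∑ e ∈ D.image d, (2 : ℝ) ^ (D.filter fun c => e ≤ d c).card *
      (1 - 18 * (starCount Lf par e : ℝ) / n / 2) ^ (n / 2) ≤ 1 / 2 := by
    refine le_trans (sum_le_sum fun e _ => ?_) (sum_third_le D d)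
    change (2 : ℝ) ^ starCount Lf par e * _ ≤ (1 / 3) ^ starCount Lf par e
    set s := starCount Lf par e
    have hs' := hs e
    have a0 : 18 * (s : ℝ) / n ≤ 1 := by rw [div_le_iff₀ (by linarith)]; linarith
    have a1 : (1 - 18 * (s : ℝ) / n / 2) ^ (n / 2) ≤ Real.exp (-3) ^ s := by
      calc _ ≤ Real.exp (-(18 * (s : ℝ) / n / 2)) ^ (n / 2) :=
            pow_le_pow_left₀ (by linarith)
              (by linarith [Real.add_one_le_exp (-(18 * (s : ℝ) / n / 2))]) _
        _ ≤ _ := by
            rw [← Real.exp_nat_mul, ← Real.exp_nat_mul]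
            refine Real.exp_le_exp.2 ?_
            have hm : (n : ℝ) ≤ 3 * (n / 2 : ℕ) := by
              exact_mod_cast (show n ≤ 3 * (n / 2) by omega)
            have : (s : ℝ) * 3 ≤ (n / 2 : ℕ) * (18 * (s : ℝ) / n / 2) := by
              rw [div_div, ← mul_div_assoc, le_div_iff₀ (by linarith)]
              nlinarith [mul_le_mul_of_nonneg_right hm (Nat.cast_nonneg s : (0 : ℝ) ≤ s)]
            linarith
    have a2 : 2 * Real.exp (-3) ≤ 1 / 3 := by
      have b1 : (2 : ℝ) ^ 3 ≤ Real.exp 3 := by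
        calc (2 : ℝ) ^ 3 ≤ Real.exp 1 ^ 3 :=
              pow_le_pow_left₀ (by norm_num) (by linarith [Real.add_one_le_exp 1]) 3
          _ = _ := by rw [← Real.exp_nat_mul]; norm_num
      rw [Real.exp_neg, ← div_eq_mul_inv, div_le_iff₀ (Real.exp_pos _)]
      linarith
    calc _ ≤ (2 : ℝ) ^ s * Real.exp (-3) ^ s := mul_le_mul_of_nonneg_left a1 (by positivity)
      _ ≤ _ := by rw [← mul_pow]; exact pow_le_pow_left₀ (by positivity) a2 s
  let lo : Fin (n / 2) → Fin n := fun w => ⟨w, by omega⟩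
  let hi : Fin (n / 2) → Fin n := fun w => ⟨n / 2 + w, by omega⟩
  have hne : ∀ w y, lo w ≠ hi y := fun w y h => by
    have := congrArg Fin.val h
    simp only [lo, hi] at this
    omega
  have hlo : Function.Injective lo := fun a b h =>
    Fin.ext (congrArg (Fin.val (n := n)) h :)
  have hhi : Function.Injective hi := fun a b h => by
    have := congrArg Fin.val h
    simp only [hi] at this
    exact Fin.ext (by omega)
  let j : Fin (n / 2) → Fin (n / 2) → EdgeSlot n := fun w y =>
    ⟨s(lo w, hi y), by simpa using hne w y⟩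
  have hj : Function.Injective fun a : Fin (n / 2) × Fin (n / 2) => j a.1 a.2 := by
    rintro ⟨w, u⟩ ⟨w', u'⟩ h
    have h' : s(lo w, hi u) = s(lo w', hi u') := congrArg Subtype.val h
    rcases Sym2.eq_iff.1 h' with ⟨h2, h3⟩ | ⟨h2, -⟩
    · rw [hlo h2, hhi h3]
    · exact absurd h2 (hne _ _)
  have h2 := core.trans hbound
  rw [← pr_rows j hj, pr_not] at h2
  refine le_trans (by linarith) (pr_mono h0.le h1 (E := fun z => Fits d D univ
    fun w => univ.filter fun y => j w y ∈ z) ?_)
  rintro z ⟨φ, p1, L, p2, p3⟩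
  have : Nonempty (Fin (n / 2)) := ⟨⟨0, by omega⟩⟩
  have hg : ∀ c, ∃ g : W → Fin (n / 2), c ∈ D →
      (∀ v ∈ Lf, par v = c → g v ∈ L c) ∧ Set.InjOn g (Lf.filter fun v => par v = c) := by
    intro c
    by_cases hc : c ∈ D
    · obtain ⟨g, g1, g2⟩ := (Lf.filter fun v => par v = c).finite_toSet.exists_injOn_of_encard_le
        (t := (L c : Set (Fin (n / 2))))
        (by rw [Set.encard_coe_eq_coe_finsetCard, Set.encard_coe_eq_coe_finsetCard, (p3 c hc).1])
      exact ⟨g, fun _ => ⟨fun v hv h => g1 (mem_coe.2 (mem_filter.2 ⟨hv, h⟩)), g2⟩⟩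
    · exact ⟨fun _ => Classical.arbitrary _, fun h => absurd h hc⟩
  choose g hg using hg
  have hpD : ∀ v ∈ Lf, par v ∈ D := fun v hv => mem_image_of_mem _ hv
  have hDL : ∀ c ∈ D, c ∉ Lf := fun c hc => by
    obtain ⟨v, hv, rfl⟩ := mem_image.1 hc
    exact hpar v hv
  let ψ : W → Fin n := fun v => if v ∈ Lf then hi (g (par v) v)
    else if h : φ v < n / 2 then lo ⟨φ v, h⟩ else ⟨0, by omega⟩
  have ψ1 : ∀ v ∈ Lf, ψ v = hi (g (par v) v) := fun v hv => if_pos hv
  have ψ2 : ∀ c ∈ D, ∀ h : φ c < n / 2, ψ c = lo ⟨φ c, h⟩ := fun c hc h => by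
    simp only [ψ, hDL c hc, if_false, h, dif_pos]
  refine patG_isContained hW Lf _ _ (Lf ∪ D) subset_union_left
    (fun v hv => singleton_subset_iff.2 (mem_union_right _ (hpD v hv))) ψ ?_ ?_
  · intro a ha b hb hab
    rcases mem_union.1 (mem_coe.1 ha) with ha | ha <;> rcases mem_union.1 (mem_coe.1 hb) with hb | hb
    · rw [ψ1 a ha, ψ1 b hb] at hab
      have hab := hhi hab
      by_cases h : par a = par b
      · rw [h] at hab
        exact (hg _ (hpD b hb)).2 (mem_coe.2 (mem_filter.2 ⟨ha, h⟩))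
          (mem_coe.2 (mem_filter.2 ⟨hb, rfl⟩)) hab
      · exact absurd ((hg _ (hpD b hb)).1 b hb rfl) (hab ▸ disjoint_left.1
          (p2 _ (hpD a ha) _ (hpD b hb) h) ((hg _ (hpD a ha)).1 a ha rfl))
    · rw [ψ1 a ha, ψ2 b hb (p3 b hb).2.2.1] at hab
      exact absurd hab.symm (hne _ _)
    · rw [ψ1 b hb, ψ2 a ha (p3 a ha).2.2.1] at hab
      exact absurd hab (hne _ _)
    · rw [ψ2 b hb (p3 b hb).2.2.1, ψ2 a ha (p3 a ha).2.2.1] at hab
      exact p1 ha hb (congrArg Fin.val (hlo hab))
  · intro v hv u hu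
    rw [mem_singleton.1 hu]
    obtain ⟨-, -, q1, q2⟩ := p3 _ (hpD v hv)
    rw [ψ1 v hv, ψ2 _ (hpD v hv) q1]
    exact (edgeGraph_adj z (hne _ _)).2 (mem_filter.1 (q2 ((hg _ (hpD v hv)).1 v hv rfl))).2

end Crest.Agent.R52
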